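import Vale.Agent.P256.Psd

/-! Facial reduction and the barrier lift for spectrahedral shadows. -/

open Matrix Filter Topology

namespace Vale.Agent.P256

set_option linter.unusedSectionVars false

variable {N : Type*} [Fintype N] [DecidableEq N]

theorem barrier (S : Submodule ℝ (Matrix N N ℝ)) (hS : ∀ H ∈ S, Hᵀ = H) {Y₁ : Matrix N N ℝ}
    (h₁ : Y₁.PosDef) : ∃ Y Y' : Matrix N N ℝ, Y.PosDef ∧ Y'.PosDef ∧ Y * Y' = 1 ∧ Y - Y₁ ∈ S ∧
      ∀ H ∈ S, ((1 - Y' * Y') * H).trace = 0 := by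
  let f : Matrix N N ℝ × Matrix N N ℝ → ℝ := fun z => z.1.trace + z.2.trace
  have hf : Continuous f := by fun_prop
  let T : Set (Matrix N N ℝ × Matrix N N ℝ) :=
    {z | z.1.PosSemidef ∧ z.2.PosSemidef ∧ z.1 * z.2 = 1 ∧ z.1 - Y₁ ∈ S}
  have hT : IsClosed T :=
    (isClosed_psd.preimage continuous_fst).inter ((isClosed_psd.preimage continuous_snd).inter
      ((isClosed_eq (by fun_prop) continuous_const).inter
        (S.closed_of_finiteDimensional.preimage (by fun_prop))))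
  set c := f (Y₁, Y₁⁻¹) with hc
  have hmem : ∀ Y : Matrix N N ℝ, Y.PosDef → Y - Y₁ ∈ S → (Y, Y⁻¹) ∈ T := fun Y hY h =>
    ⟨hY.posSemidef, hY.inv.posSemidef, mul_nonsing_inv _ (isUnit_iff_isUnit_det _ |>.1 hY.isUnit), h⟩
  have hK : IsCompact (T ∩ {z | f z ≤ c}) := by
    refine (((isCompact_Icc (a := -c) (b := c)).matrix).prod
      ((isCompact_Icc (a := -c) (b := c)).matrix)).of_isClosed_subset
      (hT.inter (isClosed_le hf continuous_const)) ?_
    rintro z ⟨⟨h1, h2, -⟩, h3⟩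
    have a1 := h1.trace_nonneg
    have a2 := h2.trace_nonneg
    have h3' : z.1.trace + z.2.trace ≤ c := h3
    exact ⟨fun i j => abs_le.1 ((psd_abs_le h1 i j).trans (by linarith)),
      fun i j => abs_le.1 ((psd_abs_le h2 i j).trans (by linarith))⟩
  obtain ⟨⟨Y, Y'⟩, ⟨⟨hY, hY', hYY, hYS⟩, hle⟩, hmin⟩ := hK.exists_isMinOn
    ⟨(Y₁, Y₁⁻¹), hmem _ h₁ (by simp), hc.ge⟩ hf.continuousOn
  dsimp only at hY hY' hYY hYS
  have hmin' : ∀ z ∈ T, f (Y, Y') ≤ f z := fun z hz => by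
    rcases le_total (f z) c with h | h
    · exact hmin ⟨hz, h⟩
    · exact le_trans hle h
  have hdet : Y.det * Y'.det = 1 := by rw [← det_mul, hYY, det_one]
  have hpd : Y.PosDef := hY.posDef_iff_det_ne_zero.2 (left_ne_zero_of_mul_eq_one hdet)
  have hpd' : Y'.PosDef := hY'.posDef_iff_det_ne_zero.2 (right_ne_zero_of_mul_eq_one hdet)
  have hYY' : Y' * Y = 1 := mul_eq_one_comm.1 hYY
  have key : ∀ H ∈ S, 0 ≤ ((1 - Y' * Y') * H).trace := by
    intro H hH
    have ht : Tendsto (fun t : ℝ => Y + t • H) (𝓝[>] 0) (𝓝 Y) := by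
      have : Continuous fun t : ℝ => Y + t • H := by fun_prop
      simpa using (this.tendsto 0).mono_left nhdsWithin_le_nhds
    have hev := pd_eventually hpd ht (fun t => by simp [psd_symm hY, hS H hH])
    have hinv : Tendsto (fun t : ℝ => (Y + t • H)⁻¹) (𝓝[>] 0) (𝓝 Y⁻¹) := by
      refine (continuousAt_matrix_inv Y ?_).tendsto.comp ht
      rw [Ring.inverse_eq_inv']
      exact continuousAt_inv₀ hpd.det_pos.ne'
    have hlim : Tendsto (fun t : ℝ => ((1 - Y' * Y') * H).trace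
        + t * (Y' * H * (Y + t • H)⁻¹ * H * Y').trace) (𝓝[>] 0)
        (𝓝 (((1 - Y' * Y') * H).trace + 0 * (Y' * H * Y⁻¹ * H * Y').trace)) := by
      refine tendsto_const_nhds.add (Tendsto.mul (tendsto_id.mono_left nhdsWithin_le_nhds) ?_)
      have : Continuous fun Z : Matrix N N ℝ => (Y' * H * Z * H * Y').trace := by fun_prop
      exact (this.tendsto _).comp hinv
    rw [zero_mul, add_zero] at hlim
    refine ge_of_tendsto hlim ?_
    filter_upwards [hev, self_mem_nhdsWithin] with t h1 (h2 : 0 < t)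
    have h3 := hmin' _ (hmem _ h1 (by
      rw [add_sub_right_comm]; exact S.add_mem hYS (S.smul_mem t hH)))
    set Z := (Y + t • H)⁻¹
    have hu := (isUnit_iff_isUnit_det _).1 h1.isUnit
    have e1 : Z = Y' - t • (Y' * H * Z) := by
      have : Y' * ((Y + t • H) * Z) = Y' := by rw [mul_nonsing_inv _ hu, mul_one]
      rw [add_mul, mul_add, ← mul_assoc, hYY', one_mul] at this
      rw [eq_sub_iff_add_eq]; simpa [mul_assoc] using this
    have e2 : Z = Y' - t • (Z * H * Y') := by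
      have : Z * (Y + t • H) * Y' = Y' := by rw [nonsing_inv_mul _ hu, one_mul]
      rw [mul_add, add_mul, mul_assoc, hYY, mul_one] at this
      rw [eq_sub_iff_add_eq]; simpa [mul_assoc] using this
    have e3 : Z = Y' - t • (Y' * H * Y') + (t * t) • (Y' * H * Z * H * Y') := by
      conv_lhs => rw [e1, e2]
      simp only [mul_sub, smul_sub, Matrix.mul_smul, smul_smul, mul_assoc]
      abel
    have e4 : Z.trace = Y'.trace - t * (Y' * Y' * H).trace
        + t * t * (Y' * H * Z * H * Y').trace := by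
      conv_lhs => rw [e3]
      rw [trace_add, trace_sub, trace_smul, trace_smul, trace_mul_cycle Y' H Y']; rfl
    simp only [f, trace_add, trace_smul, smul_eq_mul, e4] at h3
    rw [sub_mul, one_mul, trace_sub]
    refine le_of_mul_le_mul_left ?_ h2
    linarith
  refine ⟨Y, Y', hpd, hpd', hYY, hYS, fun H hH => le_antisymm ?_ (key H hH)⟩
  have := key (-H) (S.neg_mem hH)
  rwa [mul_neg, trace_neg, neg_nonneg] at this

theorem rigid_lin {C Y' dC dY' : Matrix N N ℝ} (hC : C.PosDef) (hY' : Y'.PosDef)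
    (h : C * C * Y' = 1) (hs : dCᵀ = dC) (h1 : (dC * C + C * dC) * Y' + C * C * dY' = 0)
    (h2 : ((dY' * Y' + Y' * dY') * (dC * C + C * dC)).trace = 0) : dC = 0 ∧ dY' = 0 := by
  set dY := dC * C + C * dC with hdY
  have h' : Y' * (C * C) = 1 := mul_eq_one_comm.1 h
  have hsY : dYᵀ = dY := by
    rw [hdY, transpose_add, transpose_mul, transpose_mul, hs, pd_symm hC, add_comm]
  have e : dY' = -(Y' * dY * Y') := by
    have := congrArg (Y' * ·) h1
    simp only [mul_add, mul_zero, ← mul_assoc] at this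
    rw [mul_assoc Y' C C, h', one_mul] at this
    exact eq_neg_of_add_eq_zero_right this
  have h3 : (Y' * dY * Y' * (Y' * dY)ᵀ).trace = 0 := by
    rw [transpose_mul, hsY, pd_symm hY']
    rw [e, add_mul, trace_add] at h2
    have a1 : (-(Y' * dY * Y') * Y' * dY).trace = -(Y' * dY * Y' * (dY * Y')).trace := by
      rw [neg_mul, neg_mul, trace_neg, trace_mul_comm _ dY, ← mul_assoc, trace_mul_comm _ Y']
      simp only [mul_assoc]
    have a2 : (Y' * -(Y' * dY * Y') * dY).trace = -(Y' * dY * Y' * (dY * Y')).trace := by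
      rw [mul_neg, neg_mul, trace_neg, mul_assoc, trace_mul_comm]
      simp only [mul_assoc]
    linarith
  have h4 := eq_zero_of_trace hY' h3
  have h5 : dY = 0 := by
    have := congrArg (C * C * ·) h4
    simpa [← mul_assoc, h] using this
  refine ⟨eq_zero_of_trace hC ?_, by rw [e, h5]; simp⟩
  have := congrArg (fun Z => (dC * Z).trace) h5
  simp only [hdY, mul_add, trace_add, mul_zero, trace_zero] at this
  rw [← mul_assoc, ← trace_mul_cycle dC C dC, ← mul_assoc] at this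
  rw [hs]
  linarith

theorem facial {X U : Type*} [AddCommGroup X] [Module ℝ X] [AddCommGroup U] [Module ℝ U]
    (L : ℝ × X × U →ₗ[ℝ] Matrix N N ℝ) (hL : ∀ w, (L w)ᵀ = L w) (K : Set X)
    (hK : ∀ x, x ∈ K ↔ ∃ u, (L (1, x, u)).PosSemidef) (hne : K.Nonempty) :
    ∃ S : Submodule ℝ (ℝ × X × Matrix N N ℝ), (∀ z ∈ S, z.2.2ᵀ = z.2.2) ∧
      (∀ z ∈ S, 0 < z.1 → z.2.2.PosSemidef → z.1⁻¹ • z.2.1 ∈ K) ∧
      (∀ x ∈ K, ∃ Y, Y.PosSemidef ∧ (1, x, Y) ∈ S) ∧
      ∃ x₀ ∈ K, ∃ Y₀, Y₀.PosDef ∧ (1, x₀, Y₀) ∈ S := by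
  classical
  have hex : ∃ n, ∃ x u, (L (1, x, u)).PosSemidef ∧
      Module.finrank ℝ (LinearMap.ker (L (1, x, u)).mulVecLin) = n := by
    obtain ⟨x, hx⟩ := hne
    obtain ⟨u, hu⟩ := (hK x).1 hx
    exact ⟨_, x, u, hu, rfl⟩
  obtain ⟨x₀, u₀, h₀, hmin⟩ := Nat.find_spec hex
  set Y₀ := L (1, x₀, u₀) with hY₀
  have hker : ∀ x u, (L (1, x, u)).PosSemidef → ∀ w, Y₀ *ᵥ w = 0 → L (1, x, u) *ᵥ w = 0 := by
    intro x u hu
    have e : L (1, (1 / 2 : ℝ) • (x₀ + x), (1 / 2 : ℝ) • (u₀ + u))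
        = (1 / 2 : ℝ) • (Y₀ + L (1, x, u)) := by
      rw [hY₀, ← map_add, ← map_smul]; congr 1; ext <;> norm_num
    have hp : ((1 / 2 : ℝ) • (Y₀ + L (1, x, u))).PosSemidef := (h₀.add hu).smul (by norm_num)
    have hboth : ∀ w, ((1 / 2 : ℝ) • (Y₀ + L (1, x, u))) *ᵥ w = 0 →
        Y₀ *ᵥ w = 0 ∧ L (1, x, u) *ᵥ w = 0 := by
      intro w hw
      have h1 := congrArg (w ⬝ᵥ ·) hw
      simp only [smul_mulVec, add_mulVec, dotProduct_smul, dotProduct_add, dotProduct_zero,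
        smul_eq_mul] at h1
      have a1 := (psd_iff.1 h₀).2 w
      have a2 := (psd_iff.1 hu).2 w
      exact ⟨psd_zero h₀ (by linarith), psd_zero hu (by linarith)⟩
    have hle : LinearMap.ker ((1 / 2 : ℝ) • (Y₀ + L (1, x, u))).mulVecLin
        ≤ LinearMap.ker Y₀.mulVecLin := fun w hw => (hboth w hw).1
    have heq := Submodule.eq_of_le_of_finrank_le hle (by
      rw [hmin]
      exact Nat.find_min' hex ⟨_, _, e ▸ hp, by rw [e]⟩)
    intro w hw
    have : w ∈ LinearMap.ker Y₀.mulVecLin := hw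
    rw [← heq] at this
    exact (hboth w this).2
  obtain ⟨m, n, hn⟩ := Submodule.fg_iff_exists_fin_generating_family.1
    (IsNoetherian.noetherian (LinearMap.ker Y₀.mulVecLin))
  let Q : Matrix N (Fin m) ℝ := fun a k => n k a
  have hQ : ∀ Z : Matrix N N ℝ, (∀ w, Y₀ *ᵥ w = 0 → Z *ᵥ w = 0) → Z * (Q * Qᵀ) = 0 := by
    intro Z hZ
    have : Z * Q = 0 := by
      ext a k
      have : n k ∈ LinearMap.ker Y₀.mulVecLin := hn ▸ Submodule.subset_span ⟨k, rfl⟩
      exact congrFun (hZ _ this) a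
    rw [← Matrix.mul_assoc, this, Matrix.zero_mul]
  set P := Q * Qᵀ with hP
  have hPp : P.PosSemidef := posSemidef_self_mul_conjTranspose Q
  have hM : (Y₀ + P).PosDef := by
    refine pd_iff.2 ⟨psd_symm (h₀.add hPp), fun w hw => ?_⟩
    refine lt_of_le_of_ne ((psd_iff.1 (h₀.add hPp)).2 w) fun h => hw ?_
    rw [add_mulVec, dotProduct_add] at h
    have a1 := (psd_iff.1 h₀).2 w
    have a2 := (psd_iff.1 hPp).2 w
    have b1 : w ∈ Submodule.span ℝ (Set.range n) := hn ▸ psd_zero h₀ (by linarith)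
    have b2 : Qᵀ *ᵥ w = 0 := by
      have : w ⬝ᵥ P *ᵥ w = 0 := by linarith
      rw [hP, ← mulVec_mulVec, dotProduct_mulVec, ← mulVec_transpose] at this
      exact dotProduct_self_eq_zero.1 this
    obtain ⟨c, hc⟩ := (Submodule.mem_span_range_iff_exists_fun ℝ).1 b1
    apply dotProduct_self_eq_zero.1
    conv_lhs => rw [← hc, sum_dotProduct, hc]
    refine Finset.sum_eq_zero fun k _ => ?_
    have : n k ⬝ᵥ w = 0 := congrFun b2 k
    rw [smul_dotProduct, this, smul_zero]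
  have hYP := hQ Y₀ fun _ h => h
  let S : Submodule ℝ (ℝ × X × Matrix N N ℝ) :=
    { carrier := {z | ∃ u, L (z.1, z.2.1, u) * P = 0 ∧ z.2.2 = L (z.1, z.2.1, u) + z.1 • P}
      add_mem' := by
        rintro z z' ⟨u, h1, h2⟩ ⟨u', h1', h2'⟩
        have e : L ((z + z').1, (z + z').2.1, u + u') = L (z.1, z.2.1, u) + L (z'.1, z'.2.1, u') := by
          rw [← map_add]; rfl
        refine ⟨u + u', by rw [e, add_mul, h1, h1', add_zero], ?_⟩
        rw [e, Prod.snd_add, Prod.snd_add, h2, h2', Prod.fst_add, add_smul]; abel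
      zero_mem' := ⟨0, by
        have : L ((0 : ℝ × X × Matrix N N ℝ).1, (0 : ℝ × X × Matrix N N ℝ).2.1, 0) = 0 := map_zero L
        rw [this]; simp⟩
      smul_mem' := by
        rintro c z ⟨u, h1, h2⟩
        have e : L ((c • z).1, (c • z).2.1, c • u) = c • L (z.1, z.2.1, u) := by
          rw [← map_smul]; rfl
        refine ⟨c • u, by rw [e, smul_mul_assoc, h1, smul_zero], ?_⟩
        rw [e, Prod.smul_snd, Prod.smul_snd, h2, Prod.smul_fst, smul_add, smul_smul, smul_eq_mul] }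
  refine ⟨S, ?_, ?_, ?_, x₀, (hK _).2 ⟨u₀, h₀⟩, Y₀ + P, hM, u₀, hYP, by simp [hY₀]⟩
  · rintro z ⟨u, -, h2⟩
    rw [h2, transpose_add, transpose_smul, hL, psd_symm hPp]
  · rintro z ⟨u, h1, h2⟩ ht hp
    set Z := L (z.1, z.2.1, u) with hZ
    have hPZ : P * Z = 0 := by
      have := congrArg transpose h1
      rwa [transpose_mul, hL, psd_symm hPp, transpose_zero] at this
    have h3 := psd_conj hp Y₀
    have h4 : Y₀ * z.2.2 * Y₀ᵀ = star (Y₀ + P) * Z * (Y₀ + P) := by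
      have : star (Y₀ + P) = Y₀ + P := hM.1
      rw [this, h2, psd_symm h₀]
      simp only [mul_add, add_mul, Matrix.mul_smul, hYP, hPZ, mul_assoc, h1]
      simp
    rw [h4, hM.isUnit.posSemidef_star_left_conjugate_iff] at h3
    refine (hK _).2 ⟨z.1⁻¹ • u, ?_⟩
    have e : L (1, z.1⁻¹ • z.2.1, z.1⁻¹ • u) = z.1⁻¹ • Z := by
      rw [hZ, ← map_smul]; congr 1; ext <;> simp [ht.ne']
    rw [e]
    exact h3.smul (inv_pos.2 ht).le
  · intro x hx
    obtain ⟨u, hu⟩ := (hK x).1 hx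
    exact ⟨L (1, x, u) + P, hu.add hPp, u, hQ _ (hker x u hu), by simp⟩

theorem exists_cut {V : Type*} [AddCommGroup V] [Module ℝ V] [FiniteDimensional ℝ V]
    (S : Submodule ℝ V) : ∃ (m : ℕ) (l : Fin m → V →ₗ[ℝ] ℝ), ∀ z, z ∈ S ↔ ∀ r, l r z = 0 := by
  let b := Module.finBasis ℝ (V ⧸ S)
  refine ⟨_, fun r => b.coord r ∘ₗ S.mkQ, fun z => ?_⟩
  rw [← Submodule.Quotient.mk_eq_zero, ← b.forall_coord_eq_zero_iff]
  rfl

/-- the linear equations describing a lift -/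
def Cut {ι ρ T : Type*} [Fintype ι] [CommRing T] [Algebra ℝ T] (p₀ : ρ → ℝ) (p₁ : ρ → ι → ℝ)
    (p₂ : ρ → N → N → ℝ) (t : T) (x : ι → T) (Y : Matrix N N T) (r : ρ) : T :=
  p₀ r • t + ∑ i, p₁ r i • x i + ∑ a, ∑ b, p₂ r a b • Y a b

theorem normal_form {ι U : Type*} [Fintype ι] [DecidableEq ι] [AddCommGroup U] [Module ℝ U]
    (L : ℝ × (ι → ℝ) × U →ₗ[ℝ] Matrix N N ℝ) (hL : ∀ w, (L w)ᵀ = L w) (K : Set (ι → ℝ))
    (hK : ∀ x, x ∈ K ↔ ∃ u, (L (1, x, u)).PosSemidef) (hne : K.Nonempty) :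
    ∃ (m m' : ℕ) (p₀ : Fin m → ℝ) (p₁ : Fin m → ι → ℝ) (p₂ : Fin m → N → N → ℝ)
      (h : Fin m' → Matrix N N ℝ),
      (∀ t x Y, 0 < t → Y.PosSemidef → (∀ r, Cut p₀ p₁ p₂ t x Y r = 0) → t⁻¹ • x ∈ K) ∧
      ∀ x ∈ interior K, ∃ C Y' : Matrix N N ℝ, Cᵀ = C ∧ C * C * Y' = 1 ∧
        (∀ r, Cut p₀ p₁ p₂ 1 x (C * C) r = 0) ∧ (∀ k, ((1 - Y' * Y') * h k).trace = 0) ∧
        ∀ dC dY' : Matrix N N ℝ, dCᵀ = dC → (dC * C + C * dC) * Y' + C * C * dY' = 0 →
          (∀ r, Cut p₀ p₁ p₂ 0 0 (dC * C + C * dC) r = 0) →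
          (∀ k, ((dY' * Y' + Y' * dY') * h k).trace = 0) → dC = 0 ∧ dY' = 0 := by
  obtain ⟨S, hS1, hS2, hS3, x₀, hx₀, Y₀, hY₀, hS4⟩ := facial L hL K hK hne
  obtain ⟨m, l, hl⟩ := exists_cut S
  let j : Matrix N N ℝ →ₗ[ℝ] ℝ × (ι → ℝ) × Matrix N N ℝ :=
    LinearMap.inr _ _ _ ∘ₗ LinearMap.inr _ _ _
  obtain ⟨m', h, hh⟩ := Submodule.fg_iff_exists_fin_generating_family.1
    (IsNoetherian.noetherian (S.comap j))
  have hcut : ∀ t x Y r, Cut (fun r => l r (1, 0, 0)) (fun r i => l r (0, Pi.single i 1, 0))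
      (fun r a b => l r (0, 0, single a b 1)) t x Y r = l r (t, x, Y) := by
    intro t x Y r
    have e : ∀ (z : ℝ × (ι → ℝ) × Matrix N N ℝ) (c : ℝ), l r z • c = l r (c • z) := fun z c => by
      rw [map_smul, smul_eq_mul, smul_eq_mul, mul_comm]
    simp only [Cut, e, ← map_sum, ← map_add]
    congr 1
    ext a b
    · simp [Prod.fst_sum]
    · simp [Prod.fst_sum, Prod.snd_sum, Finset.sum_apply, Pi.single_apply]
    · simp [Prod.snd_sum, Matrix.sum_apply, single_apply, ite_and]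
  refine ⟨m, m', fun r => l r (1, 0, 0), fun r i => l r (0, Pi.single i 1, 0),
    fun r a b => l r (0, 0, single a b 1), h, fun t x Y ht hY hc => ?_, fun x hx => ?_⟩
  · exact hS2 (t, x, Y) ((hl _).2 fun r => hcut t x Y r ▸ hc r) ht hY
  obtain ⟨Y₁, hY₁, hS5⟩ : ∃ Y₁ : Matrix N N ℝ, Y₁.PosDef ∧ (1, x, Y₁) ∈ S := by
    have ht : Tendsto (fun e : ℝ => x + e • (x - x₀)) (𝓝[>] 0) (𝓝 x) := by
      have : Continuous fun e : ℝ => x + e • (x - x₀) := by fun_prop
      simpa using (this.tendsto 0).mono_left nhdsWithin_le_nhds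
    obtain ⟨e, he1, (he2 : 0 < e)⟩ :=
      ((ht.eventually (mem_interior_iff_mem_nhds.1 hx)).and self_mem_nhdsWithin).exists
    obtain ⟨Y, hY, hS6⟩ := hS3 _ he1
    refine ⟨(1 + e)⁻¹ • (Y + e • Y₀), (PosDef.posSemidef_add hY (hY₀.smul he2)).smul
      (by positivity), ?_⟩
    convert S.smul_mem (1 + e)⁻¹ (S.add_mem hS6 (S.smul_mem e hS4)) using 1
    have : 1 + e ≠ 0 := by positivity
    ext a b
    · simp [this]
    · simp; field_simp; ring
    · simp [mul_add]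
  obtain ⟨Y, Y', hY, hY', hYY, hm, hst⟩ := barrier (S.comap j) (fun H hH => hS1 _ hH) hY₁
  obtain ⟨C, hC, rfl⟩ := exists_sqrt_pd hY
  refine ⟨C, Y', pd_symm hC, hYY, fun r => ?_, fun k => hst _ (hh ▸ Submodule.subset_span ⟨k, rfl⟩),
    fun dC dY' h1 h2 h3 h4 => rigid_lin hC hY' hYY h1 h2 ?_⟩
  · rw [hcut]
    refine (hl _).1 ?_ r
    convert S.add_mem hS5 hm using 1
    simp [j]
  · have : dC * C + C * dC ∈ S.comap j := (hl _).2 fun r => (hcut 0 0 _ r).symm.trans (h3 r)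
    rw [← hh] at this
    obtain ⟨c, hc⟩ := (Submodule.mem_span_range_iff_exists_fun ℝ).1 this
    rw [← hc, Finset.mul_sum, trace_sum]
    exact Finset.sum_eq_zero fun k _ => by rw [Matrix.mul_smul, trace_smul, h4, smul_zero]

end Vale.Agent.P256
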