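import Mathlib

/-! The formal Taylor map attached to a family of derivations. -/

open MvPowerSeries Finset

namespace Vale.Agent.P256

set_option linter.unusedSectionVars false

/-- exponents of degree at most `n` -/
noncomputable def degLE (σ : Type*) [Finite σ] (n : ℕ) : Finset (σ →₀ ℕ) :=
  (Finsupp.finite_of_degree_le (σ := σ) n).toFinset

theorem mem_degLE {σ : Type*} [Finite σ] {n : ℕ} {α : σ →₀ ℕ} : α ∈ degLE σ n ↔ α.degree ≤ n := by
  simp [degLE]

section
variable {σ F R : Type*} [Fintype σ] [DecidableEq σ] [Field F] [CharZero F] [CommRing R]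
  [Algebra R F] (D : σ → Derivation R F F)

noncomputable def cd (i : σ) (G : MvPowerSeries σ F) : MvPowerSeries σ F :=
  fun α => D i (coeff α G)

noncomputable def dd (G : MvPowerSeries σ F) : MvPowerSeries σ F := ∑ i, X i * cd D i G

noncomputable def eul (G : MvPowerSeries σ F) : MvPowerSeries σ F :=
  fun α => (α.degree : F) * coeff α G

noncomputable def hh (f : F) : ℕ → MvPowerSeries σ F
  | 0 => C f
  | n + 1 => C ((n + 1 : F)⁻¹) * dd D (hh f n)

noncomputable def tay (f : F) : MvPowerSeries σ F := fun α => coeff α (hh D f α.degree)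

theorem coeff_cd (i : σ) (G : MvPowerSeries σ F) (α : σ →₀ ℕ) :
    coeff α (cd D i G) = D i (coeff α G) := rfl

theorem coeff_eul (G : MvPowerSeries σ F) (α : σ →₀ ℕ) :
    coeff α (eul G) = (α.degree : F) * coeff α G := rfl

theorem coeff_tay (f : F) (α : σ →₀ ℕ) : coeff α (tay D f) = coeff α (hh D f α.degree) := rfl

theorem coeff_dd (G : MvPowerSeries σ F) (α : σ →₀ ℕ) : coeff α (dd D G) =
    ∑ i, if Finsupp.single i 1 ≤ α then D i (coeff (α - Finsupp.single i 1) G) else 0 := by
  simp [dd, X_def, coeff_monomial_mul, coeff_cd]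

theorem cd_mul (i : σ) (G H : MvPowerSeries σ F) :
    cd D i (G * H) = cd D i G * H + G * cd D i H := by
  ext α
  simp only [coeff_cd, coeff_mul, map_sum, map_add, Derivation.leibniz, smul_eq_mul,
    ← sum_add_distrib]
  exact sum_congr rfl fun p _ => by ring

theorem dd_mul (G H : MvPowerSeries σ F) : dd D (G * H) = dd D G * H + G * dd D H := by
  simp only [dd, cd_mul, sum_mul, mul_sum, ← sum_add_distrib]
  exact sum_congr rfl fun p _ => by ring

theorem dd_add (G H : MvPowerSeries σ F) : dd D (G + H) = dd D G + dd D H := by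
  have : ∀ i, cd D i (G + H) = cd D i G + cd D i H := fun i => by
    ext α; simp [coeff_cd]
  simp only [dd, this, mul_add, sum_add_distrib]

theorem eul_mul (G H : MvPowerSeries σ F) : eul (G * H) = eul G * H + G * eul H := by
  ext α
  simp only [coeff_eul, coeff_mul, map_add, mul_sum, ← sum_add_distrib]
  refine sum_congr rfl fun p hp => ?_
  rw [← mem_antidiagonal.1 hp, map_add]; push_cast; ring

theorem eul_add (G H : MvPowerSeries σ F) : eul (G + H) = eul G + eul H := by
  ext α; simp [coeff_eul, mul_add]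

theorem degree_sub_single {α : σ →₀ ℕ} {i : σ} (h : Finsupp.single i 1 ≤ α) :
    (α - Finsupp.single i 1).degree + 1 = α.degree := by
  conv_rhs => rw [← tsub_add_cancel_of_le h]
  rw [map_add, Finsupp.degree_single]

theorem tay_ode (f : F) : eul (tay D f) = dd D (tay D f) := by
  ext α
  rw [coeff_eul, coeff_tay, coeff_dd]
  rcases h : α.degree with _ | n
  · rw [Nat.cast_zero, zero_mul]
    symm
    refine sum_eq_zero fun i _ => if_neg fun hi => ?_
    have := degree_sub_single hi
    omega
  · rw [hh, coeff_C_mul, coeff_dd, Nat.cast_add_one, ← mul_assoc,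
      mul_inv_cancel₀ (by exact_mod_cast n.succ_ne_zero), one_mul]
    refine sum_congr rfl fun i _ => ?_
    split_ifs with hi
    · have := degree_sub_single hi
      have h2 : (α - Finsupp.single i 1).degree = n := by omega
      rw [coeff_tay, h2]
    · rfl

theorem tay_zero (f : F) : coeff 0 (tay D f) = f := by
  rw [coeff_tay, map_zero, hh, coeff_zero_C]

theorem ode_uniq {G H : MvPowerSeries σ F} (hG : eul G = dd D G) (hH : eul H = dd D H)
    (h0 : coeff 0 G = coeff 0 H) : G = H := by
  ext α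
  induction' hn : α.degree using Nat.strong_induction_on with n ih generalizing α
  by_cases hα : α = 0
  · rw [hα, h0]
  have hd : (α.degree : F) ≠ 0 := by
    rw [Nat.cast_ne_zero, Ne, Finsupp.degree_eq_zero_iff]; exact hα
  apply mul_left_cancel₀ hd
  rw [← coeff_eul, ← coeff_eul, hG, hH, coeff_dd, coeff_dd]
  refine sum_congr rfl fun i _ => ?_
  split_ifs with hi
  · have := degree_sub_single hi
    rw [ih _ (by omega) _ rfl]
  · rfl

theorem tay_mul (f g : F) : tay D (f * g) = tay D f * tay D g := by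
  refine ode_uniq D (tay_ode D _) ?_ ?_
  · rw [eul_mul, dd_mul, tay_ode, tay_ode]
  · rw [tay_zero, coeff_zero_eq_constantCoeff, map_mul, ← coeff_zero_eq_constantCoeff, tay_zero,
      tay_zero]

theorem tay_add (f g : F) : tay D (f + g) = tay D f + tay D g := by
  refine ode_uniq D (tay_ode D _) ?_ ?_
  · rw [eul_add, dd_add, tay_ode, tay_ode]
  · rw [map_add, tay_zero, tay_zero, tay_zero]

theorem cd_C (i : σ) (c : F) : cd D i (C c) = C (D i c) := by
  classical
  ext α; rw [coeff_cd, coeff_C, coeff_C]; split_ifs <;> simp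

theorem eul_C (c : F) : eul (C c : MvPowerSeries σ F) = 0 := by
  ext α; rw [coeff_eul, coeff_C]; split_ifs with h <;> simp [h]

theorem tay_const {c : F} (h : ∀ i, D i c = 0) : tay D c = C c := by
  refine ode_uniq D (tay_ode D _) ?_ ?_
  · simp [eul_C, dd, cd_C, h]
  · rw [tay_zero, coeff_zero_C]

theorem tay_var {x : F} {j : σ} (h : ∀ i, D i x = if i = j then 1 else 0) :
    tay D x = C x + X j := by
  refine ode_uniq D (tay_ode D _) ?_ ?_
  · have h1 : eul (X j : MvPowerSeries σ F) = X j := by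
      ext α; rw [coeff_eul, coeff_X]; split_ifs with h <;> simp [h]
    have h2 : ∀ i, cd D i (X j) = 0 := by
      intro i; ext α; rw [coeff_cd, coeff_X]; split_ifs with h <;> simp
    rw [eul_add, dd_add, eul_C, h1]
    simp [dd, cd_C, h, h2, apply_ite]
  · simp [tay_zero]

/-- the Taylor map as a ring homomorphism -/
noncomputable def tayHom : F →+* MvPowerSeries σ F where
  toFun := tay D
  map_one' := by rw [tay_const D (fun i => by simp)]; simp
  map_mul' := tay_mul D
  map_zero' := by rw [tay_const D (fun i => by simp)]; simp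
  map_add' := tay_add D

theorem tay_bound (O : Subring F) (μ : F) (hn : ∀ n : ℕ, (n : F)⁻¹ ∈ O)
    (hD : ∀ i f, ∃ o ∈ O, D i f = μ * o * f) (f : F) (α : σ →₀ ℕ) :
    ∃ o ∈ O, coeff α (tay D f) = μ ^ α.degree * o * f := by
  induction' hn' : α.degree using Nat.strong_induction_on with n ih generalizing α
  by_cases hα : α = 0
  · subst hα
    rw [map_zero] at hn'
    exact ⟨1, O.one_mem, by simp [tay_zero, ← hn']⟩
  have hd : (α.degree : F) ≠ 0 := by
    rw [Nat.cast_ne_zero, Ne, Finsupp.degree_eq_zero_iff]; exact hα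
  have key : ∀ i, ∃ o ∈ O, (if Finsupp.single i 1 ≤ α then
      D i (coeff (α - Finsupp.single i 1) (tay D f)) else 0) = μ ^ n * o * f := by
    intro i
    split_ifs with hi
    · have h1 := degree_sub_single hi
      obtain ⟨o, ho, e⟩ := ih _ (by omega) (α - Finsupp.single i 1) rfl
      obtain ⟨o', ho', e'⟩ := hD i (coeff (α - Finsupp.single i 1) (tay D f))
      refine ⟨o' * o, O.mul_mem ho' ho, ?_⟩
      rw [e', e, ← hn', ← h1]; ring
    · exact ⟨0, O.zero_mem, by simp⟩
  choose o ho e using key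
  refine ⟨(α.degree : F)⁻¹ * ∑ i, o i, O.mul_mem (hn _) (O.sum_mem fun i _ => ho i), ?_⟩
  apply mul_left_cancel₀ hd
  rw [← coeff_eul, tay_ode, coeff_dd, sum_congr rfl fun i _ => e i, ← sum_mul, ← mul_sum]
  field_simp

theorem tay_noeth {J : Type*} [Finite J] (O : Subring F) [IsNoetherianRing O] (μ : F)
    (hμ : μ ∈ O) (hn : ∀ n : ℕ, (n : F)⁻¹ ∈ O)
    (hD : ∀ i f, ∃ o ∈ O, D i f = μ * o * f) (f : J → F) :
    ∃ M₀ : ℕ, ∀ α : σ →₀ ℕ, M₀ < α.degree → ∃ c : (σ →₀ ℕ) → F, (∀ β, c β ∈ O) ∧
      ∀ j, coeff α (tay D (f j)) = ∑ β ∈ degLE σ M₀, μ * c β * coeff β (tay D (f j)) := by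
  choose o ho e using tay_bound D O μ hn hD
  let w : (σ →₀ ℕ) → J → O := fun α j => ⟨o (f j) α, ho _ _⟩
  let W : ℕ →o Submodule O (J → O) :=
    ⟨fun n => Submodule.span O (w '' (degLE σ n : Set (σ →₀ ℕ))), fun n m h =>
      Submodule.span_mono (Set.image_mono fun α hα => mem_degLE.2 ((mem_degLE.1 hα).trans h))⟩
  obtain ⟨M₀, hM⟩ := monotone_stabilizes_iff_noetherian.2 inferInstance W
  refine ⟨M₀, fun α hα => ?_⟩
  have : w α ∈ W M₀ := by
    rw [hM _ hα.le]
    exact Submodule.subset_span ⟨α, mem_degLE.2 le_rfl, rfl⟩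
  obtain ⟨c, hc⟩ := (Submodule.mem_span_image_finset_iff_exists_fun' O).1 this
  refine ⟨fun β => μ ^ (α.degree - β.degree - 1) * c β,
    fun β => O.mul_mem (O.pow_mem hμ _) (c β).2, fun j => ?_⟩
  have h1 : o (f j) α = ∑ β ∈ degLE σ M₀, c β * o (f j) β := by
    have := congrArg (fun z : J → O => (z j : F)) hc
    simpa [w] using this.symm
  rw [e, h1, mul_sum, sum_mul]
  refine sum_congr rfl fun β hβ => ?_
  have hβ' := mem_degLE.1 hβ
  rw [e, show μ ^ α.degree = μ * μ ^ (α.degree - β.degree - 1) * μ ^ β.degree by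
    rw [← pow_succ', ← pow_add]; congr 1; omega]
  ring

end

end Vale.Agent.P256
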