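import Vale.Agent.P256.Val
import Vale.Agent.P256.Tay

/-! Taylor expansion of rigid solutions at a generic point at infinity of an ordered field. -/

open Polynomial TrivSqZeroExt

namespace Vale.Agent.P256

set_option linter.unusedSectionVars false

theorem ext_der {R S T : Type*} [CommRing R] [CommRing S] [CommRing T] [Algebra R S]
    [Algebra R T] [Algebra S T] [IsScalarTower R S T] [Algebra.FormallyEtale S T]
    (d : Derivation R S T) : ∃ D : Derivation R T T, ∀ s, D (algebraMap S T s) = d s := by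
  refine ⟨((KaehlerDifferential.isBaseChange_of_formallyEtale R S T).lift
    d.liftKaehlerDifferential).compDer (KaehlerDifferential.D R T), fun s => ?_⟩
  have := (KaehlerDifferential.isBaseChange_of_formallyEtale R S T).lift_eq
    d.liftKaehlerDifferential (KaehlerDifferential.D R S s)
  rw [KaehlerDifferential.map_D, Derivation.liftKaehlerDifferential_comp_D] at this
  exact this

theorem finite_of_rigid {K R J : Type} [Field K] [Field R] [Algebra K R] [Finite J] (g : J → R)
    (h : ∀ δ : Derivation K (IntermediateField.adjoin K (Set.range g))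
      (IntermediateField.adjoin K (Set.range g)),
      ∀ j, δ ⟨g j, IntermediateField.subset_adjoin _ _ ⟨j, rfl⟩⟩ = 0) :
    FiniteDimensional K (IntermediateField.adjoin K (Set.range g)) := by
  set F := IntermediateField.adjoin K (Set.range g) with hF
  have : Algebra.EssFiniteType K F :=
    IntermediateField.essFiniteType_iff.2 (IntermediateField.fg_adjoin_of_finite (Set.finite_range g))
  have hall : ∀ δ : Derivation K F F, ∀ f, δ f = 0 := by
    rintro δ ⟨x, hx⟩
    induction hx using IntermediateField.adjoin_induction with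
    | mem x hx => obtain ⟨j, rfl⟩ := hx; exact h δ j
    | algebraMap c => exact δ.map_algebraMap c
    | add x y hx hy h1 h2 =>
      have : (⟨x + y, add_mem hx hy⟩ : F) = ⟨x, hx⟩ + ⟨y, hy⟩ := rfl
      rw [this, map_add, h1, h2, add_zero]
    | inv x hx h1 =>
      have : (⟨x⁻¹, inv_mem hx⟩ : F) = (⟨x, hx⟩ : F)⁻¹ := rfl
      rw [this, δ.leibniz_inv, h1, smul_zero]
    | mul x y hx hy h1 h2 =>
      have : (⟨x * y, mul_mem hx hy⟩ : F) = ⟨x, hx⟩ * ⟨y, hy⟩ := rfl
      rw [this, δ.leibniz, h1, h2, smul_zero, smul_zero, add_zero]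
  have : Algebra.FormallyUnramified K F := by
    refine ⟨⟨fun a b => ?_⟩⟩
    rw [← sub_eq_zero, ← Module.forall_dual_apply_eq_zero_iff F]
    intro l
    have : l = 0 := by
      apply Derivation.liftKaehlerDifferential_unique
      ext f
      exact congrArg Subtype.val (hall (l.compDer (KaehlerDifferential.D K F)) f)
    simp [this]
  have : Algebra.IsSeparable K F := (Algebra.FormallyUnramified.iff_isSeparable K F).1 this
  exact Algebra.finite_of_essFiniteType_of_isAlgebraic

theorem rel_push {V F R T : Type*} [CommRing F] [CommRing R] [CommRing T] [Algebra ℝ F]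
    [Algebra ℝ R] [Algebra ℝ T] (ι : F →ₐ[ℝ] R) (hι : Function.Injective ι) (ψ : F →ₐ[ℝ] T)
    (a : V → F) (b : V → R) (c : V → T) (hb : ∀ x, ι (a x) = b x) (hc : ∀ x, ψ (a x) = c x)
    (p : MvPolynomial V ℝ) (hp : MvPolynomial.aeval b p = 0) : MvPolynomial.aeval c p = 0 := by
  obtain rfl : b = fun x => ι (a x) := funext fun x => (hb x).symm
  obtain rfl : c = fun x => ψ (a x) := funext fun x => (hc x).symm
  rw [← MvPolynomial.comp_aeval_apply] at hp ⊢
  rw [(map_eq_zero_iff _ hι).1 hp, map_zero]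

/-- a derivation as a map to the dual numbers -/
def dualHom {F R : Type*} [CommRing F] [CommRing R] [Algebra ℝ F] [Algebra ℝ R]
    (ι : F →ₐ[ℝ] R) (δ : Derivation ℝ F F) : F →ₐ[ℝ] DualNumber R where
  toFun := fun f => inl (ι f) + inr (ι (δ f))
  map_one' := by simp
  map_mul' := fun a b => by ext <;> simp [mul_comm]
  map_zero' := by simp
  map_add' := fun a b => by ext <;> simp
  commutes' := fun r => by ext <;> simp [algebraMap_eq_inl']

theorem dualHom_apply {F R : Type*} [CommRing F] [CommRing R] [Algebra ℝ F] [Algebra ℝ R]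
    (ι : F →ₐ[ℝ] R) (δ : Derivation ℝ F F) (f : F) :
    dualHom ι δ f = inl (ι f) + inr (ι (δ f)) := rfl

section
variable {σ : Type} [Fintype σ] [DecidableEq σ]

theorem exists_ders (K F : Type*) [Field K] [Field F]
    [Algebra (FractionRing (MvPolynomial σ ℝ))[X] K]
    [IsFractionRing (FractionRing (MvPolynomial σ ℝ))[X] K] [Algebra K F]
    [Algebra (FractionRing (MvPolynomial σ ℝ))[X] F]
    [IsScalarTower (FractionRing (MvPolynomial σ ℝ))[X] K F] [Algebra ℝ F]
    [IsScalarTower ℝ (FractionRing (MvPolynomial σ ℝ))[X] F] [FiniteDimensional K F] (i : σ) :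
    ∃ D : Derivation ℝ F F,
      (∀ c, ∃ c', D (algebraMap (FractionRing (MvPolynomial σ ℝ))[X] F (C c)) =
        algebraMap (FractionRing (MvPolynomial σ ℝ))[X] F (C c')) ∧
      D (algebraMap (FractionRing (MvPolynomial σ ℝ))[X] F X) = 0 ∧
      ∀ j, D (algebraMap (FractionRing (MvPolynomial σ ℝ))[X] F
        (C (algebraMap (MvPolynomial σ ℝ) _ (MvPolynomial.X j)))) = if i = j then 1 else 0 := by
  set P := MvPolynomial σ ℝ
  set k := FractionRing P
  have : Algebra.FormallyEtale P k := Algebra.FormallyEtale.of_isLocalization (nonZeroDivisors P)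
  obtain ⟨D₁, hD₁⟩ := ext_der (R := ℝ) (S := P) (T := k)
    ((Algebra.linearMap P k).compDer (MvPolynomial.pderiv i))
  have : CharZero K :=
    charZero_of_injective_ringHom (f := algebraMap k[X] K) (IsFractionRing.injective _ _)
  have : Algebra.FormallyEtale k[X] K :=
    Algebra.FormallyEtale.of_isLocalization (nonZeroDivisors k[X])
  have : Algebra.FormallyEtale K F := Algebra.FormallyEtale.of_isSeparable K F
  have : Algebra.FormallyEtale k[X] F := Algebra.FormallyEtale.comp k[X] K F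
  obtain ⟨D, hD⟩ := ext_der (R := ℝ) (S := k[X]) (T := F)
    ((Algebra.linearMap k[X] F).compDer
      (PolynomialModule.equivPolynomialSelf.toLinearMap.compDer D₁.mapCoeffs))
  have h1 : ∀ c, D (algebraMap k[X] F (C c)) = algebraMap k[X] F (C (D₁ c)) := by
    intro c
    rw [hD]; simp
  refine ⟨D, fun c => ⟨_, h1 c⟩, ?_, fun j => ?_⟩
  · rw [hD]; simp
  · rw [h1, hD₁]
    have : ((Algebra.linearMap P k).compDer (MvPolynomial.pderiv i)) (MvPolynomial.X j)
      = algebraMap P k (MvPolynomial.pderiv i (MvPolynomial.X j)) := rfl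
    rw [this, MvPolynomial.pderiv_X, Pi.single_apply]
    by_cases h : i = j
    · simp [h]
    · simp [h, Ne.symm h]

/-- elements of an ordered field bounded by an element of a subfield -/
def hull {k R : Type*} [Field k] [Field R] [LinearOrder R] [IsStrictOrderedRing R]
    (φ : k →+* R) : ValuationSubring R where
  carrier := {f | ∃ a, |f| ≤ |φ a|}
  mul_mem' := by
    rintro f g ⟨a, ha⟩ ⟨b, hb⟩
    exact ⟨a * b, by rw [map_mul, abs_mul, abs_mul]; gcongr⟩
  one_mem' := ⟨1, by simp⟩
  add_mem' := by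
    rintro f g ⟨a, ha⟩ ⟨b, hb⟩
    rcases le_total |φ a| |φ b| with h | h
    · refine ⟨2 * b, (abs_add_le _ _).trans ?_⟩
      rw [map_mul, abs_mul, map_ofNat, abs_two]; linarith
    · refine ⟨2 * a, (abs_add_le _ _).trans ?_⟩
      rw [map_mul, abs_mul, map_ofNat, abs_two]; linarith
  zero_mem' := ⟨0, by simp⟩
  neg_mem' := by
    rintro f ⟨a, ha⟩
    exact ⟨a, by rwa [abs_neg]⟩
  mem_or_inv_mem' := by
    intro f
    rcases le_total |f| 1 with h | h
    · exact Or.inl ⟨1, by simpa using h⟩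
    · exact Or.inr ⟨1, by rw [map_one, abs_one, abs_inv]; exact inv_le_one_of_one_le₀ h⟩

theorem core_abs {J R : Type} [Finite J] [Field R] [Algebra ℝ R] (K F : Type) [Field K] [Field F]
    [Algebra (FractionRing (MvPolynomial σ ℝ))[X] K]
    [IsFractionRing (FractionRing (MvPolynomial σ ℝ))[X] K] [Algebra K F]
    [Algebra (FractionRing (MvPolynomial σ ℝ))[X] F]
    [IsScalarTower (FractionRing (MvPolynomial σ ℝ))[X] K F] [Algebra ℝ F]
    [IsScalarTower ℝ (FractionRing (MvPolynomial σ ℝ))[X] F] [FiniteDimensional K F]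
    (ι : F →ₐ[ℝ] R) (O : ValuationSubring R) (μ' : F) (v' : σ → F) (g' : J → F)
    (hμ' : μ' = algebraMap (FractionRing (MvPolynomial σ ℝ))[X] F X)
    (hv' : ∀ j, v' j = algebraMap (FractionRing (MvPolynomial σ ℝ))[X] F
        (C (algebraMap (MvPolynomial σ ℝ) _ (MvPolynomial.X j))))
    (hO : ∀ a, ι (algebraMap (FractionRing (MvPolynomial σ ℝ))[X] F a) ∈ O)
    (hμi : (ι μ')⁻¹ ∉ O) :
    ∃ E : F →ₐ[ℝ] MvPowerSeries σ R,
      (∀ i, E (v' i * μ'⁻¹) = MvPowerSeries.C (ι (v' i * μ'⁻¹)) + MvPowerSeries.X i) ∧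
      ∃ M₀ : ℕ, ∀ α : σ →₀ ℕ, M₀ < α.degree → ∃ c : (σ →₀ ℕ) → R, (∀ β, c β ∈ O) ∧
        ∀ j, MvPowerSeries.coeff α (E (g' j)) =
          ∑ β ∈ degLE σ M₀, ι μ' * c β * MvPowerSeries.coeff β (E (g' j)) := by
  set k := FractionRing (MvPolynomial σ ℝ)
  have : CharZero F := charZero_of_injective_algebraMap (algebraMap ℝ F).injective
  let O' : ValuationSubring F := O.comap ι.toRingHom
  have hO' : ∀ f, f ∈ O' ↔ ι f ∈ O := fun _ => Iff.rfl
  obtain ⟨hN, hlog⟩ := log_bound (k := k) K O' (fun a => hO a)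
    (by rw [hO', map_inv₀, ← hμ']; exact hμi)
  choose D hD1 hD2 hD3 using fun i : σ => exists_ders K F i
  have hD : ∀ i f, ∃ o ∈ O'.toSubring, (μ' • D i) f = μ' * o * f := by
    intro i f
    obtain ⟨o, ho, e⟩ := hlog (D i) (fun c => by
      obtain ⟨c', e⟩ := hD1 i c
      rw [e]; exact hO _) (hD2 i) f
    exact ⟨o, ho, by rw [Derivation.smul_apply, e, smul_eq_mul, mul_assoc]⟩
  have : IsNoetherianRing O'.toSubring := hN
  have hμ'0 : μ' ≠ 0 := fun h => hμi (by simp [h])
  obtain ⟨M₀, hM⟩ := tay_noeth (fun i => μ' • D i) O'.toSubring μ' (hμ' ▸ hO X)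
    (fun n => by
      have := hO (C (n : k)⁻¹)
      rw [← RingHom.comp_apply, map_inv₀, map_natCast] at this
      exact this) hD g'
  let E : F →ₐ[ℝ] MvPowerSeries σ F :=
    { tayHom (fun i => μ' • D i) with
      commutes' := fun r => by
        rw [MvPowerSeries.algebraMap_apply]
        exact tay_const _ fun i => by simp }
  refine ⟨(MvPowerSeries.mapAlgHom ι).comp E, fun i => ?_, M₀, fun α hα => ?_⟩
  · have : E (v' i * μ'⁻¹) = MvPowerSeries.C (v' i * μ'⁻¹) + MvPowerSeries.X i := by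
      refine tay_var _ fun l => ?_
      rw [Derivation.smul_apply, (D l).leibniz, (D l).leibniz_inv, hv', hD3, hμ', hD2, ← hμ']
      split_ifs <;> simp [hμ'0]
    rw [AlgHom.comp_apply, this, MvPowerSeries.mapAlgHom_apply, map_add, MvPowerSeries.map_C,
      MvPowerSeries.map_X]
    rfl
  · obtain ⟨c, hc, e⟩ := hM α hα
    refine ⟨fun β => ι (c β), hc, fun j => ?_⟩
    change ι (MvPowerSeries.coeff α (tay _ (g' j))) = _
    rw [e, map_sum]
    refine Finset.sum_congr rfl fun β _ => ?_
    rw [map_mul, map_mul]; rfl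

theorem core {J R : Type} [Finite J] [Field R] [LinearOrder R] [IsStrictOrderedRing R]
    [Algebra ℝ R] (v : σ → R) (μ : R) (hμ0 : μ ≠ 0)
    (H : ∀ p q : MvPolynomial σ ℝ, q ≠ 0 →
      |μ * MvPolynomial.aeval v p| < |MvPolynomial.aeval v q|)
    (g : J → R)
    (rig : ∀ δ : J → R, (∀ p : MvPolynomial (σ ⊕ J) ℝ,
      MvPolynomial.aeval (Sum.elim (fun i => v i * μ⁻¹) g) p = 0 →
      MvPolynomial.aeval (Sum.elim (fun i => (inl (v i * μ⁻¹) : DualNumber R))
        (fun j => inl (g j) + inr (δ j))) p = 0) → δ = 0) :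
    ∃ G : J → MvPowerSeries σ R, (∀ p : MvPolynomial (σ ⊕ J) ℝ,
      MvPolynomial.aeval (Sum.elim (fun i => v i * μ⁻¹) g) p = 0 →
      MvPolynomial.aeval (Sum.elim
        (fun i => (MvPowerSeries.C (v i * μ⁻¹) + MvPowerSeries.X i : MvPowerSeries σ R)) G) p = 0) ∧
      ∃ M₀ : ℕ, ∀ α : σ →₀ ℕ, M₀ < α.degree → ∃ c : (σ →₀ ℕ) → R,
        (∀ β (r : ℝ), r ≠ 0 → |c β| ≤ |algebraMap ℝ R r|) ∧
        ∀ j, MvPowerSeries.coeff α (G j) = ∑ β ∈ degLE σ M₀, c β * MvPowerSeries.coeff β (G j) := by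
  set P := MvPolynomial σ ℝ
  set k := FractionRing P
  have inj1 : Function.Injective (MvPolynomial.aeval (R := ℝ) v) := by
    rw [injective_iff_map_eq_zero]
    intro q hq
    by_contra h
    have := H 0 q h
    simp [hq] at this
  let φ₁ : k →ₐ[ℝ] R := IsFractionRing.liftAlgHom inj1
  have hφ₁ : ∀ p : P, φ₁ (algebraMap P k p) = MvPolynomial.aeval v p := fun p =>
    IsFractionRing.lift_algebraMap (g := (MvPolynomial.aeval (R := ℝ) v).toRingHom) inj1 p
  let O := hull φ₁.toRingHom
  have hsm : ∀ a : k, |μ * φ₁ a| < 1 := by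
    intro a
    obtain ⟨p, q, hq, rfl⟩ := IsFractionRing.div_surjective (A := P) a
    have hq0 : q ≠ 0 := nonZeroDivisors.ne_zero hq
    have h := H p q hq0
    have h0 : 0 < |MvPolynomial.aeval v q| := (abs_nonneg _).trans_lt h
    rw [map_div₀, hφ₁, hφ₁, ← mul_div_assoc, abs_div, div_lt_one h0]
    exact h
  have hμi : μ⁻¹ ∉ O := by
    rintro ⟨a, ha⟩
    have := hsm a
    rw [abs_mul] at this
    have h2 : |μ| * |μ⁻¹| ≤ |μ| * |φ₁ a| := mul_le_mul_of_nonneg_left ha (abs_nonneg _)
    rw [← abs_mul, mul_inv_cancel₀ hμ0, abs_one] at h2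
    linarith
  have hμO : μ ∈ O := (O.mem_or_inv_mem μ).resolve_right hμi
  let φ₂ : k[X] →ₐ[ℝ] R := Polynomial.eval₂AlgHom φ₁ μ (fun _ => Commute.all _ _)
  have hφC : ∀ c, φ₂ (C c) = φ₁ c := fun c => by simp [φ₂]
  have hφX : φ₂ X = μ := by simp [φ₂]
  have hO : ∀ a, φ₂ a ∈ O := by
    intro a
    induction a using Polynomial.induction_on' with
    | add p q hp hq => rw [map_add]; exact add_mem hp hq
    | monomial n c =>
      rw [← C_mul_X_pow_eq_monomial, map_mul, map_pow, hφC, hφX]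
      exact mul_mem ⟨c, le_rfl⟩ (pow_mem hμO n)
  have inj2 : Function.Injective φ₂ := by
    rw [injective_iff_map_eq_zero]
    intro a
    induction a using Polynomial.recOnHorner with
    | M0 => exact fun _ => rfl
    | MC p c hp hc ih =>
      intro h
      exfalso
      apply hμi
      obtain ⟨q, rfl⟩ := X_dvd_iff.2 hp
      rw [map_add, map_mul, hφX, hφC] at h
      have h0 : φ₁ c ≠ 0 := by simpa using hc
      have : μ⁻¹ = -(φ₁ c⁻¹ * φ₂ q) := by
        rw [map_inv₀]; field_simp; linear_combination h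
      rw [this]
      exact neg_mem (mul_mem ⟨c⁻¹, le_rfl⟩ (hO q))
    | MX p hp ih =>
      intro h
      rw [map_mul, hφX, mul_eq_zero] at h
      rw [ih (h.resolve_right hμ0), zero_mul]
  set K := FractionRing k[X]
  let φ₃ : K →ₐ[ℝ] R := IsFractionRing.liftAlgHom inj2
  have hφ₃ : ∀ p : k[X], φ₃ (algebraMap k[X] K p) = φ₂ p := fun p =>
    IsFractionRing.lift_algebraMap (g := φ₂.toRingHom) inj2 p
  let : Algebra K R := φ₃.toRingHom.toAlgebra
  let : Algebra k[X] R := φ₂.toRingHom.toAlgebra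
  have : IsScalarTower k[X] K R := IsScalarTower.of_algebraMap_eq fun p => (hφ₃ p).symm
  have : IsScalarTower ℝ K R := IsScalarTower.of_algebraMap_eq fun r => (φ₃.commutes r).symm
  set F := IntermediateField.adjoin K (Set.range g) with hF
  have : IsScalarTower ℝ k[X] F := IsScalarTower.of_algebraMap_eq fun r =>
    Subtype.ext (φ₂.commutes r).symm
  have hval : ∀ a : k[X], ((algebraMap k[X] F a : F) : R) = φ₂ a := fun _ => rfl
  let ι : F →ₐ[ℝ] R := F.val.restrictScalars ℝ
  have hι : Function.Injective ι := Subtype.val_injective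
  let μ' : F := algebraMap k[X] F X
  let v' : σ → F := fun j => algebraMap k[X] F (C (algebraMap P k (MvPolynomial.X j)))
  let g' : J → F := fun j => ⟨g j, IntermediateField.subset_adjoin _ _ ⟨j, rfl⟩⟩
  have hμ' : ι μ' = μ := hφX
  have hv' : ∀ j, ι (v' j) = v j := fun j => by
    change φ₂ _ = _
    rw [hφC, hφ₁, MvPolynomial.aeval_X]
  have hab : ∀ x, ι (Sum.elim (fun i => v' i * μ'⁻¹) g' x) = Sum.elim (fun i => v i * μ⁻¹) g x := by
    rintro (i | j)
    · simp [hμ', hv']
    · rfl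
  have : FiniteDimensional K F := by
    apply finite_of_rigid
    intro δ j
    have hK : ∀ a : k[X], δ (algebraMap k[X] F a) = 0 := fun a => by
      rw [IsScalarTower.algebraMap_apply k[X] K F, δ.map_algebraMap]
    have := rig (fun j => ι (δ (g' j)))
      (rel_push ι hι (dualHom ι (δ.restrictScalars ℝ)) _ _ _ hab (by
      rintro (i | j)
      · have : δ (v' i * μ'⁻¹) = 0 := by
          rw [δ.leibniz, δ.leibniz_inv, hK, hK, smul_zero, smul_zero, smul_zero, add_zero]
        rw [dualHom_apply, hab]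
        change _ + inr (ι (δ (v' i * μ'⁻¹))) = _
        rw [this, map_zero, inr_zero, add_zero]; rfl
      · rfl))
    exact hι (by rw [map_zero]; exact congrFun this j)
  obtain ⟨E, hE, M₀, hM⟩ := core_abs K F ι O μ' v' g' rfl (fun _ => rfl) hO (hμ' ▸ hμi)
  refine ⟨fun j => E (g' j), rel_push ι hι E _ _ _ hab ?_, M₀, fun α hα => ?_⟩
  · rintro (i | j)
    · exact (hE i).trans (by rw [← Sum.elim_inl (fun i => v' i * μ'⁻¹) g', hab]; rfl)
    · rfl
  · obtain ⟨c, hc, e⟩ := hM α hα
    refine ⟨fun β => μ * c β, fun β r hr => ?_, fun j => hμ' ▸ e j⟩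
    obtain ⟨a, ha⟩ := hc β
    have h1 := hsm (a * (algebraMap ℝ k r)⁻¹)
    have h0 : 0 < |algebraMap ℝ R r| := by simpa using hr
    rw [map_mul, map_inv₀, φ₁.commutes, ← mul_assoc, ← div_eq_mul_inv, abs_div, div_lt_one h0,
      abs_mul] at h1
    rw [abs_mul]
    exact (mul_le_mul_of_nonneg_left ha (abs_nonneg _)).trans h1.le

end

end Vale.Agent.P256
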