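import Vale.Agent.P256.Psd
import Vale.Agent.P256.Tay

/-! Extension of pseudo-moment functionals. -/

open MvPolynomial Finset

namespace Vale.Agent.P256

set_option linter.unusedSectionVars false

variable {σ : Type} [Fintype σ] [DecidableEq σ]

theorem deg_le_iff {f : MvPolynomial σ ℝ} {n : ℕ} :
    f.totalDegree ≤ n ↔ ∀ α : σ →₀ ℕ, n < α.degree → coeff α f = 0 := by
  constructor
  · intro h α hα
    exact coeff_eq_zero_of_totalDegree_lt (h.trans_lt hα)
  · intro h
    exact Finset.sup_le fun α hα => le_of_not_gt fun h' => mem_support_iff.1 hα (h α h')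

/-- polynomial with prescribed coefficients -/
noncomputable def poly (n : ℕ) : (degLE σ n → ℝ) →ₗ[ℝ] MvPolynomial σ ℝ :=
  ∑ α : degLE σ n, monomial α.1 ∘ₗ LinearMap.proj α

theorem coeff_poly (n : ℕ) (a : degLE σ n → ℝ) (γ : σ →₀ ℕ) :
    coeff γ (poly n a) = if h : γ ∈ degLE σ n then a ⟨γ, h⟩ else 0 := by
  simp only [poly, LinearMap.sum_apply, LinearMap.comp_apply, LinearMap.proj_apply, coeff_sum,
    coeff_monomial]
  split_ifs with h
  · rw [sum_eq_single ⟨γ, h⟩]
    · simp
    · intro b _ hb; exact if_neg fun e => hb (Subtype.ext e)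
    · simp
  · exact sum_eq_zero fun b _ => if_neg fun (e : b.1 = γ) => h (e ▸ b.2)

theorem deg_poly (n : ℕ) (a : degLE σ n → ℝ) : (poly n a).totalDegree ≤ n :=
  deg_le_iff.2 fun α hα => by rw [coeff_poly, dif_neg (by rw [mem_degLE]; omega)]

theorem poly_coeff {n : ℕ} {f : MvPolynomial σ ℝ} (h : f.totalDegree ≤ n) :
    poly n (fun α => coeff α.1 f) = f := by
  ext γ
  rw [coeff_poly]
  split_ifs with h'
  · rfl
  · exact (deg_le_iff.1 h γ (by rw [mem_degLE] at h'; omega)).symm

theorem poly_ne_zero {n : ℕ} {a : degLE σ n → ℝ} (h : a ≠ 0) : poly n a ≠ 0 := by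
  intro e
  apply h
  funext α
  have := coeff_poly n a α.1
  rw [e, dif_pos α.2] at this
  exact this.symm

theorem cont_quad {V A : Type*} [NormedAddCommGroup V] [NormedSpace ℝ V] [FiniteDimensional ℝ V]
    [CommRing A] [Algebra ℝ A] (p : V →ₗ[ℝ] A) (L : A →ₗ[ℝ] ℝ) :
    Continuous fun a => L (p a * p a) := by
  let B : V →ₗ[ℝ] V →ₗ[ℝ] ℝ := ((LinearMap.mul ℝ A).compl₁₂ p p).compr₂ L
  let B' : V →L[ℝ] V →L[ℝ] ℝ :=
    LinearMap.toContinuousLinearMap (LinearMap.toContinuousLinearMap.toLinearMap ∘ₗ B)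
  exact B'.continuous.clm_apply continuous_id

/-- sum of evaluations on a grid -/
noncomputable def grid (n : ℕ) : MvPolynomial σ ℝ →ₗ[ℝ] ℝ :=
  ∑ g ∈ Fintype.piFinset fun _ : σ => (range (n + 1)).image (Nat.cast : ℕ → ℝ),
    (aeval g).toLinearMap

theorem grid_nonneg (n : ℕ) (f : MvPolynomial σ ℝ) : 0 ≤ grid n (f * f) := by
  simp only [grid, LinearMap.sum_apply, AlgHom.toLinearMap_apply, map_mul]
  exact sum_nonneg fun _ _ => mul_self_nonneg _

theorem grid_eq_zero {n : ℕ} {f : MvPolynomial σ ℝ} (hf : f.totalDegree ≤ n)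
    (h : grid n (f * f) = 0) : f = 0 := by
  simp only [grid, LinearMap.sum_apply, AlgHom.toLinearMap_apply, map_mul] at h
  rw [sum_eq_zero_iff_of_nonneg fun _ _ => mul_self_nonneg _] at h
  refine eq_zero_of_eval_zero_at_prod_finset f
    (fun _ => (range (n + 1)).image (Nat.cast : ℕ → ℝ)) (fun i => ?_) fun x hx => ?_
  · rw [card_image_of_injective _ Nat.cast_injective, card_range]
    exact Nat.lt_succ_of_le ((degreeOf_le_totalDegree f i).trans hf)
  · exact mul_self_eq_zero.1 (h x (Fintype.mem_piFinset.2 hx))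

theorem top_sq {d : ℕ} {f : MvPolynomial σ ℝ} (hf : f.totalDegree ≤ d) :
    homogeneousComponent (2 * d) (f * f) =
      homogeneousComponent d f * homogeneousComponent d f := by
  ext γ
  simp only [coeff_homogeneousComponent, coeff_mul]
  split_ifs with h
  · refine sum_congr rfl fun p hp => ?_
    rw [← mem_antidiagonal.1 hp, map_add] at h
    by_cases h1 : p.1.degree = d
    · rw [if_pos h1, if_pos (by omega)]
    · rw [if_neg h1, zero_mul]
      rcases lt_or_gt_of_ne h1 with h2 | h2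
      · rw [deg_le_iff.1 hf p.2 (by omega), mul_zero]
      · rw [deg_le_iff.1 hf p.1 h2, zero_mul]
  · refine (sum_eq_zero fun p hp => ?_).symm
    rw [← mem_antidiagonal.1 hp, map_add] at h
    split_ifs <;> first | omega | simp

theorem moment_ext (L₀ : MvPolynomial σ ℝ →ₗ[ℝ] ℝ) (F : MvPolynomial σ ℝ) (hF : F.totalDegree ≤ 4)
    (h0 : L₀ F < 0) (hL : ∀ f, f.totalDegree ≤ 2 → 0 ≤ L₀ (f * f)) (M : ℕ) :
    ∃ L : MvPolynomial σ ℝ →ₗ[ℝ] ℝ, L F < 0 ∧
      ∀ f, f.totalDegree ≤ M + 2 → f ≠ 0 → 0 < L (f * f) := by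
  induction M with
  | zero =>
    refine ⟨L₀ + (-L₀ F / (|grid 2 F| + 1)) • grid 2, ?_, fun f hf hf0 => ?_⟩
    · have : 0 < |grid 2 F| + 1 := by positivity
      rw [LinearMap.add_apply, LinearMap.smul_apply, smul_eq_mul, div_mul_eq_mul_div,
        add_div' _ _ _ this.ne']
      apply div_neg_of_neg_of_pos _ this
      nlinarith [le_abs_self (grid 2 F)]
    · have h1 : 0 < grid 2 (f * f) :=
        lt_of_le_of_ne (grid_nonneg _ _) fun e => hf0 (grid_eq_zero hf e.symm)
      have h2 : 0 < -L₀ F := by linarith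
      have := hL f hf
      rw [LinearMap.add_apply, LinearMap.smul_apply, smul_eq_mul]
      positivity
  | succ d ih =>
    obtain ⟨L, h1, h2⟩ := ih
    let ν := grid (σ := σ) (d + 3) ∘ₗ homogeneousComponent (2 * (d + 3))
    have hν : ∀ a, ν (poly (d + 3) a * poly (d + 3) a) = grid (d + 3)
        (homogeneousComponent (d + 3) (poly (d + 3) a) *
          homogeneousComponent (d + 3) (poly (d + 3) a)) := fun a => by
      rw [← top_sq (deg_poly _ a)]; rfl
    obtain ⟨C, hC, H⟩ := cone_finsler (S := Set.univ) isClosed_univ (fun _ _ _ => trivial)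
      (cont_quad (poly (d + 3)) L) (cont_quad (poly (d + 3)) ν)
      (fun c x => by simp [sq, mul_assoc]) (fun c x => by simp [sq, mul_assoc])
      (fun x _ => hν x ▸ grid_nonneg _ _) (fun x _ hx hg => by
        rw [hν] at hg
        have := grid_eq_zero (homogeneousComponent_isHomogeneous _ _).totalDegree_le hg
        refine h2 _ (deg_le_iff.2 fun α hα => ?_) (poly_ne_zero hx)
        rcases eq_or_lt_of_le (Nat.succ_le_of_lt hα) with h | h
        · have := congrArg (coeff α) this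
          rwa [coeff_homogeneousComponent, if_pos h.symm] at this
        · exact deg_le_iff.1 (deg_poly _ x) α h)
    refine ⟨L + C • ν, ?_, fun f hf hf0 => ?_⟩
    · have : ν F = 0 := by
        simp only [ν, LinearMap.comp_apply]
        rw [homogeneousComponent_eq_zero _ _ (by omega), map_zero]
      simpa [this] using h1
    · have := H (fun α => coeff α.1 f) trivial (fun e => hf0 (by
        rw [← poly_coeff (n := d + 3) hf, e, map_zero]))
      rwa [poly_coeff (n := d + 3) hf] at this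

/-- the truncated functional on power series -/
noncomputable def phi (L : MvPolynomial σ ℝ →ₗ[ℝ] ℝ) (D : ℕ) : MvPowerSeries σ ℝ →ₗ[ℝ] ℝ :=
  ∑ γ ∈ degLE σ D, L (monomial γ 1) • MvPowerSeries.coeff γ

theorem phi_apply (L : MvPolynomial σ ℝ →ₗ[ℝ] ℝ) (D : ℕ) (G : MvPowerSeries σ ℝ) :
    phi L D G = ∑ γ ∈ degLE σ D, L (monomial γ 1) * MvPowerSeries.coeff γ G := by
  simp [phi]

theorem phi_coe (L : MvPolynomial σ ℝ →ₗ[ℝ] ℝ) {D : ℕ} {p : MvPolynomial σ ℝ}
    (hp : p.totalDegree ≤ D) : phi L D p = L p := by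
  rw [phi_apply]
  conv_rhs => rw [← poly_coeff hp]
  simp only [poly, LinearMap.sum_apply, LinearMap.comp_apply, LinearMap.proj_apply, map_sum]
  rw [← sum_coe_sort]
  refine sum_congr rfl fun α _ => ?_
  rw [coeff_coe, mul_comm, ← smul_eq_mul, ← map_smul, smul_monomial, smul_eq_mul, mul_one]

theorem robust (L : MvPolynomial σ ℝ →ₗ[ℝ] ℝ) {M₀ M D : ℕ} (hM : 2 * M ≤ D)
    (hL : ∀ f, f.totalDegree ≤ M → f ≠ 0 → 0 < L (f * f)) :
    ∃ r : ℝ, 0 < r ∧ ∀ G : MvPowerSeries σ ℝ, M₀ ≤ M →
      (∀ α ∈ degLE σ D, M₀ < α.degree → ∃ c : (σ →₀ ℕ) → ℝ, (∀ β ∈ degLE σ M₀, |c β| ≤ r) ∧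
        MvPowerSeries.coeff α G = ∑ β ∈ degLE σ M₀, c β * MvPowerSeries.coeff β G) →
      0 ≤ phi L D (G * G) := by
  let p : (degLE σ D → ℝ) →ₗ[ℝ] MvPowerSeries σ ℝ :=
    (coeToMvPowerSeries.algHom ℝ).toLinearMap ∘ₗ poly D
  have hp : ∀ a, p a = (poly D a : MvPowerSeries σ ℝ) := fun a => by simp [p]
  let g : (degLE σ D → ℝ) → ℝ := fun a => ∑ α, if M < α.1.degree then |a α| else 0
  have hg : Continuous g := continuous_finsetSum _ fun α _ => by split_ifs <;> fun_prop
  obtain ⟨r, hr, H⟩ := cone_small (S := Set.univ) isClosed_univ (cont_quad p (phi L D)) hg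
    (fun x _ => sum_nonneg fun α _ => by positivity) (fun x _ hx h0 => by
      have hd : (poly D x).totalDegree ≤ M := deg_le_iff.2 fun α hα => by
        rw [coeff_poly]
        split_ifs with h
        · have := (sum_eq_zero_iff_of_nonneg fun α _ => by positivity).1 h0 ⟨α, h⟩ (mem_univ _)
          rwa [if_pos hα, abs_eq_zero] at this
        · rfl
      rw [hp, ← MvPolynomial.coe_mul, phi_coe _ ((totalDegree_mul _ _).trans (by omega))]
      exact hL _ hd (poly_ne_zero hx))
  set n : ℝ := (degLE σ D).card * (degLE σ M₀).card with hn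
  have hn0 : 0 ≤ n := by positivity
  refine ⟨r / (n + 1), by positivity, fun G hM0 hG => ?_⟩
  let a : degLE σ D → ℝ := fun α => MvPowerSeries.coeff α.1 G
  have e : phi L D (G * G) = phi L D (p a * p a) := by
    simp only [phi_apply, MvPowerSeries.coeff_mul, hp, coeff_coe, coeff_poly]
    refine sum_congr rfl fun γ hγ => congrArg _ (sum_congr rfl fun q hq => ?_)
    rw [← mem_antidiagonal.1 hq, mem_degLE, map_add] at hγ
    rw [dif_pos (mem_degLE.2 (by omega)), dif_pos (mem_degLE.2 (by omega))]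
  rw [e]
  by_cases ha : a = 0
  · simp [ha]
  have hna : 0 < ‖a‖ := norm_pos_iff.2 ha
  have key := H (‖a‖⁻¹ • a) trivial (by simp [norm_smul, hna.ne']) (by
    have h1 : ∀ α : degLE σ D, (if M < α.1.degree then |(‖a‖⁻¹ • a) α| else 0)
        ≤ (degLE σ M₀).card * (r / (n + 1)) := by
      intro α
      split_ifs with h
      · obtain ⟨c, hc, e⟩ := hG α.1 α.2 (by omega)
        have : |a α| ≤ (degLE σ M₀).card * (r / (n + 1) * ‖a‖) := by
          change |MvPowerSeries.coeff α.1 G| ≤ _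
          rw [e, ← nsmul_eq_mul]
          refine (abs_sum_le_sum_abs _ _).trans (sum_le_card_nsmul _ _ _ fun β hβ => ?_)
          rw [abs_mul]
          have h2 : β ∈ degLE σ D := mem_degLE.2 (by have := mem_degLE.1 hβ; omega)
          exact mul_le_mul (hc β hβ) (norm_le_pi_norm a ⟨β, h2⟩) (abs_nonneg _) (by positivity)
        rw [Pi.smul_apply, smul_eq_mul, abs_mul, abs_inv, abs_of_pos hna, inv_mul_le_iff₀ hna]
        linarith
      · positivity
    refine (sum_le_card_nsmul _ _ _ fun α _ => h1 α).trans_lt ?_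
    rw [nsmul_eq_mul, card_univ, Fintype.card_coe, ← mul_assoc, ← hn, ← mul_div_assoc,
      div_lt_iff₀ (by positivity)]
    nlinarith)
  rw [map_smul, smul_mul_smul_comm, map_smul, smul_eq_mul] at key
  exact ((mul_pos_iff_of_pos_left (by positivity)).1 key).le

end Vale.Agent.P256
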