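import Vale.Agent.P256.Gen
import Vale.Agent.P256.Barrier
import Vale.Agent.P256.Moment

/-! An obstruction to being a spectrahedral shadow. -/

open Matrix TrivSqZeroExt MvPolynomial

namespace Vale.Agent.P256

set_option linter.unusedSectionVars false

variable {σ ι N : Type} [Fintype σ] [DecidableEq σ] [Fintype ι] [DecidableEq ι] [Fintype N]
  [DecidableEq N]

def cM {T : Type} (z : σ ⊕ (N × N) ⊕ (N × N) → T) : Matrix N N T :=
  of fun a b => z (.inr (.inl (a, b)))

def yM {T : Type} (z : σ ⊕ (N × N) ⊕ (N × N) → T) : Matrix N N T :=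
  of fun a b => z (.inr (.inr (a, b)))

/-- the polynomial system satisfied by the barrier lift -/
noncomputable def eqn {m m' : ℕ} (p₀ : Fin m → ℝ) (p₁ : Fin m → ι → ℝ) (p₂ : Fin m → N → N → ℝ)
    (h : Fin m' → Matrix N N ℝ) (u : ι → MvPolynomial σ ℝ) {T : Type} [CommRing T] [Algebra ℝ T]
    (z : σ ⊕ (N × N) ⊕ (N × N) → T) : (N × N) ⊕ (N × N) ⊕ Fin m ⊕ Fin m' → T
  | .inl q => (cM z - (cM z)ᵀ) q.1 q.2
  | .inr (.inl q) => (cM z * cM z * yM z - 1) q.1 q.2
  | .inr (.inr (.inl r)) =>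
      Cut p₀ p₁ p₂ 1 (fun i => aeval (fun s => z (.inl s)) (u i)) (cM z * (cM z)ᵀ) r
  | .inr (.inr (.inr k)) => ((1 - yM z * yM z) * (h k).map (algebraMap ℝ T)).trace

theorem aeval_eqn {m m' : ℕ} (p₀ : Fin m → ℝ) (p₁ : Fin m → ι → ℝ) (p₂ : Fin m → N → N → ℝ)
    (h : Fin m' → Matrix N N ℝ) (u : ι → MvPolynomial σ ℝ) {T : Type} [CommRing T] [Algebra ℝ T]
    (z : σ ⊕ (N × N) ⊕ (N × N) → T) (e : (N × N) ⊕ (N × N) ⊕ Fin m ⊕ Fin m') :
    aeval z (eqn p₀ p₁ p₂ h u (T := MvPolynomial _ ℝ) X e) = eqn p₀ p₁ p₂ h u z e := by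
  rcases e with q | q | r | k
  · simp [eqn, cM]
  · simp [eqn, cM, yM, mul_apply, one_apply, apply_ite (aeval z)]
  · simp only [eqn, Cut, cM, map_add, map_smul, map_sum, map_one, mul_apply, map_mul, of_apply,
      transpose_apply, aeval_X, comp_aeval_apply]
  · simp [eqn, yM, mul_apply, one_apply, apply_ite (aeval z), trace]

theorem fst_mul_mat (A B : Matrix N N (DualNumber ℝ)) :
    (A * B).map fst = A.map fst * B.map fst := by
  ext a b; simp [mul_apply, fst_sum]

theorem snd_mul_mat (A B : Matrix N N (DualNumber ℝ)) :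
    (A * B).map snd = A.map snd * B.map fst + A.map fst * B.map snd := by
  ext a b; simp [mul_apply, snd_sum, Finset.sum_add_distrib, add_comm]

theorem cut_map {ρ T : Type} [CommRing T] [Algebra ℝ T] (p₀ : ρ → ℝ) (p₁ : ρ → ι → ℝ)
    (p₂ : ρ → N → N → ℝ) (f : T →ₗ[ℝ] ℝ) (t : T) (x : ι → T) (Y : Matrix N N T) (r : ρ) :
    f (Cut p₀ p₁ p₂ t x Y r) = Cut p₀ p₁ p₂ (f t) (fun i => f (x i)) (Y.map f) r := by
  simp [Cut]

theorem not_shadow {U : Type*} [AddCommGroup U] [Module ℝ U]
    (L : ℝ × (ι → ℝ) × U →ₗ[ℝ] Matrix N N ℝ) (hL : ∀ w, (L w)ᵀ = L w) (K : Set (ι → ℝ))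
    (hK : ∀ x, x ∈ K ↔ ∃ u, (L (1, x, u)).PosSemidef)
    (u : ι → MvPolynomial σ ℝ) (hu : ∀ s, (fun i => eval s (u i)) ∈ interior K)
    (l : (σ → ℝ) → (ι → ℝ) →ₗ[ℝ] ℝ) (hl : ∀ s, ∀ x ∈ K, 0 ≤ l s x)
    (F : MvPolynomial σ ℝ) (hF : ∀ s s', l s' (fun i => eval s (u i)) = eval (s - s') F)
    (hd : F.totalDegree ≤ 4) (L₀ : MvPolynomial σ ℝ →ₗ[ℝ] ℝ) (h0 : L₀ F < 0)
    (hL₀ : ∀ f, f.totalDegree ≤ 2 → 0 ≤ L₀ (f * f)) : False := by
  obtain ⟨m, m', p₀, p₁, p₂, h, H1, H2⟩ := normal_form L hL K hK ⟨_, interior_subset (hu 0)⟩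
  obtain ⟨M₀, hM⟩ := generic_taylor (eqn p₀ p₁ p₂ h u X) (fun s => by
    obtain ⟨C, Y', a1, a2, a3, a4, a5⟩ := H2 _ (hu s)
    refine ⟨Sum.elim (fun q => C q.1 q.2) (fun q => Y' q.1 q.2), fun e => ?_, fun δ hδ => ?_⟩
    · rw [aeval_eqn]
      have e1 : cM (Sum.elim s (Sum.elim (fun q => C q.1 q.2) (fun q => Y' q.1 q.2))) = C := rfl
      have e2 : yM (Sum.elim s (Sum.elim (fun q => C q.1 q.2) (fun q => Y' q.1 q.2))) = Y' := rfl
      rcases e with q | q | r | k <;> simp only [eqn, e1, e2, a1]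
      · simp
      · simp [a2]
      · exact a3 r
      · exact a4 k
    · simp only [aeval_eqn] at hδ
      set z := Sum.elim (fun i => (inl (s i) : DualNumber ℝ))
        (fun j => inl (Sum.elim (fun q => C q.1 q.2) (fun q => Y' q.1 q.2) j) + inr (δ j))
      let dC : Matrix N N ℝ := of fun a b => δ (.inl (a, b))
      let dY : Matrix N N ℝ := of fun a b => δ (.inr (a, b))
      have e1 : (cM z).map fst = C := by ext a b; simp [cM, z]
      have e2 : (cM z).map snd = dC := by ext a b; simp [cM, z, dC]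
      have e3 : (yM z).map fst = Y' := by ext a b; simp [yM, z]
      have e4 : (yM z).map snd = dY := by ext a b; simp [yM, z, dY]
      have b1 : dCᵀ = dC := by
        ext a b
        have := congrArg snd (hδ (.inl (a, b)))
        simp only [eqn, Matrix.sub_apply, snd_sub, snd_zero, sub_eq_zero] at this
        rw [← e2]; exact this.symm
      obtain ⟨c1, c2⟩ := a5 dC dY b1 (by
        ext a b
        have := congrArg snd (hδ (.inr (.inl (a, b))))
        simp only [eqn, Matrix.sub_apply, snd_sub, snd_zero, sub_eq_zero] at this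
        rw [← e1, ← e2, ← e3, ← e4, ← snd_mul_mat, ← fst_mul_mat, ← snd_mul_mat, map_apply, this,
          one_apply]
        split_ifs <;> rfl) (fun r => by
        have := congrArg (sndHom ℝ ℝ) (hδ (.inr (.inr (.inl r))))
        rw [eqn, cut_map, map_zero] at this
        convert this using 2
        · rfl
        · funext i
          rw [← map_aeval' (inlAlgHom ℝ ℝ ℝ) s (fun s => z (.inl s)) (fun _ => rfl)]; simp
        · change _ = (cM z * (cM z)ᵀ).map snd
          rw [snd_mul_mat, transpose_map, transpose_map, e1, e2, a1, b1]) (fun k => by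
        have := congrArg snd (hδ (.inr (.inr (.inr k))))
        have e5 : ∀ A : Matrix N N (DualNumber ℝ), snd A.trace = (A.map snd).trace := fun A => by
          simp [trace, snd_sum]
        have e6 : ((h k).map (algebraMap ℝ (DualNumber ℝ))).map fst = h k := by
          ext a b; simp [algebraMap_eq_inl]
        have e7 : ((h k).map (algebraMap ℝ (DualNumber ℝ))).map snd = 0 := by
          ext a b; simp [algebraMap_eq_inl]
        have e8 : (1 - yM z * yM z).map snd = -(dY * Y' + Y' * dY) := by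
          rw [← e3, ← e4, ← snd_mul_mat]
          ext a b
          simp only [map_apply, Matrix.sub_apply, snd_sub, Matrix.neg_apply, one_apply]
          split_ifs <;> simp
        rw [eqn, e5, snd_mul_mat, e6, e7, e8, mul_zero, add_zero, neg_mul, trace_neg] at this
        exact neg_eq_zero.1 this)
      funext j
      rcases j with q | q
      · exact congrFun (congrFun c1 q.1) q.2
      · exact congrFun (congrFun c2 q.1) q.2)
  obtain ⟨Λ, hΛ1, hΛ2⟩ := moment_ext L₀ F hd h0 hL₀ M₀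
  obtain ⟨r, hr, hrob⟩ := robust Λ (M₀ := M₀) (le_refl (2 * (M₀ + 2))) hΛ2
  set D := 2 * (M₀ + 2) with hD
  obtain ⟨s, G, hG1, hG2⟩ := hM D r hr
  simp only [aeval_eqn] at hG1
  set z := Sum.elim
    (fun i => (MvPowerSeries.C (s i) + MvPowerSeries.X i : MvPowerSeries σ ℝ)) G with hz
  have ht : 0 < phi Λ D 1 := by
    rw [← MvPolynomial.coe_one, phi_coe _ (by simp)]
    simpa using hΛ2 1 (by simp) one_ne_zero
  have hY : ((cM z * (cM z)ᵀ).map (phi Λ D)).PosSemidef := by
    refine psd_iff.2 ⟨by rw [← transpose_map, transpose_mul, transpose_transpose], fun w => ?_⟩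
    have : w ⬝ᵥ ((cM z * (cM z)ᵀ).map (phi Λ D)) *ᵥ w
        = ∑ c, phi Λ D ((∑ a, w a • cM z a c) * (∑ a, w a • cM z a c)) := by
      simp only [dotProduct, mulVec, map_apply, mul_apply, transpose_apply, map_sum,
        Finset.mul_sum, Finset.sum_mul, smul_mul_smul_comm, map_smul,
        smul_eq_mul]
      rw [Finset.sum_comm]
      refine (Finset.sum_congr rfl fun a _ => Finset.sum_comm).trans (Finset.sum_comm.trans ?_)
      refine Finset.sum_congr rfl fun c _ => Finset.sum_congr rfl fun a _ =>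
        Finset.sum_congr rfl fun b _ => by ring
    rw [this]
    refine Finset.sum_nonneg fun c _ => hrob _ (by omega) fun α hα hα' => ?_
    obtain ⟨o, ho, e⟩ := hG2 α hα hα'
    refine ⟨o, ho, ?_⟩
    simp only [map_sum, map_smul, smul_eq_mul, cM, of_apply, hz, Sum.elim_inr, e, Finset.mul_sum]
    rw [Finset.sum_comm]
    exact Finset.sum_congr rfl fun β _ => Finset.sum_congr rfl fun a _ => by ring
  have hx := hl s _ (H1 _ (fun i => phi Λ D (aeval (fun s => z (.inl s)) (u i))) _ ht hY fun r => by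
    rw [← cut_map, phi_apply]
    exact Finset.sum_eq_zero fun γ hγ => by
      rw [show Cut _ _ _ _ _ _ _ = eqn p₀ p₁ p₂ h u z (.inr (.inr (.inl r))) from rfl, hG1 _ γ hγ,
        mul_zero])
  rw [map_smul, smul_eq_mul, LinearMap.pi_apply_eq_sum_univ] at hx
  have e1 : ∑ i, l s (fun j => if i = j then 1 else 0) • aeval (fun j => C (s j) + X j) (u i) = F := by
    refine MvPolynomial.funext fun δ => ?_
    have := hF (s + δ) s
    rw [add_sub_cancel_left, LinearMap.pi_apply_eq_sum_univ] at this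
    rw [← this, map_sum]
    refine Finset.sum_congr rfl fun i _ => ?_
    rw [smul_eval, smul_eq_mul, mul_comm]
    congr 1
    exact map_aeval' (aeval δ) _ (s + δ) (fun j => by simp) _
  have e2 : ∑ i, phi Λ D (aeval (fun s => z (.inl s)) (u i)) • l s (fun j => if i = j then 1 else 0)
      = Λ F := by
    rw [← phi_coe Λ (D := D) (hd.trans (by omega)), ← e1]
    change _ = phi Λ D (coeToMvPowerSeries.ringHom _)
    rw [map_sum, map_sum]
    refine Finset.sum_congr rfl fun i _ => ?_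
    rw [← map_aeval' (coeToMvPowerSeries.algHom ℝ) (fun j => C (s j) + X j) _
      (fun j => by simp [hz])]
    simp [mul_comm]
  rw [e2] at hx
  exact absurd (mul_neg_of_pos_of_neg (inv_pos.2 ht) hΛ1) (not_lt.2 hx)

end Vale.Agent.P256
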