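import Vale.Agent.P256.Star
import Vale.Agent.P256.Shadow

/-! The counterexample. -/

open Matrix MvPolynomial

namespace Vale.Agent.P256

set_option linter.unusedSectionVars false

section
variable {ι : Type} [Fintype ι] [DecidableEq ι]

theorem psd_decomp {Y : Matrix ι ι ℝ} (hY : Y.PosSemidef) :
    ∃ m : ι → ι → ℝ, Y = ∑ e, vecMulVec (m e) (m e) := by
  obtain ⟨C, hC, rfl⟩ := exists_sqrt hY
  refine ⟨C, ?_⟩
  ext a b
  rw [mul_apply, Matrix.sum_apply]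
  exact Finset.sum_congr rfl fun e _ => by
    rw [vecMulVec_apply, show C a e = C e a from congrFun (congrFun (psd_symm hC) e) a]

theorem cont_bil {V W : Type*} [NormedAddCommGroup V] [NormedSpace ℝ V] [FiniteDimensional ℝ V]
    [AddCommGroup W] [Module ℝ W] (p : V →ₗ[ℝ] W) (B : W →ₗ[ℝ] W →ₗ[ℝ] ℝ) :
    Continuous fun a => B (p a) (p a) := by
  let B' : V →L[ℝ] V →L[ℝ] ℝ := LinearMap.toContinuousLinearMap
    (LinearMap.toContinuousLinearMap.toLinearMap ∘ₗ B.compl₁₂ p p)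
  exact B'.continuous.clm_apply continuous_id

theorem lin_mat (l : Matrix ι ι ℝ →ₗ[ℝ] ℝ) (A : Matrix ι ι ℝ) :
    l A = ∑ r, ∑ r', A r r' * l (single r r' 1) := by
  conv_lhs => rw [matrix_eq_sum_single A]
  simp only [map_sum]
  refine Finset.sum_congr rfl fun r _ => Finset.sum_congr rfl fun r' _ => ?_
  rw [← smul_eq_mul, ← map_smul, smul_single, smul_eq_mul, mul_one]

theorem dot_eq (A : Matrix ι ι ℝ) (a : ι → ℝ) :
    a ⬝ᵥ A *ᵥ a = ∑ r, ∑ r', A r r' * (a r * a r') := by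
  simp only [dotProduct, mulVec, Finset.mul_sum]
  exact Finset.sum_congr rfl fun _ _ => Finset.sum_congr rfl fun _ _ => by ring

/-- product of two functionals -/
def pr {V : Type} [AddCommGroup V] [Module ℝ V] (l l' : V →ₗ[ℝ] ℝ) : V →ₗ[ℝ] V →ₗ[ℝ] ℝ :=
  (LinearMap.mul ℝ ℝ).compl₁₂ l l'

theorem pr_apply {V : Type} [AddCommGroup V] [Module ℝ V] (l l' : V →ₗ[ℝ] ℝ) (a b : V) :
    pr l l' a b = l a * l' b := rfl

def ent (r r' : ι) : Matrix ι ι ℝ →ₗ[ℝ] ℝ := entryLinearMap ℝ ℝ r r'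

theorem ent_apply (r r' : ι) (A : Matrix ι ι ℝ) : ent r r' A = A r r' := rfl

noncomputable def qM (a b : ι) : Matrix ι ι ℝ →ₗ[ℝ] Matrix ι ι ℝ →ₗ[ℝ] ℝ :=
  (1 / 2 : ℝ) • (pr (ent a a) (ent b b) + pr (ent b b) (ent a a) - pr (ent a b) (ent b a)
    - pr (ent b a) (ent a b))

theorem qM_apply (a b : ι) (T T' : Matrix ι ι ℝ) : qM a b T T' =
    1 / 2 * (T a a * T' b b + T b b * T' a a - T a b * T' b a - T b a * T' a b) := rfl

def qI : Matrix ι ι ℝ →ₗ[ℝ] Matrix ι ι ℝ →ₗ[ℝ] ℝ := ∑ r, ∑ r', pr (ent r r') (ent r r')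

theorem qI_apply (T T' : Matrix ι ι ℝ) : qI T T' = ∑ r, ∑ r', T r r' * T' r r' := by
  simp [qI, pr_apply, ent_apply]

def qP {m : ℕ} (n : Fin m → ι → ℝ) : Matrix ι ι ℝ →ₗ[ℝ] Matrix ι ι ℝ →ₗ[ℝ] ℝ :=
  ∑ k, ∑ r, (pr (∑ c, n k c • ent r c) (∑ c, n k c • ent r c)
    + pr (∑ c, n k c • ent c r) (∑ c, n k c • ent c r))

theorem qP_apply {m : ℕ} (n : Fin m → ι → ℝ) (T T' : Matrix ι ι ℝ) : qP n T T' =
    ∑ k, ∑ r, ((T *ᵥ n k) r * (T' *ᵥ n k) r + (Tᵀ *ᵥ n k) r * (T'ᵀ *ᵥ n k) r) := by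
  simp [qP, pr_apply, ent_apply, mulVec, dotProduct, mul_comm]

theorem exists_q [Nonempty ι] (i₀ i₁ : ι) {Mr : Matrix ι ι ℝ} (Mr_psd : Mr.PosSemidef)
    (hM : Mr i₀ i₀ * Mr i₁ i₁ - Mr i₀ i₁ * Mr i₁ i₀ = 1) {S : Set (ι → ι → ℝ)} (hS : IsClosed S)
    (hS' : ∀ x ∈ S, ∀ c : ℝ, c • x ∈ S)
    (hst : ∀ T ∈ S, (∀ n, Mr *ᵥ n = 0 → of T *ᵥ n = 0) → (∀ n, Mr *ᵥ n = 0 → (of T)ᵀ *ᵥ n = 0) →
      0 ≤ T i₀ i₀ * T i₁ i₁ - T i₀ i₁ * T i₁ i₀) : ∃ (q : Matrix ι ι ℝ →ₗ[ℝ] Matrix ι ι ℝ →ₗ[ℝ] ℝ)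
    (m : ι → ι → ℝ), (∀ a b, q a b = q b a) ∧ (∀ T ∈ S, 0 ≤ q (of T) (of T)) ∧
    Mr = ∑ e, vecMulVec (m e) (m e) ∧ 1 ≤ q Mr Mr ∧
    ∑ e, ∑ f, q (vecMulVec (m f) (m e)) (vecMulVec (m f) (m e))
      ≤ 1 / (2 * Fintype.card ι) := by
  obtain ⟨m, hm⟩ := psd_decomp Mr_psd
  obtain ⟨k, n, hn⟩ := Submodule.fg_iff_exists_fin_generating_family.1
    (IsNoetherian.noetherian (LinearMap.ker Mr.mulVecLin))
  have hI : ∀ T : Matrix ι ι ℝ, 0 ≤ qI T T := fun T => by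
    rw [qI_apply]; exact Finset.sum_nonneg fun _ _ => Finset.sum_nonneg fun _ _ => mul_self_nonneg _
  have hP : ∀ T : Matrix ι ι ℝ, 0 ≤ qP n T T := fun T => by
    rw [qP_apply]
    exact Finset.sum_nonneg fun _ _ => Finset.sum_nonneg fun _ _ =>
      add_nonneg (mul_self_nonneg _) (mul_self_nonneg _)
  set c₀ := ∑ e, ∑ f, qI (vecMulVec (m f) (m e)) (vecMulVec (m f) (m e)) with hc₀
  have hc : 0 ≤ c₀ := Finset.sum_nonneg fun _ _ => Finset.sum_nonneg fun _ _ => hI _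
  have hN : (0 : ℝ) < Fintype.card ι := Nat.cast_pos.2 Fintype.card_pos
  set ε := 1 / (2 * Fintype.card ι * (c₀ + 1)) with hε
  have hε0 : 0 < ε := by positivity
  have hk : ∀ T : Matrix ι ι ℝ, (∀ j, T *ᵥ n j = 0) → ∀ v, Mr *ᵥ v = 0 → T *ᵥ v = 0 :=
    fun T h v hv => by
      have : v ∈ Submodule.span ℝ (Set.range n) := hn ▸ hv
      obtain ⟨c, rfl⟩ := (Submodule.mem_span_range_iff_exists_fun ℝ).1 this
      simp [mulVec_sum, mulVec_smul, h]
  obtain ⟨C, hC, H⟩ := cone_finsler hS hS'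
    (cont_bil (ofLinearEquiv ℝ).toLinearMap (qM i₀ i₁ + ε • qI))
    (cont_bil (ofLinearEquiv ℝ).toLinearMap (qP n))
    (fun c x => by simp only [map_smul, LinearMap.smul_apply, smul_eq_mul]; ring)
    (fun c x => by simp only [map_smul, LinearMap.smul_apply, smul_eq_mul]; ring)
    (fun x _ => hP _) (fun x hx h0 h => by
      change qP n (of x) (of x) = 0 at h
      change 0 < qM _ _ (of x) (of x) + ε * qI (of x) (of x)
      rw [qP_apply, Finset.sum_eq_zero_iff_of_nonneg fun _ _ => Finset.sum_nonneg fun _ _ =>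
        add_nonneg (mul_self_nonneg _) (mul_self_nonneg _)] at h
      have h' := fun j r => mul_self_add_mul_self_eq_zero.1
        ((Finset.sum_eq_zero_iff_of_nonneg fun _ _ => add_nonneg (mul_self_nonneg _)
          (mul_self_nonneg _)).1 (h j (Finset.mem_univ _)) r (Finset.mem_univ _))
      have h1 := hst x hx (hk (of x) fun j => _root_.funext fun r => (h' j r).1)
        (hk (of x)ᵀ fun j => _root_.funext fun r => (h' j r).2)
      have h2 : 0 < qI (of x) (of x) := by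
        refine lt_of_le_of_ne (hI _) fun e => h0 ?_
        rw [qI_apply, eq_comm] at e
        have e' := (Finset.sum_eq_zero_iff_of_nonneg fun _ _ =>
          Finset.sum_nonneg fun _ _ => mul_self_nonneg _).1 e
        ext r r'
        exact mul_self_eq_zero.1 ((Finset.sum_eq_zero_iff_of_nonneg fun _ _ =>
          mul_self_nonneg _).1 (e' r (Finset.mem_univ _)) r' (Finset.mem_univ _))
      rw [qM_apply]
      simp only [of_apply]
      nlinarith [mul_pos hε0 h2])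
  refine ⟨qM i₀ i₁ + ε • qI + C • qP n, m, fun a b => ?_, fun T hT => ?_,
    hm, ?_, ?_⟩
  · simp only [LinearMap.add_apply, LinearMap.smul_apply, qM_apply, qI_apply, qP_apply, mul_comm]
    ring
  · by_cases h : T = 0
    · simp [h, show of (0 : ι → ι → ℝ) = 0 from rfl]
    · exact (H T hT h).le
  · have : qM i₀ i₁ Mr Mr = 1 := by
      rw [qM_apply]; linear_combination hM
    simp only [LinearMap.add_apply, LinearMap.smul_apply, smul_eq_mul, this]
    linarith [mul_nonneg hε0.le (hI Mr), mul_nonneg hC (hP Mr)]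
  · have h1 : ∀ e j, m e ⬝ᵥ n j = 0 := by
      intro e j
      have h2 : Mr *ᵥ n j = 0 := (hn ▸ Submodule.subset_span ⟨j, rfl⟩ :
        n j ∈ LinearMap.ker Mr.mulVecLin)
      have h3 := congrArg (n j ⬝ᵥ ·) h2
      simp only [hm, sum_mulVec, dotProduct_sum, vecMulVec_mulVec, dotProduct_smul, dotProduct_zero,
        MulOpposite.smul_eq_mul_unop, MulOpposite.unop_op] at h3
      simp only [dotProduct_comm (n j)] at h3
      exact mul_self_eq_zero.1 ((Finset.sum_eq_zero_iff_of_nonneg fun _ _ =>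
        mul_self_nonneg _).1 h3 e (Finset.mem_univ _))
    have h2 : ∀ e f, (qM i₀ i₁ + ε • qI + C • qP n : _ →ₗ[ℝ] _ →ₗ[ℝ] ℝ)
        (vecMulVec (m f) (m e)) (vecMulVec (m f) (m e))
        = ε * qI (vecMulVec (m f) (m e)) (vecMulVec (m f) (m e)) := by
      intro e f
      simp only [LinearMap.add_apply, LinearMap.smul_apply, qM_apply, qP_apply, vecMulVec_apply,
        transpose_vecMulVec, vecMulVec_mulVec, h1, smul_eq_mul]
      simp
      ring
    simp only [h2, ← Finset.mul_sum, ← hc₀]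
    rw [hε, div_mul_eq_mul_div, div_le_div_iff₀ (by positivity) (by positivity)]
    nlinarith

end

theorem main_abs {σ : Type} [Fintype σ] [DecidableEq σ] {Mr : Matrix (Rw σ) (Rw σ) ℝ}
    (Mr_psd : Mr.PosSemidef) (Et : MvPolynomial σ ℝ →ₗ[ℝ] ℝ) (rho : Rw σ → MvPolynomial σ ℝ)
    (hrho : rho = act X (fun i => C ((Pi.single r0 1 : Rw σ → ℝ) i)))
    (Et_rho : ∀ r r', Et (rho r * rho r') = Mr r r')
    (Et_psd : ∀ f : MvPolynomial σ ℝ, f.totalDegree ≤ 2 → 0 ≤ Et (f * f))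
    {q : Matrix (Rw σ) (Rw σ) ℝ →ₗ[ℝ] Matrix (Rw σ) (Rw σ) ℝ →ₗ[ℝ] ℝ} {m : Rw σ → Rw σ → ℝ}
    (hq : ∀ a b, q a b = q b a) (hp : ∀ T : Matrix (Rw σ) (Rw σ) ℝ, IsHir T → 0 ≤ q T T)
    (hm : Mr = ∑ e, vecMulVec (m e) (m e)) (h1 : 1 ≤ q Mr Mr)
    (h2 : ∑ e, ∑ f, q (vecMulVec (m f) (m e)) (vecMulVec (m f) (m e))
      ≤ 1 / (2 * Fintype.card (Rw σ)))
    {N U : Type} [Fintype N] [DecidableEq N] [AddCommGroup U] [Module ℝ U]
    (L : ℝ × (_ → ℝ) × U →ₗ[ℝ] Matrix N N ℝ) (hL : ∀ w, (L w)ᵀ = L w)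
    (hK : ∀ x, x ∈ Kc q (tc (σ := σ)) ↔ ∃ u, (L (1, x, u)).PosSemidef) : False := by
  have hp' : ∀ y w η, 0 ≤ q (t3 tc y w η) (t3 tc y w η) := fun y w η => by
    rw [t3_tc]; exact hp _ (isHir_tau _ _ _)
  have hN : (0 : ℝ) < Fintype.card (Rw σ) := Nat.cast_pos.2 Fintype.card_pos
  set n := (Fintype.card (Rw σ) : ℝ) with hn
  let y : (σ → ℝ) → degLE σ 4 → ℝ := fun s k => eval s (monomial k.1 1)
  let E : Matrix (Rw σ) (Rw σ) ℝ →ₗ[ℝ] ℝ := ∑ r, ∑ r', Mr r r' • ent r r'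
  have hE : ∀ A, E A = ∑ r, ∑ r', A r r' * Mr r r' := fun A => by
    simp [E, ent_apply, mul_comm]
  have hE' : ∀ A, E A = ∑ e, m e ⬝ᵥ A *ᵥ m e := fun A => by
    rw [hE]
    simp only [dot_eq, hm, Matrix.sum_apply, vecMulVec_apply, Finset.mul_sum]
    exact (Finset.sum_congr rfl fun _ _ => Finset.sum_comm).trans Finset.sum_comm
  set c := E (Phi q tc (y 0) 1 + 1) with hc
  set ε := 1 / (4 * n * (|c| + 1)) with hε
  have hε0 : 0 < ε := by positivity
  have hY : (Mr + ε • 1).PosDef := PosDef.posSemidef_add Mr_psd (PosDef.one.smul hε0)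
  set Y := Mr + ε • 1 with hYd
  have hYu := hY.det_pos.ne'.isUnit
  set Z := Phi q tc (y 0) Y + ε • 1 with hZ
  have hZs : Zᵀ = Z := by
    rw [hZ, transpose_add, Phi_symm _ _ hq _ (pd_symm hY), transpose_smul, transpose_one]
  let cj : Matrix (Rw σ) (Rw σ) ℝ → Matrix (Rw σ) (Rw σ) (MvPolynomial σ ℝ) := fun A =>
    (Hm X)ᵀ * A.map C * Hm X
  let u : (Rw σ × Rw σ) ⊕ (Rw σ × Rw σ) ⊕ degLE σ 4 → MvPolynomial σ ℝ :=
    Sum.elim (fun p => (1 / 2 : ℝ) • cj Z p.1 p.2)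
      (Sum.elim (fun p => (1 / 2 : ℝ) • cj Y⁻¹ p.1 p.2)
        (fun k => monomial k.1 1))
  have hu : ∀ (s : σ → ℝ) (A : Matrix (Rw σ) (Rw σ) ℝ), Aᵀ = A → ∀ a b,
      eval s ((1 / 2 : ℝ) • cj A a b)
      + eval s ((1 / 2 : ℝ) • cj A b a) = ((Hm s)ᵀ * A * Hm s) a b := by
    intro s A hA a b
    have e1 : (cj A).map (eval s) = (Hm s)ᵀ * A * Hm s := by
      simp only [cj]
      rw [Matrix.map_mul, Matrix.map_mul, transpose_map, Hm_map, Matrix.map_map]
      simp [Function.comp_def]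
    have e2 : ((Hm s)ᵀ * A * Hm s)ᵀ = (Hm s)ᵀ * A * Hm s := by
      rw [transpose_mul, transpose_mul, hA, transpose_transpose, mul_assoc]
    have e3 : ((Hm s)ᵀ * A * Hm s) b a = ((Hm s)ᵀ * A * Hm s) a b := congrFun (congrFun e2 a) b
    rw [smul_eval, smul_eval, ← map_apply (f := eval s), ← map_apply (f := eval s), e1, e3]
    ring
  have hz : ∀ s, zM (fun i => eval s (u i)) = (Hm s)ᵀ * Z * Hm s := fun s =>
    Matrix.ext (hu s Z hZs)
  have hb : ∀ s, bM (fun i => eval s (u i)) = (Hm s)ᵀ * Y⁻¹ * Hm s := fun s =>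
    Matrix.ext (hu s _ (pd_symm hY.inv))
  have hy : ∀ s, yv (fun i => eval s (u i)) = y s := fun s => rfl
  have hconj : ∀ (s : σ → ℝ) (A : Matrix (Rw σ) (Rw σ) ℝ) w,
      w ⬝ᵥ ((Hm s)ᵀ * A * Hm s) *ᵥ w = act s w ⬝ᵥ A *ᵥ act s w := fun s A w => by
    rw [← mulVec_mulVec, ← mulVec_mulVec, dotProduct_mulVec, vecMul_transpose, Hm_mulVec]
  have hact : ∀ (s : σ → ℝ) w, w ≠ 0 → act s w ≠ 0 := fun s w hw h => hw (by
    rw [← act_zero w, ← neg_add_cancel s, ← act_act, h, map_zero])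
  let e1 : Rw σ → ℝ := Pi.single r0 1
  let Γ := Z + q (n⁻¹ • Mr) (n⁻¹ • Mr) • Y⁻¹
    - (2 : ℝ) • of fun r r' => q (single r r' 1) (n⁻¹ • Mr)
  let : DecidableEq ((Rw σ × Rw σ) ⊕ (Rw σ × Rw σ) ⊕ degLE σ 4) := Classical.decEq _
  refine not_shadow L hL _ hK u (fun s => ?_)
    (fun s => ell q tc (act (-s) e1) (act (-s) e1) (n⁻¹ • Mr)) (fun s x hx => ?_)
    (∑ r, ∑ r', Γ r r' • (rho r * rho r')) (fun s s' => ?_) ?_ Et ?_ Et_psd
  · refine interior_maximal (Om_sub hq hp') (isOpen_Om hq) (mem_Om.2 ?_)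
    rw [hz, hb, hy]
    have e : ((Hm s)ᵀ * Y⁻¹ * Hm s)⁻¹ = Hm (-s) * Y * (Hm (-s))ᵀ := by
      apply inv_eq_right_inv
      rw [mul_assoc, ← mul_assoc (Hm s), ← mul_assoc (Hm s), Hm_neg, one_mul, mul_assoc,
        ← mul_assoc Y⁻¹, nonsing_inv_mul _ hYu, one_mul, ← transpose_mul,
        mul_eq_one_comm.1 (Hm_neg s), transpose_one]
    refine ⟨pd_iff.2 ⟨hb s ▸ bM_symm _, fun w hw => ?_⟩, pd_iff.2 ⟨?_, fun w hw => ?_⟩⟩
    · rw [hconj]; exact (pd_iff.1 hY.inv).2 _ (hact s w hw)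
    · rw [transpose_sub, ← hz, zM_symm, e, Phi_symm _ _ hq _ (psd_symm (psd_conj hY.posSemidef _))]
    · obtain ⟨d, hd⟩ := psd_decomp hY.posSemidef
      have : w ⬝ᵥ Phi q tc (y s) (Hm (-s) * Y * (Hm (-s))ᵀ) *ᵥ w
          = act s w ⬝ᵥ Phi q tc (y 0) Y *ᵥ act s w := by
        simp only [hd, Finset.mul_sum, Finset.sum_mul, mul_vecMulVec, vecMulVec_mul,
          vecMul_transpose, map_sum, sum_mulVec, dotProduct_sum, Phi_vec, y, t3_ev, Hm_mulVec,
          act_act, add_neg_cancel, act_zero, zero_add]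
      rw [sub_mulVec, dotProduct_sub, hconj, e, this, hZ, add_mulVec, dotProduct_add,
        add_sub_cancel_left]
      exact (pd_iff.1 (PosDef.one.smul hε0)).2 _ (hact s w hw)
  · refine ell_nonneg hq hp' (hact _ _ (by simp [e1])) (fun y b => hp _ ?_) hx
    have : t3 tc y (act (-s) e1) (act (-s) e1) - b • n⁻¹ • Mr = tau (Lam y - (b * n⁻¹) •
        (Et ∘ₗ (aeval fun i => X i + C (s i)).toLinearMap)) (act (-s) e1) (act (-s) e1) := by
      have h : ∀ r, aeval (fun i => X i + C (s i))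
          (act X (fun i => C (act (-s) e1 i)) r : MvPolynomial σ ℝ) = rho r := by
        intro r
        simp only [act_map, aeval_X, aeval_C, algebraMap_eq]
        rw [act_act, hrho]
        exact congrArg (fun z => act z _ r) (_root_.funext fun i => by simp)
      ext r r'
      simp only [t3_tc, tau, Matrix.sub_apply, Matrix.smul_apply, of_apply, LinearMap.sub_apply,
        LinearMap.smul_apply, LinearMap.comp_apply, AlgHom.toLinearMap_apply, map_mul, h, Et_rho,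
        smul_eq_mul, mul_assoc]
    rw [this]
    exact isHir_tau _ _ _
  · have h : ∀ r, eval (s - s') (rho r) = act (s - s') e1 r := fun r => by
      simp only [hrho, act_map, eval_X, eval_C]; rfl
    simp only [map_sum, smul_eval, map_mul, h, ← dot_eq]
    rw [ell_apply, hz, hb, hy, hconj, hconj, t3_ev, act_act, ← sub_eq_add_neg,
      ← LinearMap.flip_apply q (vecMulVec _ _), lin_mat _ (vecMulVec _ _)]
    simp only [Γ, sub_mulVec, add_mulVec, smul_mulVec, dotProduct_sub, dotProduct_add,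
      dotProduct_smul, smul_eq_mul]
    rw [dot_eq (of _)]
    simp only [vecMulVec_apply, of_apply, LinearMap.flip_apply, mul_comm]
  · exact totalDegree_finsetSum_le fun r _ => totalDegree_finsetSum_le fun r' _ =>
      (totalDegree_smul_le _ _).trans ((totalDegree_mul _ _).trans
        (add_le_add (hrho ▸ deg_act _ r) (hrho ▸ deg_act _ r')))
  · simp only [map_sum, map_smul, Et_rho, smul_eq_mul, ← hE]
    have a1 : E Z ≤ 1 / (2 * n) + 1 / (4 * n) := by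
      have : Z = Phi q tc (y 0) Mr + ε • (Phi q tc (y 0) 1 + 1) := by
        rw [hZ, hYd, map_add, map_smul, smul_add, add_assoc]
      rw [this, map_add, map_smul, ← hc, smul_eq_mul]
      refine add_le_add (le_of_eq_of_le ?_ h2) ?_
      · rw [hE']
        conv_lhs => rw [hm]
        simp only [map_sum, sum_mulVec, dotProduct_sum, Phi_vec, y, t3_ev, act_zero]
      · rw [hε, div_mul_eq_mul_div, div_le_div_iff₀ (by positivity) (by positivity)]
        nlinarith [le_abs_self c]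
    have a2 : E Y⁻¹ ≤ n := by
      have e : E Y⁻¹ = (Y⁻¹ * Mr).trace := by
        rw [hE]
        simp only [trace, diag, mul_apply]
        exact Finset.sum_congr rfl fun a _ => Finset.sum_congr rfl fun b _ => by
          rw [show Mr a b = Mr b a from congrFun (congrFun (psd_symm Mr_psd) b) a]
      have e2 := congrArg trace (nonsing_inv_mul _ hYu)
      rw [hYd, mul_add, ← hYd, trace_add, trace_one, Matrix.mul_smul, mul_one, trace_smul,
        smul_eq_mul] at e2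
      linarith [mul_nonneg hε0.le hY.inv.posSemidef.trace_nonneg]
    have a3 : E (of fun r r' => q (single r r' 1) (n⁻¹ • Mr)) = n⁻¹ * q Mr Mr := by
      rw [hE, ← smul_eq_mul, ← map_smul, ← LinearMap.flip_apply q, lin_mat]
      simp only [of_apply, LinearMap.flip_apply, mul_comm]
    simp only [Γ, map_sub, map_add, map_smul E, a3]
    simp only [map_smul, smul_eq_mul, LinearMap.smul_apply]
    have a4 : n⁻¹ * (n⁻¹ * q Mr Mr) * E Y⁻¹ ≤ n⁻¹ * q Mr Mr := by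
      refine (mul_le_mul_of_nonneg_left a2 (by positivity)).trans (le_of_eq ?_)
      field_simp
    have a5 : n⁻¹ ≤ n⁻¹ * q Mr Mr := le_mul_of_one_le_right (by positivity) h1
    have a6 : 1 / (2 * n) + 1 / (4 * n) < n⁻¹ := by
      rw [← sub_pos, show n⁻¹ - (1 / (2 * n) + 1 / (4 * n)) = 1 / (4 * n) by field_simp; ring]
      positivity
    linarith

theorem main : ∃ (q : Matrix (Rw Sg) (Rw Sg) ℝ →ₗ[ℝ] Matrix (Rw Sg) (Rw Sg) ℝ →ₗ[ℝ] ℝ),
    (∀ a b, q a b = q b a) ∧ (∀ y w η, 0 ≤ q (t3 tc y w η) (t3 tc y w η)) ∧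
    ∀ (N U : Type) [Fintype N] [DecidableEq N] [AddCommGroup U] [Module ℝ U]
      (L : ℝ × (_ → ℝ) × U →ₗ[ℝ] Matrix N N ℝ), (∀ w, (L w)ᵀ = L w) →
      (∀ x, x ∈ Kc q (tc (σ := Sg)) ↔ ∃ u, (L (1, x, u)).PosSemidef) → False := by
  obtain ⟨q, m, hq, hp, hm, h1, h2⟩ := exists_q (r1 (.inl 0)) (r1 (.inl 1)) Mr_psd (by
      have h1 : Mz (r1 (.inl 0)) (r1 (.inl 0)) = 1 := by decide
      have h2 : Mz (r1 (.inl 1)) (r1 (.inl 1)) = 1 := by decide
      have h3 : Mz (r1 (.inl 0)) (r1 (.inl 1)) = 0 := by decide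
      simp only [Mr, of_apply, h1, h2, h3]
      norm_num) (S := {T : Rw Sg → Rw Sg → ℝ | IsHir T})
    (by
      simp only [IsHir, Set.ofPred_forall]
      refine isClosed_iInter fun a => isClosed_iInter fun b => isClosed_iInter fun c =>
        isClosed_iInter fun d => isClosed_eq ?_ ?_ <;> unfold Hir <;> fun_prop)
    (fun T hT c a b d e => by
      have := hT a b d e
      simp only [Hir, Pi.smul_apply, smul_eq_mul] at this ⊢
      linear_combination c ^ 2 * this)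
    (fun T hT h1 h2 => star_ineq hT (kill_of h1) (kill_of h2))
  refine ⟨q, hq, fun y w η => ?_, fun N U _ _ _ _ L hL hK =>
    main_abs Mr_psd Et rho rfl Et_rho Et_psd hq hp hm h1 h2 L hL hK⟩
  rw [t3_tc]; exact hp _ (isHir_tau _ _ _)

end Vale.Agent.P256
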