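import Vale.Agent.P256.Core

/-! Generic Taylor expansion of rigid solutions of real polynomial systems. -/

open TrivSqZeroExt Filter MvPolynomial Topology

namespace Vale.Agent.P256

set_option linter.unusedSectionVars false

/-- functoriality of dual numbers -/
def dualMap {A B : Type*} [CommRing A] [CommRing B] [Algebra ℝ A] [Algebra ℝ B]
    (f : A →ₐ[ℝ] B) : DualNumber A →ₐ[ℝ] DualNumber B where
  toFun := fun x => inl (f x.fst) + inr (f x.snd)
  map_one' := by simp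
  map_mul' := fun a b => by ext <;> simp [mul_comm]
  map_zero' := by simp
  map_add' := fun a b => by ext <;> simp
  commutes' := fun r => by ext <;> simp [algebraMap_eq_inl']

theorem dualMap_apply {A B : Type*} [CommRing A] [CommRing B] [Algebra ℝ A] [Algebra ℝ B]
    (f : A →ₐ[ℝ] B) (x : DualNumber A) : dualMap f x = inl (f x.fst) + inr (f x.snd) := rfl

theorem map_aeval' {V A B : Type*} [CommRing A] [CommRing B] [Algebra ℝ A] [Algebra ℝ B]
    (f : A →ₐ[ℝ] B) (a : V → A) (b : V → B) (h : ∀ x, f (a x) = b x) (p : MvPolynomial V ℝ) :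
    f (aeval a p) = aeval b p := by
  rw [comp_aeval_apply]; congr 2; exact funext h

variable {σ J E : Type} [Fintype σ] [DecidableEq σ] [Finite J] [Finite E]

/-- `g` is an infinitesimally rigid solution of the system `p` over the parameter `s` -/
def Rigid (p : E → MvPolynomial (σ ⊕ J) ℝ) (s : σ → ℝ) (g : J → ℝ) : Prop :=
  (∀ e, aeval (Sum.elim s g) (p e) = 0) ∧ ∀ δ : J → ℝ,
    (∀ e, aeval (Sum.elim (fun i => (inl (s i) : DualNumber ℝ))
      (fun j => inl (g j) + inr (δ j))) (p e) = 0) → δ = 0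

/-- approximate Taylor solution -/
def Approx (p : E → MvPolynomial (σ ⊕ J) ℝ) (M₀ D : ℕ) (r : ℝ) (s : σ → ℝ)
    (G : J → MvPowerSeries σ ℝ) : Prop :=
  (∀ e, ∀ γ ∈ degLE σ D, MvPowerSeries.coeff γ (aeval (Sum.elim
    (fun i => (MvPowerSeries.C (s i) + MvPowerSeries.X i : MvPowerSeries σ ℝ)) G) (p e)) = 0) ∧
  ∀ α ∈ degLE σ D, M₀ < α.degree → ∃ c : (σ →₀ ℕ) → ℝ, (∀ β ∈ degLE σ M₀, |c β| ≤ r) ∧
    ∀ j, MvPowerSeries.coeff α (G j) = ∑ β ∈ degLE σ M₀, c β * MvPowerSeries.coeff β (G j)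

theorem gt_abs {Ω R : Type} [Field R] [LinearOrder R] [IsStrictOrderedRing R] [Algebra ℝ R]
    (l : Filter Ω) [l.NeBot] (π : (Ω → ℝ) →ₐ[ℝ] R) (hs : Function.Surjective π)
    (h0 : ∀ f, π f = 0 ↔ ∀ᶠ ω in l, f ω = 0)
    (hle : ∀ f g, |π f| ≤ |π g| → ∀ᶠ ω in l, |f ω| ≤ |g ω|)
    (vv : σ → Ω → ℝ) (mm : Ω → ℝ) (hμ0 : π mm ≠ 0) (hinv : π (fun ω => (mm ω)⁻¹) = (π mm)⁻¹)
    (H : ∀ p q : MvPolynomial σ ℝ, q ≠ 0 →
      |π mm * aeval (fun i => π (vv i)) p| < |aeval (fun i => π (vv i)) q|)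
    (p : E → MvPolynomial (σ ⊕ J) ℝ) (hyp : ∀ s, ∃ g, Rigid p s g) :
    ∃ M₀ : ℕ, ∀ (D : ℕ) (r : ℝ), 0 < r → ∃ s G, Approx p M₀ D r s G := by
  choose g hg using hyp
  let ss : σ → Ω → ℝ := fun i => vv i * fun ω => (mm ω)⁻¹
  let gg : J → Ω → ℝ := fun j ω => g (fun i => ss i ω) j
  have hss : ∀ i, π (ss i) = π (vv i) * (π mm)⁻¹ := fun i => by rw [map_mul, hinv]
  let ev : Ω → (Ω → ℝ) →ₐ[ℝ] ℝ := fun ω => Pi.evalAlgHom ℝ (fun _ => ℝ) ω
  have sol : ∀ e, aeval (Sum.elim (fun i => π (vv i) * (π mm)⁻¹) (fun j => π (gg j))) (p e) = 0 := by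
    intro e
    rw [← map_aeval' π (Sum.elim ss gg) _ (by rintro (i | j); exacts [hss i, rfl]), h0]
    refine Eventually.of_forall fun ω => ?_
    exact (map_aeval' (ev ω) _ _ (by rintro (i | j) <;> rfl) _).trans ((hg fun i => ss i ω).1 e)
  obtain ⟨G, hG, M₀, hM⟩ := core (fun i => π (vv i)) (π mm) hμ0 H (fun j => π (gg j)) (by
    intro δ hδ
    choose dd hdd using fun j => hs (δ j)
    let b : σ ⊕ J → DualNumber (Ω → ℝ) :=
      Sum.elim (fun i => inl (ss i)) (fun j => inl (gg j) + inr (dd j))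
    have : ∀ᶠ ω in l, ∀ e, aeval (Sum.elim (fun i => (inl (ss i ω) : DualNumber ℝ))
        (fun j => inl (gg j ω) + inr (dd j ω))) (p e) = 0 := by
      refine eventually_all.2 fun e => ?_
      have h1 := hδ _ (sol e)
      rw [← map_aeval' (dualMap π) b _ (by
        rintro (i | j) <;> simp [b, dualMap_apply, hss, hdd]), dualMap_apply] at h1
      have h2 := congrArg fst h1
      have h3 := congrArg snd h1
      simp only [fst_add, fst_inl, fst_inr, add_zero, fst_zero, snd_add, snd_inl, snd_inr,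
        zero_add, snd_zero, h0] at h2 h3
      filter_upwards [h2, h3] with ω h2 h3
      rw [← map_aeval' (dualMap (ev ω)) b _ (by
        rintro (i | j) <;> simp [b, dualMap_apply, ev]), dualMap_apply]
      simp [ev, h2, h3]
    funext j
    rw [← hdd, Pi.zero_apply, h0]
    filter_upwards [this] with ω hω
    exact congrFun ((hg fun i => ss i ω).2 (fun j => dd j ω) hω) j)
  refine ⟨M₀, fun D r hr => ?_⟩
  choose GG hGG using fun j α => hs (MvPowerSeries.coeff α (G j))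
  let G' : J → MvPowerSeries σ (Ω → ℝ) := fun j α => GG j α
  have hG' : ∀ j α, MvPowerSeries.coeff α (G' j) = GG j α := fun _ _ => rfl
  let B : σ ⊕ J → MvPowerSeries σ (Ω → ℝ) :=
    Sum.elim (fun i => MvPowerSeries.C (ss i) + MvPowerSeries.X i) G'
  have e1 : ∀ᶠ ω in l, ∀ e, ∀ γ ∈ degLE σ D, MvPowerSeries.coeff γ (aeval B (p e)) ω = 0 := by
    refine eventually_all.2 fun e => (eventually_all_finset _).2 fun γ _ => ?_
    have h1 := hG _ (sol e)
    rw [← map_aeval' (MvPowerSeries.mapAlgHom π) B _ (by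
      rintro (i | j)
      · simp [B, MvPowerSeries.mapAlgHom_apply, hss]
      · ext α; exact hGG j α)] at h1
    exact (h0 _).1 (congrArg (MvPowerSeries.coeff γ) h1)
  have e2 : ∀ᶠ ω in l, ∀ α ∈ degLE σ D, M₀ < α.degree → ∃ c : (σ →₀ ℕ) → ℝ,
      (∀ β ∈ degLE σ M₀, |c β| ≤ r) ∧ ∀ j, GG j α ω = ∑ β ∈ degLE σ M₀, c β * GG j β ω := by
    refine (eventually_all_finset _).2 fun α _ => ?_
    by_cases hα : M₀ < α.degree
    swap
    · exact Eventually.of_forall fun ω h => absurd h hα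
    obtain ⟨c, hc, e⟩ := hM α hα
    choose cc hcc using fun β => hs (c β)
    have f1 : ∀ᶠ ω in l, ∀ β ∈ degLE σ M₀, |cc β ω| ≤ r := by
      refine (eventually_all_finset _).2 fun β _ => ?_
      have := hc β r hr.ne'
      rw [← hcc, ← π.commutes] at this
      filter_upwards [hle _ _ this] with ω hω
      simpa [abs_of_pos hr] using hω
    have f2 : ∀ᶠ ω in l, ∀ j, GG j α ω = ∑ β ∈ degLE σ M₀, cc β ω * GG j β ω := by
      refine eventually_all.2 fun j => ?_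
      have : π (GG j α - ∑ β ∈ degLE σ M₀, cc β * GG j β) = 0 := by
        simp only [map_sub, map_sum, map_mul, hGG, hcc]
        rw [e j, sub_self]
      filter_upwards [(h0 _).1 this] with ω hω
      simpa [sub_eq_zero] using hω
    filter_upwards [f1, f2] with ω h1 h2 _
    exact ⟨fun β => cc β ω, h1, h2⟩
  obtain ⟨ω, h1, h2⟩ := (e1.and e2).exists
  refine ⟨fun i => ss i ω, fun j => MvPowerSeries.mapAlgHom (ev ω) (G' j), fun e γ hγ => ?_, h2⟩
  rw [← map_aeval' (MvPowerSeries.mapAlgHom (ev ω)) B _ (by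
      rintro (i | j)
      · simp [B, MvPowerSeries.mapAlgHom_apply, ev]
      · rfl)]
  exact h1 e γ hγ

/-- the filter of generic points -/
def genFilter (σ : Type) : Filter (σ → ℝ) where
  sets := {S | ∃ q : MvPolynomial σ ℝ, q ≠ 0 ∧ ∀ v, eval v q ≠ 0 → v ∈ S}
  univ_sets := ⟨1, one_ne_zero, fun _ _ => trivial⟩
  sets_of_superset := fun ⟨q, hq, h⟩ hS => ⟨q, hq, fun v hv => hS (h v hv)⟩
  inter_sets := fun ⟨q, hq, h⟩ ⟨q', hq', h'⟩ => ⟨q * q', mul_ne_zero hq hq', fun v hv => by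
    rw [map_mul] at hv
    exact ⟨h v (left_ne_zero_of_mul hv), h' v (right_ne_zero_of_mul hv)⟩⟩

theorem generic_taylor (p : E → MvPolynomial (σ ⊕ J) ℝ) (hyp : ∀ s, ∃ g, Rigid p s g) :
    ∃ M₀ : ℕ, ∀ (D : ℕ) (r : ℝ), 0 < r → ∃ s G, Approx p M₀ D r s G := by
  have : (genFilter σ).NeBot := ⟨fun h => by
    have : ∅ ∈ genFilter σ := h ▸ mem_bot
    obtain ⟨q, hq, h⟩ := this
    exact hq (MvPolynomial.funext fun v => by_contra fun hv => h v (by simpa using hv))⟩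
  have : ((genFilter σ).curry (𝓝[≠] (0 : ℝ))).NeBot := ⟨fun h => by
    have : ∀ᶠ x in (genFilter σ).curry (𝓝[≠] (0 : ℝ)), False := by simp [h]
    rw [eventually_curry_iff] at this
    obtain ⟨x, hx⟩ := this.exists
    obtain ⟨y, hy⟩ := hx.exists
    exact hy⟩
  let U := Ultrafilter.of ((genFilter σ).curry (𝓝[≠] (0 : ℝ)))
  have hU : ∀ P : (σ → ℝ) × ℝ → Prop, (∀ᶠ v in genFilter σ, ∀ᶠ m in 𝓝[≠] (0 : ℝ), P (v, m)) →
      ∀ᶠ ω in (U : Filter _), P ω := fun P h => Ultrafilter.of_le _ (eventually_curry_iff.2 h)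
  let R := Germ (U : Filter ((σ → ℝ) × ℝ)) ℝ
  let : Algebra ℝ R := ((Germ.coeRingHom _).comp (Pi.constRingHom _ ℝ)).toAlgebra
  let π : ((σ → ℝ) × ℝ → ℝ) →ₐ[ℝ] R := { Germ.coeRingHom _ with commutes' := fun _ => rfl }
  have hπ : ∀ f, π f = (f : R) := fun _ => rfl
  have habs : ∀ f, |π f| = π (fun ω => |f ω|) := fun f => Germ.abs_def _
  have hne : ∀ᶠ ω in (U : Filter ((σ → ℝ) × ℝ)), ω.2 ≠ 0 :=
    hU _ (Eventually.of_forall fun v => self_mem_nhdsWithin)
  have hz : ∀ f, π f = 0 ↔ ∀ᶠ ω in (U : Filter ((σ → ℝ) × ℝ)), f ω = 0 := fun f =>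
    Germ.coe_eq (f := f) (g := 0)
  refine gt_abs (U : Filter ((σ → ℝ) × ℝ)) π (fun x => Germ.inductionOn x fun f => ⟨f, rfl⟩)
    hz (fun f g h => ?_) (fun i ω => ω.1 i) (fun ω => ω.2) ?_ rfl ?_ p hyp
  · rw [habs, habs] at h
    exact Germ.coe_le.1 h
  · intro h
    obtain ⟨ω, h1, h2⟩ := (hne.and (Germ.coe_eq.1 h)).exists
    exact h1 h2
  · intro p q hq
    rw [← map_aeval' π (fun i ω => ω.1 i) _ (fun _ => rfl),
      ← map_aeval' π (fun i ω => ω.1 i) _ (fun _ => rfl), ← map_mul, habs, habs]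
    refine Germ.coe_lt.2 (hU _ ⟨q, hq, fun v hv => ?_⟩)
    have e : ∀ (q : MvPolynomial σ ℝ) (m : ℝ),
        aeval (fun i (ω : (σ → ℝ) × ℝ) => ω.1 i) q (v, m) = eval v q := fun q m =>
      map_aeval' (Pi.evalAlgHom ℝ (fun _ => ℝ) (v, m)) _ v (fun _ => rfl) q
    simp only [Pi.mul_apply, e, Set.mem_ofPred_eq]
    apply eventually_nhdsWithin_of_eventually_nhds
    have : ContinuousAt (fun m : ℝ => |m * eval v p|) 0 := by fun_prop
    exact this.eventually_lt continuousAt_const (by simpa using hv)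

end Vale.Agent.P256
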