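import Vale.Agent.P256.Hyp
import Vale.Agent.P256.Moment

/-! The shift action on polynomials of degree two and the bilinear identities. -/

open Matrix MvPolynomial TensorProduct

namespace Vale.Agent.P256

set_option linter.unusedSectionVars false

/-- rows: monomials of degree at most two (ordered pairs) -/
abbrev Rw (σ : Type) := Unit ⊕ σ ⊕ σ × σ

variable {σ : Type} [Fintype σ] [DecidableEq σ]

abbrev r0 : Rw σ := .inl ()
abbrev r1 (a : σ) : Rw σ := .inr (.inl a)
abbrev r2 (a c : σ) : Rw σ := .inr (.inr (a, c))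

section
variable {T : Type} [CommRing T]

def actF (s : σ → T) (w : Rw σ → T) : Rw σ → T
  | .inl _ => w r0
  | .inr (.inl a) => w (r1 a) + s a * w r0
  | .inr (.inr p) => w (r2 p.1 p.2) + s p.1 * w (r1 p.2) + s p.2 * w (r1 p.1) + s p.1 * s p.2 * w r0

def act (s : σ → T) : (Rw σ → T) →ₗ[T] (Rw σ → T) where
  toFun := actF s
  map_add' w w' := by ext (r | r | r) <;> simp [actF] <;> ring
  map_smul' c w := by ext (r | r | r) <;> simp [actF] <;> ring

theorem act_act (s s' : σ → T) (w : Rw σ → T) : act s (act s' w) = act (s + s') w := by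
  ext (r | r | r) <;> simp [act, actF] <;> ring

theorem act_zero (w : Rw σ → T) : act 0 w = w := by
  ext (r | r | r) <;> simp [act, actF]

theorem act_map {T' F : Type} [CommRing T'] [FunLike F T T'] [RingHomClass F T T'] (f : F)
    (s : σ → T) (w : Rw σ → T) (r : Rw σ) :
    f (act s w r) = act (fun i => f (s i)) (fun i => f (w i)) r := by
  rcases r with r | r | r <;> simp [act, actF]

def Hm (s : σ → T) : Matrix (Rw σ) (Rw σ) T := LinearMap.toMatrix' (act s)

theorem Hm_mulVec (s : σ → T) (w : Rw σ → T) : Hm s *ᵥ w = act s w :=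
  LinearMap.toMatrix'_mulVec _ _

theorem Hm_neg (s : σ → T) : Hm s * Hm (-s) = 1 := by
  rw [Hm, Hm, ← LinearMap.toMatrix'_comp, ← LinearMap.toMatrix'_id]
  congr 1
  ext1 w
  exact LinearMap.ext fun w => by simp [act_act, act_zero]

theorem Hm_map {T' F : Type} [CommRing T'] [FunLike F T T'] [RingHomClass F T T'] (f : F)
    (s : σ → T) : (Hm s).map f = Hm (fun i => f (s i)) := by
  ext r a
  simp only [map_apply, Hm, LinearMap.toMatrix'_apply, act_map]
  exact congrFun (congrArg _ (_root_.funext fun i => by simp [Pi.single_apply, apply_ite f])) r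

def Hir (m : Rw σ → Rw σ → Rw σ → Rw σ → T) (a b c d : σ) : T :=
  m (r1 c) (r1 d) (r1 a) (r1 b) + m (r1 c) r0 (r1 a) (r2 b d) + m r0 (r1 d) (r2 a c) (r1 b)
    + m r0 r0 (r2 a c) (r2 b d) - m (r2 a c) (r1 d) r0 (r1 b) - m (r2 a c) r0 r0 (r2 b d)
    - m (r1 a) (r1 d) (r1 c) (r1 b) - m (r1 a) r0 (r1 c) (r2 b d)

theorem hir_poly (s s' : σ → T) (w η : Rw σ → T) (a b c d : σ) :
    Hir (fun i j k l => act s w i * act s η j * (act s' w k * act s' η l)
      + act s w k * act s η l * (act s' w i * act s' η j)) a b c d =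
    Hir (fun i j k l => act s w i * act s η j * (act s' w k * act s' η l)
      + act s w k * act s η l * (act s' w i * act s' η j)) b a c d := by
  simp only [Hir, act, actF, LinearMap.coe_mk, AddHom.coe_mk]
  ring

end

/-- the tensors -/
noncomputable def tau (Λ : MvPolynomial σ ℝ →ₗ[ℝ] ℝ) (w η : Rw σ → ℝ) :
    Matrix (Rw σ) (Rw σ) ℝ :=
  of fun r r' => Λ (act X (fun i => C (w i)) r * act X (fun i => C (η i)) r')

/-- the bilinear identities -/
def IsHir (T : Rw σ → Rw σ → ℝ) : Prop := ∀ a b c d,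
  Hir (fun i j k l => T i j * T k l) a b c d = Hir (fun i j k l => T i j * T k l) b a c d

theorem isHir_tau (Λ : MvPolynomial σ ℝ →ₗ[ℝ] ℝ) (w η : Rw σ → ℝ) : IsHir (tau Λ w η) := by
  intro a b c d
  let A := MvPolynomial σ ℝ
  let Λ₂ : A ⊗[ℝ] A →ₗ[ℝ] ℝ := TensorProduct.lift ((LinearMap.mul ℝ ℝ).compl₁₂ Λ Λ)
  let i₁ : A →ₐ[ℝ] A ⊗[ℝ] A := Algebra.TensorProduct.includeLeft
  let i₂ : A →ₐ[ℝ] A ⊗[ℝ] A := Algebra.TensorProduct.includeRight
  have h : ∀ f g, Λ₂ (i₁ f * i₂ g) = Λ f * Λ g := fun f g => by simp [Λ₂, i₁, i₂]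
  have key := congrArg Λ₂ (hir_poly (fun i => i₁ (X i)) (fun i => i₂ (X i))
    (fun i => algebraMap ℝ _ (w i)) (fun i => algebraMap ℝ _ (η i)) a b c d)
  have e1 : ∀ (w : Rw σ → ℝ) r, act (fun i => i₁ (X i)) (fun i => algebraMap ℝ _ (w i)) r
      = i₁ (act X (fun i => C (w i)) r) := fun w r => by
    rw [act_map i₁]; exact congrFun (congrArg _ (funext fun i => (i₁.commutes _).symm)) r
  have e2 : ∀ (w : Rw σ → ℝ) r, act (fun i => i₂ (X i)) (fun i => algebraMap ℝ _ (w i)) r
      = i₂ (act X (fun i => C (w i)) r) := fun w r => by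
    rw [act_map i₂]; exact congrFun (congrArg _ (funext fun i => (i₂.commutes _).symm)) r
  simp only [e1, e2, ← map_mul, Hir, map_add, map_sub, h] at key
  simp only [Hir, tau, of_apply]
  linear_combination (1 / 2 : ℝ) * key

theorem deg_act (w : Rw σ → ℝ) (r : Rw σ) :
    (act X (fun i => C (w i)) r : MvPolynomial σ ℝ).totalDegree ≤ 2 := by
  have h1 : ∀ (a : σ) (c : ℝ), (X a * C c : MvPolynomial σ ℝ).totalDegree ≤ 2 := fun a c =>
    (totalDegree_mul _ _).trans (by simp)
  have h2 : ∀ (a b : σ) (c : ℝ), (X a * X b * C c : MvPolynomial σ ℝ).totalDegree ≤ 2 :=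
    fun a b c => (totalDegree_mul _ _).trans (by simpa using (totalDegree_mul _ _).trans (by simp))
  rcases r with r | r | r
  · simp [act, actF]
  · exact (totalDegree_add _ _).trans (max_le (by simp) (h1 _ _))
  · exact (totalDegree_add _ _).trans (max_le ((totalDegree_add _ _).trans (max_le
      ((totalDegree_add _ _).trans (max_le (by simp) (h1 _ _))) (h1 _ _))) (h2 _ _ _))

/-- the coefficient tensors -/
noncomputable def tc (k : degLE σ 4) (a c : Rw σ) : Matrix (Rw σ) (Rw σ) ℝ :=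
  of fun r r' => coeff k.1 (Hm X r a * Hm X r' c)

noncomputable def Lam (y : degLE σ 4 → ℝ) : MvPolynomial σ ℝ →ₗ[ℝ] ℝ :=
  ∑ k : degLE σ 4, y k • lcoeff ℝ k.1

theorem t3_tc (y : degLE σ 4 → ℝ) (w η : Rw σ → ℝ) : t3 tc y w η = tau (Lam y) w η := by
  ext r r'
  have h : ∀ (w : Rw σ → ℝ) r, (act X (fun i => C (w i)) r : MvPolynomial σ ℝ)
      = ∑ a, w a • Hm X r a := fun w r => by
    rw [← Hm_mulVec]
    simp only [mulVec, dotProduct, smul_eq_C_mul, mul_comm]
  have := bil_sum ((LinearMap.mul ℝ _).compr₂ (Lam y)) w η (Hm X r) (Hm X r')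
  simp only [LinearMap.compr₂_apply, LinearMap.mul_apply'] at this
  rw [tau, of_apply, h, h, this]
  simp [t3, t2, tc, Lam, Matrix.sum_apply, Finset.mul_sum, mul_assoc]

theorem t3_ev (s : σ → ℝ) (w η : Rw σ → ℝ) :
    t3 tc (fun k => eval s (monomial k.1 1)) w η = vecMulVec (act s w) (act s η) := by
  rw [t3_tc]
  ext r r'
  have h := phi_coe (aeval s).toLinearMap
    ((totalDegree_mul _ _).trans (add_le_add (deg_act w r) (deg_act η r')))
  rw [phi_apply, ← Finset.sum_coe_sort] at h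
  simp only [coeff_coe, AlgHom.toLinearMap_apply, map_mul, act_map, aeval_X, aeval_C] at h
  simp only [tau, Lam, of_apply, LinearMap.sum_apply, LinearMap.smul_apply, lcoeff_apply,
    smul_eq_mul, vecMulVec_apply]
  exact h

end Vale.Agent.P256
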