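import Vale.Agent.P256.Psd

/-! A hyperbolic polynomial attached to a nonnegative triquadratic form. -/

open Matrix MvPolynomial Filter Topology

namespace Vale.Agent.P256

set_option linter.unusedSectionVars false

variable {ι κ V : Type} [Fintype ι] [DecidableEq ι] [Fintype κ] [DecidableEq κ]
  [AddCommGroup V] [Module ℝ V] (q : V →ₗ[ℝ] V →ₗ[ℝ] ℝ) (τ : κ → ι → ι → V)

section generic
variable {T : Type} [CommRing T] [Algebra ℝ T]

def zM (z : (ι × ι) ⊕ (ι × ι) ⊕ κ → T) : Matrix ι ι T :=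
  of fun a b => z (.inl (a, b)) + z (.inl (b, a))

def bM (z : (ι × ι) ⊕ (ι × ι) ⊕ κ → T) : Matrix ι ι T :=
  of fun a b => z (.inr (.inl (a, b))) + z (.inr (.inl (b, a)))

def yv (z : (ι × ι) ⊕ (ι × ι) ⊕ κ → T) : κ → T := fun k => z (.inr (.inr k))

def Phi (y : κ → T) : Matrix ι ι T →ₗ[T] Matrix ι ι T where
  toFun Y := of fun c d => ∑ a, ∑ b, Y a b * ∑ k, ∑ l, q (τ k a c) (τ l b d) • (y k * y l)
  map_add' Y Y' := by ext c d; simp [add_mul, Finset.sum_add_distrib]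
  map_smul' r Y := by ext c d; simp [Finset.mul_sum, mul_assoc]

theorem Phi_apply (y : κ → T) (Y : Matrix ι ι T) (c d : ι) : Phi q τ y Y c d =
    ∑ a, ∑ b, Y a b * ∑ k, ∑ l, q (τ k a c) (τ l b d) • (y k * y l) := rfl

def sM (z : (ι × ι) ⊕ (ι × ι) ⊕ κ → T) : Matrix ι ι T :=
  (bM z).det • zM z - Phi q τ (yv z) (adjugate (bM z))

def pv (z : (ι × ι) ⊕ (ι × ι) ⊕ κ → T) : T := (bM z).det * (sM q τ z).det

theorem zM_symm (z : (ι × ι) ⊕ (ι × ι) ⊕ κ → T) : (zM z)ᵀ = zM z := by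
  ext a b; simp [zM, add_comm]

theorem bM_symm (z : (ι × ι) ⊕ (ι × ι) ⊕ κ → T) : (bM z)ᵀ = bM z := by
  ext a b; simp [bM, add_comm]

theorem Phi_symm (hq : ∀ a b, q a b = q b a) (y : κ → T) {Y : Matrix ι ι T} (hY : Yᵀ = Y) :
    (Phi q τ y Y)ᵀ = Phi q τ y Y := by
  ext c d
  rw [transpose_apply, Phi_apply, Phi_apply, Finset.sum_comm]
  refine Finset.sum_congr rfl fun a _ => Finset.sum_congr rfl fun b _ => ?_
  rw [show Y b a = Y a b from congrFun (congrFun hY a) b, Finset.sum_comm]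
  simp only [hq (τ _ b d), mul_comm]

theorem sM_symm (hq : ∀ a b, q a b = q b a) (z : (ι × ι) ⊕ (ι × ι) ⊕ κ → T) :
    (sM q τ z)ᵀ = sM q τ z := by
  rw [sM, transpose_sub, transpose_smul, zM_symm,
    Phi_symm q τ hq _ (by rw [adjugate_transpose, bM_symm])]

theorem Phi_map {T' : Type} [CommRing T'] [Algebra ℝ T'] (f : T →ₐ[ℝ] T') (y : κ → T)
    (Y : Matrix ι ι T) : (Phi q τ y Y).map f = Phi q τ (fun k => f (y k)) (Y.map f) := by
  ext c d; simp [Phi_apply]

theorem pv_map {T' : Type} [CommRing T'] [Algebra ℝ T'] (f : T →ₐ[ℝ] T')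
    (z : (ι × ι) ⊕ (ι × ι) ⊕ κ → T) : f (pv q τ z) = pv q τ (fun i => f (z i)) := by
  have h1 : f.mapMatrix (bM z) = bM (fun i => f (z i)) := by ext; simp [bM]
  have h2 : f.mapMatrix (sM q τ z) = sM q τ (fun i => f (z i)) := by
    rw [sM, sM, map_sub, ← h1, ← f.map_adjugate, ← f.map_det]
    congr 1
    · ext; simp [zM]
    · exact Phi_map q τ f _ _
  rw [pv, pv, map_mul, f.map_det, f.map_det, h1, h2]

theorem aeval_pv (z : (ι × ι) ⊕ (ι × ι) ⊕ κ → T) :
    aeval z (pv q τ (T := MvPolynomial _ ℝ) X) = pv q τ z := by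
  rw [pv_map]; simp

theorem Phi_smul (c : T) (y : κ → T) (Y : Matrix ι ι T) :
    Phi q τ (c • y) Y = (c * c) • Phi q τ y Y := by
  ext a b
  simp only [Phi_apply, Matrix.smul_apply, Pi.smul_apply, smul_eq_mul, Finset.mul_sum]
  refine Finset.sum_congr rfl fun _ _ => Finset.sum_congr rfl fun _ _ =>
    Finset.sum_congr rfl fun _ _ => Finset.sum_congr rfl fun _ _ => ?_
  simp only [Algebra.smul_def]; ring

theorem pv_smul [Nonempty ι] (c : T) (z : (ι × ι) ⊕ (ι × ι) ⊕ κ → T) : pv q τ (c • z) =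
    c ^ Fintype.card ι * (c ^ (Fintype.card ι + 1)) ^ Fintype.card ι * pv q τ z := by
  have h1 : bM (c • z) = c • bM z := by ext; simp [bM, mul_add]
  have h2 : zM (c • z) = c • zM z := by ext; simp [zM, mul_add]
  have h3 : yv (c • z) = c • yv z := rfl
  have h4 : sM q τ (c • z) = c ^ (Fintype.card ι + 1) • sM q τ z := by
    obtain ⟨n, hn⟩ : ∃ n, Fintype.card ι = n + 1 := ⟨_, (Nat.succ_pred Fintype.card_ne_zero).symm⟩
    rw [sM, sM, h1, h2, h3, det_smul, adjugate_smul, Phi_smul, map_smul, smul_sub, smul_smul,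
      smul_smul, smul_smul, hn, Nat.add_sub_cancel]
    congr 2 <;> ring
  rw [pv, pv, h1, h4, det_smul, det_smul]; ring

end generic

theorem det_hom {W : Type*} (d : ι → ℕ) (M : Matrix ι ι (MvPolynomial W ℝ))
    (h : ∀ i j, (M i j).IsHomogeneous (d i)) : M.det.IsHomogeneous (∑ i, d i) := by
  rw [det_apply']
  refine IsHomogeneous.sum _ _ _ fun s _ => ?_
  rw [← map_intCast (C : ℝ →+* MvPolynomial W ℝ), ← Equiv.sum_comp s]
  exact (IsHomogeneous.prod _ _ _ fun i _ => h _ _).C_mul _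

theorem pv_hom [Nonempty ι] : ∃ d, (pv q τ (T := MvPolynomial _ ℝ) X).IsHomogeneous d := by
  have hB : ∀ i j : ι, (bM (κ := κ) (T := MvPolynomial _ ℝ) X i j).IsHomogeneous 1 := fun i j =>
    (isHomogeneous_X _ _).add (isHomogeneous_X _ _)
  have hd := det_hom (fun _ => 1) _ hB
  refine ⟨_, hd.mul (det_hom (fun _ => (∑ _ : ι, 1) + 1) _ fun c d => ?_)⟩
  refine (hd.mul ((isHomogeneous_X _ _).add (isHomogeneous_X _ _))).sub ?_
  refine IsHomogeneous.sum _ _ _ fun a _ => IsHomogeneous.sum _ _ _ fun b _ => ?_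
  have h1 : (∑ _ : ι, 1) + 1 = (∑ r, if r = b then 0 else 1) + (1 + 1) := by
    rw [← add_assoc, ← Finset.sum_erase_add _ _ (Finset.mem_univ b),
      ← Finset.sum_erase_add _ (fun r => if r = b then 0 else 1) (Finset.mem_univ b), if_pos rfl,
      Finset.sum_congr rfl fun x hx => if_neg (Finset.ne_of_mem_erase hx)]
  rw [h1, adjugate_apply]
  refine (det_hom _ _ fun i j => ?_).mul (IsHomogeneous.sum _ _ _ fun k _ =>
    IsHomogeneous.sum _ _ _ fun l _ => ?_)
  · rw [updateRow_apply]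
    split_ifs
    · rw [Pi.single_apply]
      split_ifs
      exacts [isHomogeneous_one _ _, isHomogeneous_zero _ _ _]
    · exact hB _ _
  · rw [smul_eq_C_mul]
    exact ((isHomogeneous_X _ _).mul (isHomogeneous_X _ _)).C_mul _

/-- the direction of hyperbolicity -/
noncomputable def ee : (ι × ι) ⊕ (ι × ι) ⊕ κ → ℝ
  | .inl p => if p.1 = p.2 then 1 / 2 else 0
  | .inr (.inl p) => if p.1 = p.2 then 1 / 2 else 0
  | .inr (.inr _) => 0

theorem zM_ee : zM (ee : (ι × ι) ⊕ (ι × ι) ⊕ κ → ℝ) = 1 := by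
  ext a b; by_cases h : a = b <;> simp [zM, ee, one_apply, h, eq_comm]; norm_num

theorem bM_ee : bM (ee : (ι × ι) ⊕ (ι × ι) ⊕ κ → ℝ) = 1 := by
  ext a b; by_cases h : a = b <;> simp [bM, ee, one_apply, h, eq_comm]; norm_num

theorem sM_ee : sM q τ (ee : (ι × ι) ⊕ (ι × ι) ⊕ κ → ℝ) = 1 := by
  rw [sM, zM_ee, bM_ee]
  ext a b; simp [Phi_apply, yv, ee]

theorem sum4 {α β γ δ : Type*} [Fintype α] [Fintype β] [Fintype γ] [Fintype δ]
    (f : α → β → γ → δ → ℝ) :
    ∑ a, ∑ b, ∑ c, ∑ d, f a b c d = ∑ c, ∑ d, ∑ a, ∑ b, f a b c d :=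
  calc _ = ∑ a, ∑ c, ∑ b, ∑ d, f a b c d := Finset.sum_congr rfl fun _ _ => Finset.sum_comm
    _ = ∑ c, ∑ a, ∑ b, ∑ d, f a b c d := Finset.sum_comm
    _ = ∑ c, ∑ a, ∑ d, ∑ b, f a b c d :=
      Finset.sum_congr rfl fun _ _ => Finset.sum_congr rfl fun _ _ => Finset.sum_comm
    _ = _ := Finset.sum_congr rfl fun _ _ => Finset.sum_comm

theorem bil_sum {α β : Type*} [Fintype α] [Fintype β] (a : α → ℝ) (b : β → ℝ) (f : α → V)
    (g : β → V) : q (∑ i, a i • f i) (∑ j, b j • g j) = ∑ i, ∑ j, a i * b j * q (f i) (g j) := by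
  rw [LinearMap.map_sum₂]
  refine Finset.sum_congr rfl fun i _ => ?_
  rw [LinearMap.map_smul₂, map_sum, Finset.smul_sum]
  exact Finset.sum_congr rfl fun j _ => by simp [mul_assoc]

def t2 (y : κ → ℝ) (a : ι) (η : ι → ℝ) : V := ∑ c, η c • ∑ k, y k • τ k a c

def t3 (y : κ → ℝ) (w η : ι → ℝ) : V := ∑ a, w a • t2 τ y a η

theorem Phi_dot (y : κ → ℝ) (Y : Matrix ι ι ℝ) (η η' : ι → ℝ) :
    η ⬝ᵥ Phi q τ y Y *ᵥ η' = ∑ a, ∑ b, Y a b * q (t2 τ y a η) (t2 τ y b η') := by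
  have h : ∀ a b c d, ∑ k, ∑ l, q (τ k a c) (τ l b d) • (y k * y l)
      = q (∑ k, y k • τ k a c) (∑ k, y k • τ k b d) := by
    intro a b c d
    simp only [bil_sum, smul_eq_mul, mul_comm]
  simp only [dotProduct, mulVec, Phi_apply, h, t2]
  simp only [bil_sum q η η', Finset.mul_sum, Finset.sum_mul]
  rw [sum4]
  exact Finset.sum_congr rfl fun _ _ => Finset.sum_congr rfl fun _ _ =>
    Finset.sum_congr rfl fun _ _ => Finset.sum_congr rfl fun _ _ => by ring

theorem Phi_vec (y : κ → ℝ) (w w' η η' : ι → ℝ) :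
    η ⬝ᵥ Phi q τ y (vecMulVec w w') *ᵥ η' = q (t3 τ y w η) (t3 τ y w' η') := by
  rw [Phi_dot]
  simp only [t3, bil_sum, vecMulVec_apply]

variable {q τ}

theorem Phi_psd (hq : ∀ a b, q a b = q b a) (hp : ∀ y w η, 0 ≤ q (t3 τ y w η) (t3 τ y w η))
    (y : κ → ℝ) {Y : Matrix ι ι ℝ} (hY : Y.PosSemidef) : (Phi q τ y Y).PosSemidef := by
  refine psd_iff.2 ⟨Phi_symm q τ hq y (psd_symm hY), fun η => ?_⟩
  obtain ⟨C, hC, rfl⟩ := exists_sqrt hY
  have : C * C = ∑ e, vecMulVec (C e) (C e) := by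
    ext a b
    rw [mul_apply, Matrix.sum_apply]
    exact Finset.sum_congr rfl fun e _ => by
      rw [vecMulVec_apply, show C a e = C e a from congrFun (congrFun (psd_symm hC) e) a]
  rw [this, map_sum, sum_mulVec, dotProduct_sum]
  exact Finset.sum_nonneg fun e _ => (Phi_vec q τ y _ _ η η).symm ▸ hp _ _ _

theorem cdet {A P : Matrix ι ι ℝ} (hA : Aᵀ = A) (hP : P.PosDef) {s : ℝ} (hs : s ≠ 0) :
    (A.map Complex.ofRealAm + (s * Complex.I) • P.map Complex.ofRealAm).det ≠ 0 := by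
  intro h
  obtain ⟨v, hv, h⟩ := exists_mulVec_eq_zero_iff.2 h
  let a : ι → ℝ := fun i => (v i).re
  let b : ι → ℝ := fun i => (v i).im
  have h1 : A *ᵥ a = s • P *ᵥ b := by
    ext i
    have := congrArg Complex.re (congrFun h i)
    simp only [mulVec, dotProduct, add_mul, Finset.sum_add_distrib, Matrix.add_apply] at this ⊢
    simp [Finset.mul_sum, mul_assoc, mulVec, dotProduct, a, b] at this ⊢
    linarith
  have h2 : A *ᵥ b = -(s • P *ᵥ a) := by
    ext i
    have := congrArg Complex.im (congrFun h i)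
    simp only [mulVec, dotProduct, add_mul, Finset.sum_add_distrib, Matrix.add_apply] at this ⊢
    simp [Finset.mul_sum, mul_assoc, mulVec, dotProduct, a, b] at this ⊢
    linarith
  have h3 : b ⬝ᵥ A *ᵥ a = a ⬝ᵥ A *ᵥ b := by
    rw [dotProduct_mulVec, ← mulVec_transpose, hA, dotProduct_comm]
  rw [h1, h2, dotProduct_neg, dotProduct_smul, dotProduct_smul, smul_eq_mul, smul_eq_mul] at h3
  have h4 : a ⬝ᵥ P *ᵥ a + b ⬝ᵥ P *ᵥ b = 0 := by
    apply mul_left_cancel₀ hs; linarith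
  have a1 := (psd_iff.1 hP.posSemidef).2 a
  have a2 := (psd_iff.1 hP.posSemidef).2 b
  have ha : a = 0 := by_contra fun h => by linarith [(pd_iff.1 hP).2 a h]
  have hb : b = 0 := by_contra fun h => by linarith [(pd_iff.1 hP).2 b h]
  exact hv (funext fun i => Complex.ext (congrFun ha i) (congrFun hb i))

theorem pv_roots (hq : ∀ a b, q a b = q b a) (hp : ∀ y w η, 0 ≤ q (t3 τ y w η) (t3 τ y w η))
    (x : (ι × ι) ⊕ (ι × ι) ⊕ κ → ℝ) (t : ℂ)
    (h : pv q τ (fun i => t * (ee i : ℝ) - (x i : ℝ)) = 0) : t.im = 0 := by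
  by_contra hs
  set z : (ι × ι) ⊕ (ι × ι) ⊕ κ → ℂ := fun i => t * (ee i : ℝ) - (x i : ℝ) with hz
  set S : Matrix ι ι ℝ := t.re • 1 - bM x with hS
  have hSs : Sᵀ = S := by rw [hS, transpose_sub, transpose_smul, transpose_one, bM_symm]
  have hB : bM z = S.map Complex.ofRealAm
      + (t.im * Complex.I) • (1 : Matrix ι ι ℝ).map Complex.ofRealAm := by
    ext a b
    by_cases hab : a = b <;> apply Complex.ext <;> simp [bM, hz, hS, ee, hab, eq_comm] <;> ring
  have hZ : zM z = (t.re • 1 - zM x).map Complex.ofRealAm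
      + (t.im * Complex.I) • (1 : Matrix ι ι ℝ).map Complex.ofRealAm := by
    ext a b
    by_cases hab : a = b <;> apply Complex.ext <;> simp [zM, hz, ee, hab, eq_comm] <;> ring
  have hy : yv z = fun k => Complex.ofRealAm (-yv x k) := by
    ext k; simp [yv, hz, ee]
  have hM : (S * S + (t.im * t.im) • (1 : Matrix ι ι ℝ)).PosDef := by
    refine PosDef.posSemidef_add ?_ (PosDef.one.smul (mul_self_pos.2 hs))
    simpa [hSs] using psd_conj PosSemidef.one S
  set W := (S * S + (t.im * t.im) • (1 : Matrix ι ι ℝ))⁻¹ with hW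
  have hu := (isUnit_iff_isUnit_det _).1 hM.isUnit
  have hMW := mul_nonsing_inv _ hu
  have hWM := nonsing_inv_mul _ hu
  rw [← hW] at hMW hWM
  have hSW : (S * W)ᵀ = S * W := by
    rw [transpose_mul, hSs, pd_symm hM.inv]
    calc W * S = W * S * ((S * S + (t.im * t.im) • 1) * W) := by rw [hMW, mul_one]
      _ = W * (S * S + (t.im * t.im) • 1) * (S * W) := by
        simp only [mul_add, add_mul, mul_assoc, Matrix.mul_smul, Matrix.smul_mul, mul_one, one_mul]
      _ = S * W := by rw [hWM, one_mul]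
  have hd := cdet hSs PosDef.one hs
  rw [← hB] at hd
  have hR : bM z * ((S * W).map Complex.ofRealAm - (t.im * Complex.I) • W.map Complex.ofRealAm)
      = 1 := by
    have e := congrArg Complex.ofRealAm.mapMatrix hMW
    rw [map_mul, map_add, map_mul, map_smul, map_one] at e
    have e2 : (S * W).map Complex.ofRealAm = S.map Complex.ofRealAm * W.map Complex.ofRealAm :=
      Matrix.map_mul
    have e3 : (1 : Matrix ι ι ℝ).map Complex.ofRealAm = 1 := map_one Complex.ofRealAm.mapMatrix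
    have e4 : (t.im * Complex.I) * (t.im * Complex.I) = -((t.im * t.im : ℝ) : ℂ) := by
      push_cast; linear_combination (t.im : ℂ) ^ 2 * Complex.I_mul_I
    rw [hB, e2, e3]
    refine Eq.trans ?_ e
    simp only [AlgHom.mapMatrix_apply, mul_sub, add_mul, Matrix.smul_mul, Matrix.mul_smul,
      one_mul, smul_smul, e4, mul_assoc, neg_smul, Complex.coe_smul]
    abel
  have hadj : adjugate (bM z) = (bM z).det •
      ((S * W).map Complex.ofRealAm - (t.im * Complex.I) • W.map Complex.ofRealAm) := by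
    rw [← mul_one (adjugate _), ← hR, ← mul_assoc, adjugate_mul, smul_mul_assoc, one_mul]
  have hs' : sM q τ z = (bM z).det • ((t.re • 1 - zM x - Phi q τ (-yv x) (S * W)).map
      Complex.ofRealAm + (t.im * Complex.I) • (1 + Phi q τ (-yv x) W).map Complex.ofRealAm) := by
    rw [sM, hadj, map_smul, ← smul_sub, map_sub, map_smul, hZ, hy, ← Phi_map, ← Phi_map]
    congr 1
    ext a b
    simp only [Matrix.sub_apply, Matrix.add_apply, map_apply, Matrix.smul_apply, map_sub, map_add,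
      smul_eq_mul]
    simp only [Pi.neg_def]
    ring
  have hd2 := cdet (A := t.re • 1 - zM x - Phi q τ (-yv x) (S * W)) (by
    rw [transpose_sub, transpose_sub, transpose_smul, transpose_one, zM_symm,
      Phi_symm q τ hq _ hSW]) (PosDef.one.add_posSemidef (Phi_psd hq hp (-yv x) hM.inv.posSemidef)) hs
  rw [pv, hs', det_smul] at h
  exact mul_ne_zero hd (mul_ne_zero (pow_ne_zero _ hd) hd2) h

theorem sM_eq {x : (ι × ι) ⊕ (ι × ι) ⊕ κ → ℝ} (h : (bM x).PosDef) :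
    sM q τ x = (bM x).det • (zM x - Phi q τ (yv x) (bM x)⁻¹) := by
  rw [sM, smul_sub, ← map_smul, inv_def, smul_smul, Ring.mul_inverse_cancel _ h.det_pos.ne'.isUnit,
    one_smul]

variable (q τ) in
/-- the open cone -/
def Om : Set ((ι × ι) ⊕ (ι × ι) ⊕ κ → ℝ) := {x | (bM x).PosDef ∧ (sM q τ x).PosDef}

theorem mem_Om {x : (ι × ι) ⊕ (ι × ι) ⊕ κ → ℝ} :
    x ∈ Om q τ ↔ (bM x).PosDef ∧ (zM x - Phi q τ (yv x) (bM x)⁻¹).PosDef := by
  refine and_congr_right fun h => ?_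
  rw [sM_eq h]
  refine ⟨fun h' => ?_, fun h' => h'.smul h.det_pos⟩
  have := h'.smul (inv_pos.2 h.det_pos)
  rwa [smul_smul, inv_mul_cancel₀ h.det_pos.ne', one_smul] at this

theorem cont_bM : Continuous fun x : (ι × ι) ⊕ (ι × ι) ⊕ κ → ℝ => bM x :=
  continuous_matrix fun a b => by simp only [bM, of_apply]; fun_prop

theorem cont_sM : Continuous fun x : (ι × ι) ⊕ (ι × ι) ⊕ κ → ℝ => sM q τ x := by
  have h1 := cont_bM (ι := ι) (κ := κ)
  have h2 := h1.matrix_det
  have h3 : ∀ a b, Continuous fun x : (ι × ι) ⊕ (ι × ι) ⊕ κ → ℝ => adjugate (bM x) a b :=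
    fun a b => h1.matrix_adjugate.matrix_elem a b
  refine continuous_matrix fun a b => ?_
  simp only [sM, Matrix.sub_apply, Matrix.smul_apply, Phi_apply, zM, yv, of_apply]
  fun_prop

theorem isOpen_Om (hq : ∀ a b, q a b = q b a) : IsOpen (Om q τ) :=
  isOpen_iff_mem_nhds.2 fun _ hx => (pd_eventually hx.1 cont_bM.continuousAt bM_symm).and
    (pd_eventually hx.2 cont_sM.continuousAt (sM_symm q τ hq))

variable (q τ) in
/-- the hyperbolicity cone -/
def Kc : Set ((ι × ι) ⊕ (ι × ι) ⊕ κ → ℝ) :=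
  {x | ∀ t : ℝ, pv q τ (fun i => t * ee i - x i) = 0 → 0 ≤ t}

theorem Om_sub [Nonempty ι] (hq : ∀ a b, q a b = q b a)
    (hp : ∀ y w η, 0 ≤ q (t3 τ y w η) (t3 τ y w η)) : Om q τ ⊆ Kc q τ := by
  intro x hx t ht
  by_contra hneg
  have hs : 0 < -t := by linarith
  obtain ⟨h1, h2⟩ := mem_Om.1 hx
  have e1 : bM (x + (-t) • ee) = bM x + (-t) • 1 := by
    rw [← bM_ee (κ := κ)]; ext; simp [bM]; ring
  have e2 : zM (x + (-t) • ee) = zM x + (-t) • 1 := by
    rw [← zM_ee (κ := κ)]; ext; simp [zM]; ring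
  have e3 : yv (x + (-t) • ee) = yv x := by ext; simp [yv, ee]
  have hA : (bM x + (-t) • 1).PosDef := h1.add (PosDef.one.smul hs)
  have h3 : ((bM x)⁻¹ - (bM x + (-t) • 1)⁻¹).PosSemidef := by
    rw [← hA.isUnit.posSemidef_star_left_conjugate_iff, show star (bM x + (-t) • 1) = _ from hA.1,
      mul_sub, sub_mul, mul_nonsing_inv _ hA.det_pos.ne'.isUnit]
    refine Eq.mpr (congrArg PosSemidef ?_)
      ((PosSemidef.one.smul hs.le).add (h1.inv.posSemidef.smul (mul_pos hs hs).le))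
    simp only [add_mul, mul_add, mul_nonsing_inv _ h1.det_pos.ne'.isUnit, Matrix.smul_mul,
      Matrix.mul_smul, one_mul, mul_one, nonsing_inv_mul _ h1.det_pos.ne'.isUnit,
      smul_smul]
    abel
  have h4 : x + (-t) • ee ∈ Om q τ := by
    rw [mem_Om, e1, e2, e3]
    refine ⟨hA, ?_⟩
    convert (h2.add (PosDef.one.smul hs)).add_posSemidef (Phi_psd hq hp (yv x) h3) using 1
    rw [map_sub]; abel
  have e4 : (fun i => t * ee i - x i) = (-1 : ℝ) • (x + (-t) • ee) := by ext; simp; ring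
  rw [e4, pv_smul, pv] at ht
  exact mul_ne_zero (by positivity) (mul_pos h4.1.det_pos h4.2.det_pos).ne' ht

theorem Kc_sub [Nonempty ι] (hq : ∀ a b, q a b = q b a) {x : (ι × ι) ⊕ (ι × ι) ⊕ κ → ℝ}
    (hx : x ∈ Kc q τ) (r : ℝ) (hr : 0 ≤ r) : ee + r • x ∈ Om q τ := by
  have h : ∀ r : ℝ, 0 ≤ r → pv q τ (ee + r • x) ≠ 0 := by
    intro r hr h
    rcases hr.eq_or_lt with rfl | hr
    · simp [pv, bM_ee, sM_ee] at h
    · have := hx (-r⁻¹) (by
        have e : (fun i => -r⁻¹ * ee i - x i) = (-r⁻¹) • (ee + r • x) := by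
          ext; simp; field_simp; ring
        rw [e, pv_smul, h, mul_zero])
      linarith [inv_pos.2 hr]
  have hc : Continuous fun r : ℝ => ee + r • x := by fun_prop
  exact ⟨pd_conn (cont_bM.comp hc) (fun _ => bM_symm _) (fun r hr => left_ne_zero_of_mul (h r hr))
      (by simpa [bM_ee] using PosDef.one) r hr,
    pd_conn (cont_sM.comp hc) (fun _ => sM_symm q τ hq _)
      (fun r hr => right_ne_zero_of_mul (h r hr)) (by simpa [sM_ee] using PosDef.one) r hr⟩

variable (q τ) in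
/-- supporting functionals -/
def ell (w η : ι → ℝ) (u : V) : ((ι × ι) ⊕ (ι × ι) ⊕ κ → ℝ) →ₗ[ℝ] ℝ where
  toFun x := η ⬝ᵥ zM x *ᵥ η + q u u * (w ⬝ᵥ bM x *ᵥ w) - 2 * q (t3 τ (yv x) w η) u
  map_add' x y := by
    have e1 : zM (x + y) = zM x + zM y := by ext; simp [zM]; ring
    have e2 : bM (x + y) = bM x + bM y := by ext; simp [bM]; ring
    have e3 : t3 τ (yv (x + y)) w η = t3 τ (yv x) w η + t3 τ (yv y) w η := by
      simp [t3, t2, yv, add_smul, Finset.sum_add_distrib]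
    rw [e1, e2, e3]; simp only [add_mulVec, dotProduct_add, LinearMap.map_add₂]; ring
  map_smul' c x := by
    have e1 : zM (c • x) = c • zM x := by ext; simp [zM]; ring
    have e2 : bM (c • x) = c • bM x := by ext; simp [bM]; ring
    have e3 : t3 τ (yv (c • x)) w η = c • t3 τ (yv x) w η := by
      simp [t3, t2, yv, Finset.smul_sum, smul_smul, mul_left_comm]
    rw [e1, e2, e3]
    simp only [smul_mulVec, dotProduct_smul, LinearMap.map_smul₂, smul_eq_mul, RingHom.id_apply]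
    ring

theorem ell_apply (w η : ι → ℝ) (u : V) (x : (ι × ι) ⊕ (ι × ι) ⊕ κ → ℝ) : ell q τ w η u x =
    η ⬝ᵥ zM x *ᵥ η + q u u * (w ⬝ᵥ bM x *ᵥ w) - 2 * q (t3 τ (yv x) w η) u := rfl

theorem ell_nonneg [Nonempty ι] (hq : ∀ a b, q a b = q b a)
    (hp : ∀ y w η, 0 ≤ q (t3 τ y w η) (t3 τ y w η)) {w η : ι → ℝ} {u : V} (hw : w ≠ 0)
    (hu : ∀ y (b : ℝ), 0 ≤ q (t3 τ y w η - b • u) (t3 τ y w η - b • u))
    {x : (ι × ι) ⊕ (ι × ι) ⊕ κ → ℝ} (hx : x ∈ Kc q τ) : 0 ≤ ell q τ w η u x := by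
  have key : ∀ x ∈ Om q τ, 0 ≤ ell q τ w η u x := by
    intro x hx
    obtain ⟨h1, h2⟩ := mem_Om.1 hx
    have hb := (pd_iff.1 h1).2 w hw
    set b := w ⬝ᵥ bM x *ᵥ w with hb'
    have h3 : ((bM x)⁻¹ - b⁻¹ • vecMulVec w w).PosSemidef := by
      refine psd_iff.2 ⟨by rw [transpose_sub, pd_symm h1.inv, transpose_smul,
        transpose_vecMulVec], fun v => ?_⟩
      have hv : bM x *ᵥ ((bM x)⁻¹ *ᵥ v) = v := by
        rw [mulVec_mulVec, mul_nonsing_inv _ h1.det_pos.ne'.isUnit, one_mulVec]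
      have h4 := (psd_iff.1 h1.posSemidef).2 ((bM x)⁻¹ *ᵥ v - (b⁻¹ * (w ⬝ᵥ v)) • w)
      have h5 : ((bM x)⁻¹ *ᵥ v) ⬝ᵥ bM x *ᵥ w = w ⬝ᵥ v := by
        rw [dotProduct_mulVec, ← mulVec_transpose, bM_symm, hv, dotProduct_comm]
      rw [mulVec_sub, hv, mulVec_smul, sub_dotProduct, dotProduct_sub, dotProduct_sub,
        dotProduct_smul, smul_dotProduct, smul_dotProduct, dotProduct_smul, h5, ← hb'] at h4
      rw [sub_mulVec, dotProduct_sub, smul_mulVec, vecMulVec_mulVec, dotProduct_smul,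
        dotProduct_smul, dotProduct_comm v w, dotProduct_comm v]
      convert h4 using 1
      simp only [smul_eq_mul, MulOpposite.smul_eq_mul_unop, MulOpposite.unop_op]
      field_simp
      ring
    have h4 := (psd_iff.1 (h2.posSemidef.add (Phi_psd hq hp (yv x) h3))).2 η
    rw [map_sub, map_smul, sub_add_sub_cancel, sub_mulVec, dotProduct_sub, smul_mulVec,
      dotProduct_smul, Phi_vec, smul_eq_mul] at h4
    have h5 := mul_nonneg (inv_pos.2 hb).le (hu (yv x) b)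
    simp only [map_sub, LinearMap.sub_apply, map_smul, LinearMap.smul_apply, smul_eq_mul,
      hq u (t3 τ (yv x) w η)] at h5
    rw [ell_apply, ← hb']
    have : b⁻¹ * (q (t3 τ (yv x) w η) (t3 τ (yv x) w η) - b * q (t3 τ (yv x) w η) u -
      b * (q (t3 τ (yv x) w η) u - b * q u u)) = b⁻¹ * q (t3 τ (yv x) w η) (t3 τ (yv x) w η)
        + q u u * b - 2 * q (t3 τ (yv x) w η) u := by field_simp; ring
    linarith
  by_contra hneg
  have h0 : 0 < -ell q τ w η u x := by linarith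
  have h1 := key _ (Kc_sub hq hx ((|ell q τ w η u ee| + 1) / -ell q τ w η u x) (by positivity))
  rw [map_add, map_smul, smul_eq_mul, div_neg, neg_mul, div_mul_cancel₀ _ (by linarith)] at h1
  linarith [le_abs_self (ell q τ w η u ee)]

end Vale.Agent.P256
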