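import Mathlib

/-! Basic facts on real positive (semi)definite matrices and a compactness lemma. -/

open Matrix Filter Topology

namespace Vale.Agent.P256

set_option linter.unusedSectionVars false

variable {N : Type*} [Fintype N] [DecidableEq N]

theorem psd_iff {M : Matrix N N ℝ} : M.PosSemidef ↔ Mᵀ = M ∧ ∀ x, 0 ≤ x ⬝ᵥ M *ᵥ x := by
  rw [posSemidef_iff_dotProduct_mulVec]; rfl

theorem pd_iff {M : Matrix N N ℝ} : M.PosDef ↔ Mᵀ = M ∧ ∀ x, x ≠ 0 → 0 < x ⬝ᵥ M *ᵥ x := by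
  rw [posDef_iff_dotProduct_mulVec]; rfl

theorem psd_symm {M : Matrix N N ℝ} (h : M.PosSemidef) : Mᵀ = M := (psd_iff.1 h).1

theorem pd_symm {M : Matrix N N ℝ} (h : M.PosDef) : Mᵀ = M := (pd_iff.1 h).1

theorem psd_conj {m : Type*} [Fintype m] {A : Matrix N N ℝ} (h : A.PosSemidef)
    (B : Matrix m N ℝ) : (B * A * Bᵀ).PosSemidef := h.mul_mul_conjTranspose_same B

theorem psd_zero {A : Matrix N N ℝ} (h : A.PosSemidef) {x : N → ℝ} (hx : x ⬝ᵥ A *ᵥ x = 0) :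
    A *ᵥ x = 0 := (h.dotProduct_mulVec_zero_iff x).1 hx

theorem isClosed_psd : IsClosed {M : Matrix N N ℝ | M.PosSemidef} := by
  simp only [psd_iff, Set.ofPred_and, Set.ofPred_forall]
  exact (isClosed_eq (by fun_prop) continuous_id).inter
    (isClosed_iInter fun x => isClosed_le continuous_const (by fun_prop))

theorem pd_eventually {X : Type*} {l : Filter X} {f : X → Matrix N N ℝ} {Y : Matrix N N ℝ}
    (hY : Y.PosDef) (hf : Tendsto f l (𝓝 Y)) (hs : ∀ x, (f x)ᵀ = f x) :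
    ∀ᶠ x in l, (f x).PosDef := by
  have h : ∀ᶠ M in 𝓝 Y, ∀ w ∈ Metric.sphere (0 : N → ℝ) 1, 0 < w ⬝ᵥ M *ᵥ w := by
    refine (isCompact_sphere 0 1).eventually_forall_of_forall_eventually fun w hw => ?_
    have hw0 : w ≠ 0 := by rintro rfl; simp at hw
    have : Continuous fun z : Matrix N N ℝ × (N → ℝ) => z.2 ⬝ᵥ z.1 *ᵥ z.2 := by fun_prop
    exact continuousAt_const.eventually_lt this.continuousAt ((pd_iff.1 hY).2 w hw0)
  filter_upwards [hf.eventually h] with x hx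
  refine pd_iff.2 ⟨hs x, fun w hw => ?_⟩
  have hn : 0 < ‖w‖ := norm_pos_iff.2 hw
  have := hx (‖w‖⁻¹ • w) (by simp [norm_smul, hn.ne'])
  rw [mulVec_smul, dotProduct_smul, smul_dotProduct, smul_eq_mul, smul_eq_mul] at this
  exact pos_of_mul_pos_of_pos_left' this hn
where
  pos_of_mul_pos_of_pos_left' {a b : ℝ} (h : 0 < a⁻¹ * (a⁻¹ * b)) (ha : 0 < a) : 0 < b := by
    have h1 := inv_pos.2 ha
    exact (mul_pos_iff_of_pos_left h1).1 ((mul_pos_iff_of_pos_left h1).1 h)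

theorem pd_conn {f : ℝ → Matrix N N ℝ} (hf : Continuous f) (hs : ∀ x, (f x)ᵀ = f x)
    (hd : ∀ r, 0 ≤ r → (f r).det ≠ 0) (h0 : (f 0).PosDef) (r : ℝ) (hr : 0 ≤ r) : (f r).PosDef := by
  have ho : IsOpen {r | (f r).PosDef} :=
    isOpen_iff_mem_nhds.2 fun x hx => pd_eventually hx hf.continuousAt hs
  have hc : IsOpen {r | ¬ (f r).PosSemidef} := (isClosed_psd.preimage hf).isOpen_compl
  refine isPreconnected_Ici.subset_left_of_subset_union ho hc ?_ ?_ ⟨0, le_rfl, h0⟩ hr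
  · exact Set.disjoint_left.2 fun x h1 h2 => h2 h1.posSemidef
  · intro x hx
    by_cases h : (f x).PosSemidef
    · exact Or.inl (h.posDef_iff_det_ne_zero.2 (hd x hx))
    · exact Or.inr h

theorem eq_zero_of_trace {P G : Matrix N N ℝ} (hP : P.PosDef) (h : (G * P * Gᵀ).trace = 0) :
    G = 0 := by
  have h1 := (psd_conj hP.posSemidef G).trace_eq_zero_iff.1 h
  ext i j
  by_contra hne
  have h2 := (pd_iff.1 hP).2 (G i) (fun h => hne (congrFun h j))
  have h3 : (G * P * Gᵀ) i i = G i ⬝ᵥ P *ᵥ G i := by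
    rw [Matrix.mul_assoc]; rfl
  rw [← h3, h1] at h2
  simp at h2

open scoped MatrixOrder in
theorem exists_sqrt {Y : Matrix N N ℝ} (hY : Y.PosSemidef) :
    ∃ C : Matrix N N ℝ, C.PosSemidef ∧ C * C = Y :=
  ⟨CFC.sqrt Y, (CFC.sqrt_nonneg Y).posSemidef, CFC.sqrt_mul_sqrt_self Y hY.nonneg⟩

theorem exists_sqrt_pd {Y : Matrix N N ℝ} (hY : Y.PosDef) :
    ∃ C : Matrix N N ℝ, C.PosDef ∧ C * C = Y := by
  obtain ⟨C, hC, e⟩ := exists_sqrt hY.posSemidef
  refine ⟨C, hC.posDef_iff_det_ne_zero.2 fun h => hY.det_pos.ne' ?_, e⟩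
  rw [← e, det_mul, h, mul_zero]

theorem psd_abs_le {Y : Matrix N N ℝ} (hY : Y.PosSemidef) (i j : N) : |Y i j| ≤ Y.trace := by
  obtain ⟨C, hC, rfl⟩ := exists_sqrt hY
  have hs : ∀ a b, C a b = C b a := fun a b => congrFun (congrFun (psd_symm hC) b) a
  have h1 : ∀ a, (C * C) a a ≤ (C * C).trace := fun a =>
    Finset.single_le_sum (f := fun a => (C * C) a a) (fun b _ => hY.diag_nonneg) (Finset.mem_univ a)
  have h2 : |(C * C) i j| ≤ ((C * C) i i + (C * C) j j) / 2 := by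
    simp only [mul_apply]
    rw [← Finset.sum_add_distrib, Finset.sum_div]
    refine (Finset.abs_sum_le_sum_abs _ _).trans (Finset.sum_le_sum fun k _ => ?_)
    rw [hs k i, hs k j, abs_le]
    constructor <;> nlinarith [sq_nonneg (C i k - C j k), sq_nonneg (C i k + C j k)]
  linarith [h1 i, h1 j]

/-- compactness lemma on closed cones -/
theorem cone_small {V : Type*} [NormedAddCommGroup V] [NormedSpace ℝ V] [FiniteDimensional ℝ V]
    {S : Set V} (hS : IsClosed S) {f g : V → ℝ} (hf : Continuous f) (hg : Continuous g)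
    (h0 : ∀ x ∈ S, 0 ≤ g x) (h : ∀ x ∈ S, x ≠ 0 → g x = 0 → 0 < f x) :
    ∃ r, 0 < r ∧ ∀ x ∈ S, ‖x‖ = 1 → g x < r → 0 < f x := by
  have : ProperSpace V := FiniteDimensional.proper_real V
  have hc : IsCompact (Metric.sphere (0 : V) 1 ∩ (S ∩ {x | f x ≤ 0})) :=
    (isCompact_sphere 0 1).inter_right (hS.inter (isClosed_le hf continuous_const))
  rcases (Metric.sphere (0 : V) 1 ∩ (S ∩ {x | f x ≤ 0})).eq_empty_or_nonempty with he | he
  · refine ⟨1, one_pos, fun x hx hn _ => lt_of_not_ge fun hle => ?_⟩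
    exact Set.notMem_empty x (he ▸ ⟨by simpa using hn, hx, hle⟩)
  · obtain ⟨y, ⟨hy1, hy2, hy3⟩, hy⟩ := hc.exists_isMinOn he hg.continuousOn
    refine ⟨g y, lt_of_le_of_ne (h0 y hy2) fun e => ?_, fun x hx hn hlt => lt_of_not_ge fun hle => ?_⟩
    · exact absurd (h y hy2 (by rintro rfl; simp at hy1) e.symm) (not_lt.2 hy3)
    · exact absurd (hy ⟨by simpa using hn, hx, hle⟩) (not_le.2 hlt)

theorem cone_finsler {V : Type*} [NormedAddCommGroup V] [NormedSpace ℝ V] [FiniteDimensional ℝ V]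
    {S : Set V} (hS : IsClosed S) (hS' : ∀ x ∈ S, ∀ c : ℝ, c • x ∈ S)
    {f g : V → ℝ} (hf : Continuous f) (hg : Continuous g)
    (hf2 : ∀ (c : ℝ) x, f (c • x) = c ^ 2 * f x) (hg2 : ∀ (c : ℝ) x, g (c • x) = c ^ 2 * g x)
    (h0 : ∀ x ∈ S, 0 ≤ g x) (h : ∀ x ∈ S, x ≠ 0 → g x = 0 → 0 < f x) :
    ∃ C, 0 ≤ C ∧ ∀ x ∈ S, x ≠ 0 → 0 < f x + C * g x := by
  have : ProperSpace V := FiniteDimensional.proper_real V
  obtain ⟨r, hr, H⟩ := cone_small hS hf hg h0 h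
  obtain ⟨B, hB⟩ := (isCompact_sphere (0 : V) 1).exists_bound_of_continuousOn hf.continuousOn
  refine ⟨(|B| + 1) / r, by positivity, fun x hx hx0 => ?_⟩
  have hn : 0 < ‖x‖ := norm_pos_iff.2 hx0
  have h1 : ‖‖x‖⁻¹ • x‖ = 1 := by simp [norm_smul, hn.ne']
  have key : 0 < f (‖x‖⁻¹ • x) + (|B| + 1) / r * g (‖x‖⁻¹ • x) := by
    rcases lt_or_ge (g (‖x‖⁻¹ • x)) r with h2 | h2
    · have := H _ (hS' x hx _) h1 h2
      have := h0 _ (hS' x hx ‖x‖⁻¹)
      positivity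
    · have h3 := hB _ (mem_sphere_zero_iff_norm.2 h1)
      have h4 : |B| + 1 ≤ (|B| + 1) / r * g (‖x‖⁻¹ • x) := by
        rw [div_mul_eq_mul_div, le_div_iff₀ hr]; gcongr
      have := (abs_le.1 h3).1
      linarith [le_abs_self B]
  rw [hf2, hg2, mul_left_comm, ← mul_add] at key
  exact (mul_pos_iff_of_pos_left (by positivity)).1 key

end Vale.Agent.P256
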