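import Vale.Agent.P256.Hirota

/-! The pseudo-moment matrix and the key inequality. -/

open Matrix MvPolynomial

namespace Vale.Agent.P256

abbrev Sg := Fin 3 ⊕ Fin 3

def mom6 (a b c d e f : ℕ) : ℤ :=
  if a % 2 + b % 2 + c % 2 + d % 2 + e % 2 + f % 2 ≠ 0 then 0
  else if d + e + f = 0 then
    (if a + b + c ≤ 2 then 1 else if a = 4 ∨ b = 4 ∨ c = 4 then 4 else 0)
  else if d + e + f = 2 then (if a + b + c = 2 ∧ a = d ∧ b = e then 2 else 0)
  else if d = 4 ∨ e = 4 ∨ f = 4 then 2 else 1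

def mom (α : Sg → ℕ) : ℤ :=
  mom6 (α (.inl 0)) (α (.inl 1)) (α (.inl 2)) (α (.inr 0)) (α (.inr 1)) (α (.inr 2))

def exf : Rw Sg → Sg → ℕ
  | .inl _ => fun _ => 0
  | .inr (.inl a) => fun i => if a = i then 1 else 0
  | .inr (.inr p) => fun i => (if p.1 = i then 1 else 0) + (if p.2 = i then 1 else 0)

def Mz (r r' : Rw Sg) : ℤ := mom fun i => exf r i + exf r' i

def gram : Fin 2 ⊕ Fin 4 × Fin 3 → Rw Sg → ℤ
  | .inl k, .inl _ => if k = 0 then 2 else 0
  | .inl k, .inr (.inr (.inl i, .inl j)) => if i = j then (if k = 0 then 2 else 1) else 0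
  | .inl k, .inr (.inr (.inr i, .inr j)) => if i = j ∧ k = 1 then 2 else 0
  | .inr (k, l), .inr (.inl (.inl i)) => if k = 0 ∧ i = l then 2 else 0
  | .inr (k, l), .inr (.inr (.inl i, .inl j)) =>
      if k = 1 ∧ i = j then (if i = l then 3 else -1) else 0
  | .inr (k, l), .inr (.inr (.inr i, .inr j)) =>
      if i = j then (if k = 1 ∧ i = l then 2 else 0) else (if k = 2 ∧ i ≠ l ∧ j ≠ l then 2 else 0)
  | .inr (k, l), .inr (.inr (.inl i, .inr j)) => if k = 3 ∧ i = l ∧ j = l then 2 else 0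
  | .inr (k, l), .inr (.inr (.inr i, .inl j)) => if k = 3 ∧ i = l ∧ j = l then 2 else 0
  | _, _ => 0

def wt : Fin 2 ⊕ Fin 4 × Fin 3 → ℕ
  | .inl _ => 1
  | .inr (k, _) => if k = 3 then 2 else 1

theorem Mz_gram : ∀ r r', 4 * Mz r r' = ∑ k, wt k * (gram k r * gram k r') := by decide +kernel

theorem Mz_k1 : ∀ a r, Mz r (r1 (.inr a)) = 0 := by decide +kernel
theorem Mz_k2 : ∀ j k, j ≠ k → ∀ r, Mz r (r2 (.inl j) (.inl k)) = 0 := by decide +kernel
theorem Mz_k3 : ∀ j k, j ≠ k → ∀ r, Mz r (r2 (.inl j) (.inr k)) = 0 := by decide +kernel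
theorem Mz_k3' : ∀ j k, j ≠ k → ∀ r, Mz r (r2 (.inr j) (.inl k)) = 0 := by decide +kernel
theorem Mz_k4 : ∀ a b r, Mz r (r2 (.inr a) (.inr b)) = Mz r (r2 (.inr b) (.inr a)) := by
  decide +kernel
theorem Mz_k5 : ∀ j r, 2 * Mz r (r2 (.inl j) (.inl j)) = 2 * Mz r r0 + 4 * Mz r (r2 (.inr j) (.inr j))
    - (Mz r (r2 (.inr 0) (.inr 0)) + Mz r (r2 (.inr 1) (.inr 1)) + Mz r (r2 (.inr 2) (.inr 2))) := by
  decide +kernel

/-- the pseudo-moment matrix -/
def Mr : Matrix (Rw Sg) (Rw Sg) ℝ := of fun r r' => (Mz r r' : ℝ)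

theorem Mr_psd : Mr.PosSemidef := by
  have : Mr = ∑ k, ((wt k : ℝ) / 4) • vecMulVec (fun r => (gram k r : ℝ)) (fun r => (gram k r : ℝ)) := by
    ext r r'
    have := congrArg (Int.cast : ℤ → ℝ) (Mz_gram r r')
    push_cast at this
    simp only [Mr, of_apply, Matrix.sum_apply, Matrix.smul_apply, vecMulVec_apply, smul_eq_mul,
      div_mul_eq_mul_div, ← Finset.sum_div, ← this]
    ring
  rw [this]
  exact posSemidef_sum _ fun k _ => (posSemidef_vecMulVec_self_star _).smul (by positivity)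

structure Kill (T : Rw Sg → Rw Sg → ℝ) : Prop where
  k1 : ∀ a r, T r (r1 (.inr a)) = 0
  k2 : ∀ j k, j ≠ k → ∀ r, T r (r2 (.inl j) (.inl k)) = 0
  k3 : ∀ j k, j ≠ k → ∀ r, T r (r2 (.inl j) (.inr k)) = 0
  k3' : ∀ j k, j ≠ k → ∀ r, T r (r2 (.inr j) (.inl k)) = 0
  k4 : ∀ a b r, T r (r2 (.inr a) (.inr b)) = T r (r2 (.inr b) (.inr a))
  k5 : ∀ j r, T r (r2 (.inl j) (.inl j)) = T r r0 + 2 * T r (r2 (.inr j) (.inr j))
    - (T r (r2 (.inr 0) (.inr 0)) + T r (r2 (.inr 1) (.inr 1)) + T r (r2 (.inr 2) (.inr 2))) / 2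

theorem kill_of {T : Matrix (Rw Sg) (Rw Sg) ℝ} (h : ∀ n, Mr *ᵥ n = 0 → T *ᵥ n = 0) : Kill T := by
  have h1 : ∀ c, (∀ r, Mz r c = 0) → ∀ r, T r c = 0 := fun c hc r => by
    simpa using congrFun (h (Pi.single c 1) (by ext r; simp [Mr, hc])) r
  refine ⟨fun a => h1 _ (Mz_k1 a), fun j k hjk => h1 _ (Mz_k2 j k hjk),
    fun j k hjk => h1 _ (Mz_k3 j k hjk), fun j k hjk => h1 _ (Mz_k3' j k hjk), fun a b r => ?_,
    fun j r => ?_⟩
  · have := congrFun (h (Pi.single (r2 (.inr a) (.inr b)) 1 - Pi.single (r2 (.inr b) (.inr a)) 1)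
      (by ext r; simp [Mr, mulVec_sub, Mz_k4 a b r])) r
    simpa [mulVec_sub, sub_eq_zero] using this
  · have := congrFun (h (Pi.single (r2 (.inl j) (.inl j)) 2 - (Pi.single r0 2
      + Pi.single (r2 (.inr j) (.inr j)) 4 - (Pi.single (r2 (.inr 0) (.inr 0)) 1
      + Pi.single (r2 (.inr 1) (.inr 1)) 1 + Pi.single (r2 (.inr 2) (.inr 2)) 1))) (by
        ext r
        have := congrArg (Int.cast : ℤ → ℝ) (Mz_k5 j r)
        push_cast at this
        simp only [Mr, mulVec_sub, mulVec_add, mulVec_single, Pi.sub_apply, Pi.add_apply,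
          Pi.smul_apply, col_apply, of_apply, MulOpposite.smul_eq_mul_unop, MulOpposite.unop_op,
          Pi.zero_apply]
        linarith)) r
    simp only [mulVec_sub, mulVec_add, mulVec_single, Pi.sub_apply, Pi.add_apply,
      Pi.smul_apply, col_apply, MulOpposite.smul_eq_mul_unop, MulOpposite.unop_op,
      Pi.zero_apply] at this
    linarith

theorem adj_scalar {a b c d e f g h i D : ℝ} (h0 : e * i - f * h = D) (h1 : a * i - c * g = D)
    (h2 : a * e - b * d = D) (o01 : c * h = b * i) (o21 : b * g = a * h) (o10 : f * g = d * i)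
    (o20 : d * h = e * g) : 0 ≤ D := by
  have hb : D * b = 0 := by linear_combination -b * h1 - a * o01 - c * o21
  have hd : D * d = 0 := by linear_combination -d * h0 - e * o10 - f * o20
  have ha : D * a = D * e := by
    linear_combination -a * h0 - b * o10 - c * o20 + d * o01 + e * h1 + f * o21
  have : D ^ 3 = (D * a) ^ 2 := by
    linear_combination -D ^ 2 * h2 - D * a * ha - D * d * hb
  exact (Odd.pow_nonneg_iff (by decide : Odd 3)).1 (this ▸ sq_nonneg _)

theorem star_ineq {T : Rw Sg → Rw Sg → ℝ} (hT : IsHir T) (hc : Kill T)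
    (hr : Kill fun r r' => T r' r) :
    0 ≤ T (r1 (.inl 0)) (r1 (.inl 0)) * T (r1 (.inl 1)) (r1 (.inl 1))
      - T (r1 (.inl 0)) (r1 (.inl 1)) * T (r1 (.inl 1)) (r1 (.inl 0)) := by
  let S : Rw Sg → Rw Sg → ℝ := fun r r' => T r0 r0 * T r r' - T r r0 * T r0 r'
  let α : Fin 3 → Fin 3 → ℝ := fun a b => S (r2 (.inr a) (.inr a)) (r2 (.inr b) (.inr b))
  let Θ : Fin 3 → Fin 3 → ℝ := fun a b => T (r1 (.inl a)) (r1 (.inl b))
  have hA : ∀ j k, j ≠ k → S (r2 (.inl k) (.inl k)) (r2 (.inl j) (.inl j))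
      = Θ j k * Θ k j - Θ j j * Θ k k := by
    intro j k h
    have := hT (.inl j) (.inl k) (.inl k) (.inl j)
    simp only [Hir, hc.k2 k j h.symm, hr.k2 j k h] at this
    simp only [S, Θ]
    linear_combination -this
  have hD : ∀ a k l, k ≠ l → T r0 (r1 (.inl l)) * T (r2 (.inr a) (.inr a)) (r1 (.inl k))
      = T (r2 (.inr a) (.inr a)) (r1 (.inl l)) * T r0 (r1 (.inl k)) := by
    intro a k l h
    have := hT (.inr a) (.inl k) (.inr a) (.inl l)
    simp only [Hir, hc.k2 k l h, hr.k1, hc.k1] at this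
    by_cases h' : a = k
    · subst h'
      simp only [hc.k3' a l h] at this
      linear_combination this
    · simp only [hr.k3 k a (Ne.symm h')] at this
      linear_combination this
  have hO : ∀ j k l, j ≠ k → j ≠ l → k ≠ l → Θ j l * Θ k j = Θ k l * Θ j j := by
    intro j k l h1 h2 h3
    have := hT (.inl j) (.inl k) (.inl j) (.inl l)
    simp only [Hir, hc.k2 k l h3, hc.k2 j l h2, hr.k2 k j h1.symm, hr.k5 j] at this
    simp only [Θ]
    linear_combination -this + 2 * hD j k l h3 - (hD 0 k l h3 + hD 1 k l h3 + hD 2 k l h3) / 2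
  have hW : ∀ a b, α a b = S (r2 (.inr a) (.inr b)) (r2 (.inr a) (.inr b)) := by
    intro a b
    have := hT (.inr a) (.inr b) (.inr a) (.inr b)
    simp only [Hir, hr.k1, hc.k1, hr.k4 b a] at this
    simp only [α, S]
    linear_combination this
  have hs : ∀ a b, α a b = α b a := by
    intro a b
    rw [hW, hW]
    simp only [S, hr.k4 b a, hc.k4 b a]
  have hX : ∀ j a, j ≠ a → 2 * α j a = (α 0 a + α 1 a + α 2 a) / 2 := by
    intro j a h
    have := hT (.inl j) (.inr a) (.inl j) (.inr a)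
    simp only [Hir, hr.k1, hc.k1, hr.k3' a j h.symm, hr.k5 j] at this
    simp only [α, S]
    linear_combination this
  have hY : ∀ k j, S (r2 (.inl k) (.inl k)) (r2 (.inl j) (.inl j)) = 4 * α k j
      - (α k 0 + α k 1 + α k 2) - (α 0 j + α 1 j + α 2 j)
      + (α 0 0 + α 0 1 + α 0 2 + α 1 0 + α 1 1 + α 1 2 + α 2 0 + α 2 1 + α 2 2) / 4 := by
    intro k j
    simp only [α, S, hr.k5 k, hc.k5 j]
    ring
  have a01 := hA 0 1 (by decide)
  have a02 := hA 0 2 (by decide)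
  have a12 := hA 1 2 (by decide)
  rw [hY] at a01 a02 a12
  have b1 := hX 1 0 (by decide)
  have b2 := hX 2 0 (by decide)
  have b3 := hX 0 1 (by decide)
  have b4 := hX 2 1 (by decide)
  have b5 := hX 0 2 (by decide)
  have b6 := hX 1 2 (by decide)
  have s1 := hs 0 1
  have s2 := hs 0 2
  have s3 := hs 1 2
  refine adj_scalar (a := Θ 0 0) (b := Θ 0 1) (c := Θ 0 2) (d := Θ 1 0) (e := Θ 1 1) (f := Θ 1 2)
    (g := Θ 2 0) (h := Θ 2 1) (i := Θ 2 2) ?_ ?_ rfl ?_ ?_ ?_ ?_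
  · change _ = Θ 0 0 * Θ 1 1 - Θ 0 1 * Θ 1 0
    linarith
  · change _ = Θ 0 0 * Θ 1 1 - Θ 0 1 * Θ 1 0
    linarith
  · linear_combination hO 2 0 1 (by decide) (by decide) (by decide)
  · linear_combination hO 0 2 1 (by decide) (by decide) (by decide)
  · linear_combination hO 2 1 0 (by decide) (by decide) (by decide)
  · linear_combination hO 1 2 0 (by decide) (by decide) (by decide)

/-- the pseudo-expectation -/
noncomputable def Et : MvPolynomial Sg ℝ →ₗ[ℝ] ℝ :=
  (basisMonomials Sg ℝ).constr ℝ fun α => (mom α : ℝ)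

/-- the vector of monomials -/
noncomputable def rho : Rw Sg → MvPolynomial Sg ℝ := act X (fun i => C ((Pi.single r0 1 : Rw Sg → ℝ) i))

noncomputable def ex : Rw Sg → Sg →₀ ℕ
  | .inl _ => 0
  | .inr (.inl a) => Finsupp.single a 1
  | .inr (.inr p) => Finsupp.single p.1 1 + Finsupp.single p.2 1

theorem rho_eq (r : Rw Sg) : rho r = monomial (ex r) 1 := by
  rcases r with r | r | r <;> simp [rho, act, actF, ex, X, monomial_mul]

theorem Et_rho (r r' : Rw Sg) : Et (rho r * rho r') = Mr r r' := by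
  have h : ∀ r i, ex r i = exf r i := by
    rintro (r | r | r) i <;> simp [ex, exf, Finsupp.single_apply]
  rw [rho_eq, rho_eq, monomial_mul, mul_one]
  have := (basisMonomials Sg ℝ).constr_basis ℝ (fun α => (mom α : ℝ)) (ex r + ex r')
  rw [coe_basisMonomials] at this
  rw [Et, this, Mr, of_apply, Mz]
  congr 2
  ext i
  simp [h]

theorem Et_psd (f : MvPolynomial Sg ℝ) (hf : f.totalDegree ≤ 2) : 0 ≤ Et (f * f) := by
  have h1 : ∀ α : Sg →₀ ℕ, α ≠ 0 → ∃ i β, α = Finsupp.single i 1 + β := by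
    intro α hα
    obtain ⟨i, hi⟩ := Finsupp.ne_iff.1 hα
    exact ⟨i, α - Finsupp.single i 1, (add_tsub_cancel_of_le (by
      simpa [Finsupp.single_le_iff, Nat.one_le_iff_ne_zero] using hi)).symm⟩
  have h2 : ∀ α : Sg →₀ ℕ, α.degree ≤ 2 → ∃ r, α = ex r := by
    intro α hα
    by_cases h : α = 0
    · exact ⟨r0, h⟩
    obtain ⟨i, β, rfl⟩ := h1 α h
    by_cases h : β = 0
    · exact ⟨r1 i, by simp [h, ex]⟩
    obtain ⟨j, γ, rfl⟩ := h1 β h
    simp only [map_add, Finsupp.degree_single] at hα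
    exact ⟨r2 i j, by simp [ex, (Finsupp.degree_eq_zero_iff γ).1 (by omega)]⟩
  have : f ∈ Submodule.span ℝ (Set.range rho) := by
    rw [f.as_sum]
    refine Submodule.sum_mem _ fun α hα => ?_
    obtain ⟨r, rfl⟩ := h2 α ((le_totalDegree hα).trans hf)
    have : monomial (ex r) (coeff (ex r) f) = coeff (ex r) f • rho r := by
      rw [rho_eq, smul_monomial, smul_eq_mul, mul_one]
    rw [this]
    exact Submodule.smul_mem _ _ (Submodule.subset_span ⟨r, rfl⟩)
  obtain ⟨c, rfl⟩ := (Submodule.mem_span_range_iff_exists_fun ℝ).1 this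
  have := bil_sum ((LinearMap.mul ℝ _).compr₂ Et) c c rho rho
  simp only [LinearMap.compr₂_apply, LinearMap.mul_apply', Et_rho] at this
  rw [this]
  convert (psd_iff.1 Mr_psd).2 c using 1
  simp only [dotProduct, mulVec, Finset.mul_sum]
  exact Finset.sum_congr rfl fun _ _ => Finset.sum_congr rfl fun _ _ => by ring

end Vale.Agent.P256
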