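import Mathlib

/-! Derivations on a finite extension of `k(X)` are log-bounded for a valuation centred at `X`. -/

open Polynomial IsDedekindDomain WithZero

namespace Vale.Agent.P256

section
variable {k F : Type*} [Field k] [CharZero k] [Field F]

/-- abstract descent step -/
theorem log_bound_aux {R : Type*} [CommRing R] [Algebra R F] (ι : k →+* F) (μ π : F)
    (O : Subring F) (C : Set F) (hι : ∀ c, ι c ∈ O) (hπ : π ∈ O) (hπ0 : π ≠ 0) (hπi : π⁻¹ ∉ O)
    (hdec : ∀ f : F, f ≠ 0 → ∃ (n : ℤ) (u : F), u ∈ O ∧ u⁻¹ ∈ O ∧ u ≠ 0 ∧ f = π ^ n * u)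
    (hμ0 : μ ≠ 0) (hμ : μ⁻¹ ∉ O) (hμO : μ ∈ O)
    (hCO : ∀ a ∈ C, a ∈ O)
    (hfrac : ∀ f ∈ O, ∃ a ∈ C, ∃ s ∈ C, s⁻¹ ∈ O ∧ f = a * s⁻¹)
    (halg : ∀ a ∈ C, ∃ P : k[X], P ≠ 0 ∧ P.eval₂ ι a * π⁻¹ ∈ O)
    (D : Derivation R F F) (hc : ∀ c, D (ι c) ∈ O) (hX : D μ = 0)
    (c0 : ℕ) (hb : ∀ a ∈ C, π ^ c0 * D a ∈ O) :
    ∀ f, ∃ o ∈ O, D f = o * f := by
  have red : ∀ z : F, (∀ a ∈ C, z * D a ∈ O) → ∀ f ∈ O, z * D f ∈ O := by
    intro z hz f hf
    obtain ⟨a, ha, s, hs, hsi, rfl⟩ := hfrac f hf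
    rw [D.leibniz, D.leibniz_inv]
    have : z * (a • -s⁻¹ ^ 2 • D s + s⁻¹ • D a)
        = -(a * s⁻¹ ^ 2 * (z * D s)) + s⁻¹ * (z * D a) := by
      simp only [smul_eq_mul]; ring
    rw [this]
    exact O.add_mem (O.neg_mem (O.mul_mem (O.mul_mem (hCO a ha) (O.pow_mem hsi 2)) (hz s hs)))
      (O.mul_mem hsi (hz a ha))
  -- a unit or an element of the maximal ideal
  have hsmall : ∀ f ∈ O, f * π⁻¹ ∉ O → f⁻¹ ∈ O := by
    intro f hf hn
    by_cases h0 : f = 0
    · simp [h0] at hn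
    obtain ⟨n, u, hu, hui, hu0, rfl⟩ := hdec f h0
    rcases lt_trichotomy n 0 with h | h | h
    · exfalso
      apply hπi
      obtain ⟨m, rfl⟩ : ∃ m : ℕ, n = -((m : ℤ) + 1) := ⟨(-n - 1).toNat, by omega⟩
      have : π⁻¹ = π ^ (-((m : ℤ) + 1)) * u * u⁻¹ * π ^ m := by
        rw [zpow_neg, zpow_add₀ hπ0, zpow_natCast]; field_simp
      rw [this]
      exact O.mul_mem (O.mul_mem hf hui) (O.pow_mem hπ m)
    · subst h; simpa using hui
    · exfalso
      apply hn
      obtain ⟨m, rfl⟩ : ∃ m : ℕ, n = (m : ℤ) + 1 := ⟨(n - 1).toNat, by omega⟩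
      have : π ^ ((m : ℤ) + 1) * u * π⁻¹ = π ^ m * u := by
        rw [zpow_add₀ hπ0, zpow_natCast]; field_simp
      rw [this]
      exact O.mul_mem (O.pow_mem hπ m) hu
  have hnat : ∀ n : ℤ, ((n : F))⁻¹ ∈ O := by
    intro n
    have := hι ((n : k)⁻¹)
    rwa [map_inv₀, map_intCast] at this
  have hchar : ∀ n : ℤ, n ≠ 0 → (n : F) ≠ 0 := by
    intro n hn h
    have : ι (n : k) = 0 := by rw [map_intCast, h]
    have h2 : (n : k) = 0 := ι.injective (by rw [this, map_zero])
    exact hn (by exact_mod_cast h2)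
  obtain ⟨e, u, hu, hui, hu0, hμe⟩ := hdec μ hμ0
  have he : e ≠ 0 := by
    rintro rfl
    apply hμ; rw [hμe]; simpa using hui
  have hDπ : D π = -(π * D u) * (u⁻¹ * (e : F)⁻¹) := by
    rw [hμe, D.leibniz, D.leibniz_zpow] at hX
    simp only [smul_eq_mul, zsmul_eq_mul] at hX
    have h1 := hchar e he
    have h2 : π ^ e = π ^ (e - 1) * π := by rw [zpow_sub_one₀ hπ0]; field_simp
    have h3 : π ^ (e - 1) ≠ 0 := zpow_ne_zero _ hπ0
    rw [h2] at hX
    field_simp
    have : π ^ (e - 1) * (D π * u * e + π * D u) = 0 := by linear_combination hX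
    have := (mul_eq_zero.1 this).resolve_left h3
    linear_combination this
  have chain : ∀ a ∈ O, ∀ P : k[X],
      D (P.eval₂ ι a) - P.derivative.eval₂ ι a * D a ∈ O := by
    intro a ha P
    induction P using Polynomial.induction_on' with
    | add p q hp hq =>
      have := O.add_mem hp hq
      simp only [eval₂_add, map_add] at this ⊢
      convert this using 1; ring
    | monomial n c =>
      simp only [eval₂_monomial, derivative_monomial, D.leibniz, D.leibniz_pow, smul_eq_mul,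
        nsmul_eq_mul, map_mul, map_natCast]
      have : ι c * (n * (a ^ (n - 1) * D a)) + a ^ n * D (ι c) - ι c * n * a ^ (n - 1) * D a
          = a ^ n * D (ι c) := by ring
      rw [this]
      exact O.mul_mem (O.pow_mem ha n) (hc c)
  have hevO : ∀ a ∈ O, ∀ P : k[X], P.eval₂ ι a ∈ O := by
    intro a ha P
    induction P using Polynomial.induction_on' with
    | add p q hp hq => rw [eval₂_add]; exact O.add_mem hp hq
    | monomial n c => rw [eval₂_monomial]; exact O.mul_mem (hι c) (O.pow_mem ha n)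
  have step : ∀ c : ℕ, (∀ f ∈ O, π ^ (c + 1) * D f ∈ O) → ∀ f ∈ O, π ^ c * D f ∈ O := by
    intro c H
    apply red
    intro a ha
    have haO := hCO a ha
    classical
    have hex : ∃ n, ∃ P : k[X], P ≠ 0 ∧ P.eval₂ ι a * π⁻¹ ∈ O ∧ P.natDegree = n := by
      obtain ⟨P, h1, h2⟩ := halg a ha
      exact ⟨_, P, h1, h2, rfl⟩
    obtain ⟨P, hP0, hP, hPn⟩ := Nat.find_spec hex
    have hdeg : P.natDegree ≠ 0 := by
      intro h
      rw [eq_C_of_natDegree_eq_zero h] at hP hP0
      have hc0 : P.coeff 0 ≠ 0 := fun h => hP0 (by simp [h])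
      apply hπi
      have := O.mul_mem (hι (P.coeff 0)⁻¹) hP
      rw [eval₂_C, map_inv₀, ← mul_assoc, inv_mul_cancel₀ (by simpa using hc0), one_mul] at this
      exact this
    have hP' : P.derivative.eval₂ ι a * π⁻¹ ∉ O := by
      intro h
      have h0 : P.derivative ≠ 0 := fun h0 => hdeg (derivative_eq_zero.1 h0)
      exact Nat.find_min hex (hPn ▸ natDegree_derivative_lt hdeg) ⟨_, h0, h, rfl⟩
    have hinv := hsmall _ (hevO a haO _) hP'
    have hne : P.derivative.eval₂ ι a ≠ 0 := fun h => hP' (by simp [h])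
    set g := P.eval₂ ι a * π⁻¹ with hg
    have hPg : P.eval₂ ι a = π * g := by rw [hg]; field_simp
    have h1 : π ^ c * D (P.eval₂ ι a) ∈ O := by
      rw [hPg, D.leibniz, hDπ]
      have : π ^ c * (π • D g + g • (-(π * D u) * (u⁻¹ * (e : F)⁻¹)))
          = π ^ (c + 1) * D g - g * (π ^ (c + 1) * D u) * (u⁻¹ * (e : F)⁻¹) := by
        simp only [smul_eq_mul]; ring
      rw [this]
      exact O.sub_mem (H g hP) (O.mul_mem (O.mul_mem hP (H u hu)) (O.mul_mem hui (hnat e)))
    have h2 := O.mul_mem hinv (O.sub_mem h1 (O.mul_mem (O.pow_mem hπ c) (chain a haO P)))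
    convert h2 using 1
    field_simp
    ring
  have all : ∀ c : ℕ, (∀ f ∈ O, π ^ c * D f ∈ O) → ∀ f ∈ O, D f ∈ O := by
    intro c
    induction c with
    | zero => intro H f hf; simpa using H f hf
    | succ c ih => intro H; exact ih (step c H)
  have hO := all c0 (red _ hb)
  intro f
  by_cases h0 : f = 0
  · exact ⟨0, O.zero_mem, by simp [h0]⟩
  obtain ⟨n, w, hw, hwi, hw0, rfl⟩ := hdec f h0
  refine ⟨D w * w⁻¹ - n * (D u * (u⁻¹ * (e : F)⁻¹)),
    O.sub_mem (O.mul_mem (hO w hw) hwi)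
      (O.mul_mem (intCast_mem O n) (O.mul_mem (hO u hu) (O.mul_mem hui (hnat e)))), ?_⟩
  rw [D.leibniz, D.leibniz_zpow, hDπ]
  simp only [smul_eq_mul, zsmul_eq_mul]
  have h2 : π ^ (n - 1) = π ^ n * π⁻¹ := zpow_sub_one₀ hπ0 n
  rw [h2]
  field_simp
  ring

theorem log_bound (K : Type*) [Field K] [Algebra k[X] F] [Algebra k[X] K] [IsFractionRing k[X] K]
    [Algebra K F] [IsScalarTower k[X] K F] [FiniteDimensional K F]
    (O : ValuationSubring F) (hO : ∀ a : k[X], algebraMap k[X] F a ∈ O)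
    (hμ : (algebraMap k[X] F X)⁻¹ ∉ O) :
    IsNoetherianRing O ∧ ∀ {R : Type} [CommRing R] [Algebra R F] (D : Derivation R F F),
      (∀ c : k, D (algebraMap k[X] F (C c)) ∈ O) → D (algebraMap k[X] F X) = 0 →
      ∀ f, ∃ o ∈ O, D f = o * f := by
  have hinj : Function.Injective (algebraMap k[X] F) := by
    rw [IsScalarTower.algebraMap_eq k[X] K F]
    exact (algebraMap K F).injective.comp (IsFractionRing.injective k[X] K)
  have : CharZero K := by
    have := charZero_of_injective_ringHom (f := algebraMap k[X] K) (IsFractionRing.injective _ _)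
    exact this
  let A := integralClosure k[X] F
  have : IsDedekindDomain A := integralClosure.isDedekindDomain k[X] K F
  have : IsFractionRing A F := integralClosure.isFractionRing_of_finite_extension K F
  have hfin : Module.Finite k[X] A := IsIntegralClosure.finite k[X] K F A
  have hAO : ∀ a : A, (a : F) ∈ O := by
    intro a
    let φ : k[X] →+* O := (algebraMap k[X] F).codRestrict O hO
    let : Algebra k[X] O := φ.toAlgebra
    have : IsScalarTower k[X] O F := IsScalarTower.of_algebraMap_eq (fun _ => rfl)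
    have h : IsIntegral O (a : F) := IsIntegral.tower_top a.2
    obtain ⟨y, hy⟩ := IsIntegrallyClosed.algebraMap_eq_of_integral h
    rw [← hy]; exact y.2
  let ψ : A →+* O := (A.val.toRingHom).codRestrict O hAO
  set μ := algebraMap k[X] F X with hμd
  have hμ0 : μ ≠ 0 := by
    rw [hμd, Ne, map_eq_zero_iff _ hinj]; exact X_ne_zero
  have hmem : ∀ a : A, a ∈ (IsLocalRing.maximalIdeal O).comap ψ ↔ (a : F) = 0 ∨ (a : F)⁻¹ ∉ O := by
    intro a
    rw [Ideal.mem_comap, ← ValuationSubring.coe_mem_nonunits_iff,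
      ValuationSubring.mem_nonunits_iff_or]
    rfl
  let v : HeightOneSpectrum A :=
    ⟨(IsLocalRing.maximalIdeal O).comap ψ, inferInstance, by
      intro h
      have : algebraMap k[X] A X ∈ (IsLocalRing.maximalIdeal O).comap ψ :=
        (hmem _).2 (Or.inr hμ)
      rw [h, Ideal.mem_bot] at this
      exact hμ0 (congrArg Subtype.val this)⟩
  have hle : HeightOneSpectrum.valuationSubringAtPrime F v ≤ O := by
    rintro x ⟨a, s, hs, rfl⟩
    refine O.mul_mem _ _ (hAO a) ?_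
    have : ¬ ((s : F) = 0 ∨ (s : F)⁻¹ ∉ O) := fun h => hs ((hmem s).2 h)
    push Not at this
    exact this.2
  have hOv : HeightOneSpectrum.valuationSubringAtPrime F v = O :=
    ValuationSubring.eq_of_le_of_ne_top _ hle (fun h => hμ (h ▸ ValuationSubring.mem_top _))
  refine ⟨by rw [← hOv]; infer_instance, ?_⟩
  intro R _ _ D hc hX
  have hw : ∀ f, f ∈ O ↔ v.valuation F f ≤ 1 := by
    intro f
    rw [← hOv, HeightOneSpectrum.valuationSubringAtPrime_eq_valuationSubring,
      Valuation.mem_valuationSubring_iff]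
  obtain ⟨π, hπ⟩ := v.valuation_exists_uniformizer F
  have hπ0 : π ≠ 0 := by
    intro h; rw [h, map_zero] at hπ; exact exp_ne_zero hπ.symm
  have hπO : π ∈ O := by rw [hw, hπ, ← exp_zero, exp_le_exp]; norm_num
  have hπi : π⁻¹ ∉ O := by
    rw [hw, map_inv₀, hπ, ← exp_neg, ← exp_zero, exp_le_exp]; norm_num
  have hdec : ∀ f : F, f ≠ 0 → ∃ (n : ℤ) (u : F), u ∈ O ∧ u⁻¹ ∈ O ∧ u ≠ 0 ∧ f = π ^ n * u := by
    intro f hf
    have h0 : v.valuation F f ≠ 0 := by simpa using hf
    have hu : v.valuation F (π ^ log (v.valuation F f) * f) = 1 := by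
      rw [map_mul, map_zpow₀, hπ, ← exp_zsmul, ← exp_log h0, log_exp, ← exp_add]
      simp
    refine ⟨-log (v.valuation F f), π ^ log (v.valuation F f) * f, (hw _).2 hu.le, ?_,
      mul_ne_zero (zpow_ne_zero _ hπ0) hf, ?_⟩
    · rw [hw, map_inv₀, hu]; simp
    · rw [zpow_neg, ← mul_assoc, inv_mul_cancel₀ (zpow_ne_zero _ hπ0), one_mul]
  have hbig : ∀ z : F, ∃ c : ℕ, π ^ c * z ∈ O := by
    intro z
    by_cases hz : z = 0
    · exact ⟨0, by simp [hz]⟩
    obtain ⟨n, u, hu, -, -, rfl⟩ := hdec z hz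
    refine ⟨n.natAbs, ?_⟩
    obtain ⟨m, hm⟩ : ∃ m : ℕ, (n.natAbs : ℤ) + n = m := ⟨((n.natAbs : ℤ) + n).toNat, by omega⟩
    rw [← mul_assoc, ← zpow_natCast, ← zpow_add₀ hπ0, hm, zpow_natCast]
    exact O.mul_mem _ _ (pow_mem hπO m) hu
  have hDp : ∀ p : k[X], D (algebraMap k[X] F p) ∈ O := by
    intro p
    induction p using Polynomial.induction_on' with
    | add p q hp hq => rw [map_add, map_add]; exact O.add_mem _ _ hp hq
    | monomial n c =>
      rw [← C_mul_X_pow_eq_monomial, map_mul, map_pow, D.leibniz, D.leibniz_pow, ← hμd, hX]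
      simp only [smul_eq_mul, mul_zero, smul_zero, zero_add]
      exact O.mul_mem _ _ (pow_mem (hO X) n) (hc c)
  obtain ⟨c0, hc0⟩ : ∃ c0 : ℕ, ∀ a : A, π ^ c0 * D a ∈ O := by
    obtain ⟨S, hS⟩ := hfin.fg_top
    choose c hcz using hbig
    refine ⟨S.sup fun a => c (D a), fun a => ?_⟩
    have ha : a ∈ Submodule.span k[X] (S : Set A) := hS ▸ Submodule.mem_top
    induction ha using Submodule.span_induction with
    | mem x hx =>
      obtain ⟨d, hd⟩ := Nat.exists_eq_add_of_le (Finset.le_sup (f := fun a : A => c (D a)) hx)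
      rw [hd, add_comm, pow_add, mul_assoc]
      exact O.mul_mem _ _ (pow_mem hπO d) (hcz _)
    | zero => simp
    | add x y _ _ hx hy =>
      rw [Subalgebra.coe_add, map_add, mul_add]; exact O.add_mem _ _ hx hy
    | smul p x _ hx =>
      rw [Subalgebra.coe_smul, Algebra.smul_def, D.leibniz, smul_eq_mul, smul_eq_mul, mul_add,
        mul_left_comm]
      exact O.add_mem _ _ (O.mul_mem _ _ (hO p) hx)
        (O.mul_mem _ _ (pow_mem hπO _) (O.mul_mem _ _ (hAO x) (hDp p)))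
  refine log_bound_aux ((algebraMap k[X] F).comp C) μ π O.toSubring (A : Set F)
    (fun c => hO _) hπO hπ0 hπi hdec hμ0 hμ (hO X) (fun a ha => hAO ⟨a, ha⟩) ?_ ?_ D hc hX c0
    (fun a ha => hc0 ⟨a, ha⟩)
  · intro f hf
    have hf' : f ∈ HeightOneSpectrum.valuationSubringAtPrime F v := hOv ▸ hf
    obtain ⟨a, s, hs, rfl⟩ := hf'
    refine ⟨a, a.2, s, s.2, ?_, rfl⟩
    have : ¬ ((s : F) = 0 ∨ (s : F)⁻¹ ∉ O) := fun h => hs ((hmem s).2 h)
    push Not at this
    exact this.2
  · intro a ha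
    obtain ⟨Q, hQm, hQ⟩ : IsIntegral k[X] a := ha
    refine ⟨Q.map (evalRingHom 0), (hQm.map _).ne_zero, ?_⟩
    have haO : a ∈ O := hAO ⟨a, Q, hQm, hQ⟩
    have hμπ : μ * π⁻¹ ∈ O := by
      have h1 : ¬ v.valuation F μ⁻¹ ≤ 1 := fun h => hμ ((hw _).2 h)
      have h0 : v.valuation F μ ≠ 0 := by simpa using hμ0
      rw [hw, map_mul, map_inv₀, hπ, ← exp_neg, ← exp_log h0, ← exp_add, ← exp_zero, exp_le_exp]
      rw [map_inv₀, ← exp_log h0, ← exp_neg, ← exp_zero, exp_le_exp] at h1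
      omega
    have key : ∀ Q : k[X][X], ∃ o ∈ O, (Q.map (evalRingHom 0)).eval₂ ((algebraMap k[X] F).comp C) a
        = Q.eval₂ (algebraMap k[X] F) a + μ * o := by
      intro Q
      induction Q using Polynomial.induction_on' with
      | add p q hp hq =>
        obtain ⟨o1, h1, e1⟩ := hp
        obtain ⟨o2, h2, e2⟩ := hq
        refine ⟨o1 + o2, O.add_mem _ _ h1 h2, ?_⟩
        rw [Polynomial.map_add, eval₂_add, eval₂_add, e1, e2]; ring
      | monomial n c =>
        refine ⟨-(algebraMap k[X] F c.divX * a ^ n),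
          O.neg_mem _ (O.mul_mem _ _ (hO _) (pow_mem haO n)), ?_⟩
        rw [map_monomial, eval₂_monomial, eval₂_monomial]
        conv_rhs => rw [← c.X_mul_divX_add]
        simp only [coe_evalRingHom, RingHom.comp_apply, map_add, map_mul, ← hμd,
          ← coeff_zero_eq_eval_zero]
        simp only [X_mul_divX_add]
        ring
    obtain ⟨o, ho, e⟩ := key Q
    rw [e, hQ, zero_add, mul_right_comm]
    exact O.mul_mem _ _ hμπ ho

end

end Vale.Agent.P256
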